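import Vale.Agent.Lib.P243.Interval

/-!
# P243: the Brunn-Minkowski inequality for bounded convex sets in the plane
-/

namespace Vale.Agent.Lib.P243

open MeasureTheory Set
open scoped Pointwise

/-- A one-dimensional Borell-Brascamp-Lieb inequality for functions with convex level sets. -/
theorem bbl_one {a b c : ℝ → ℝ} (ha : Measurable a) (hb : Measurable b) (hc : Measurable c)
    (ha0 : ∀ x, 0 ≤ a x) (hb0 : ∀ x, 0 ≤ b x) (hc0 : ∀ x, 0 ≤ c x)
    {hA hB : ℝ} (hA0 : 0 < hA) (hB0 : 0 < hB)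
    (hAub : ∀ x, a x ≤ hA) (hAlub : ∀ s, s < hA → ∃ x, s < a x)
    (hBub : ∀ x, b x ≤ hB) (hBlub : ∀ s, s < hB → ∃ x, s < b x)
    (hconvA : ∀ s, 0 < s → Convex ℝ {x | s < a x})
    (hconvB : ∀ s, 0 < s → Convex ℝ {x | s < b x})
    (hbddA : ∀ s, 0 < s → Bornology.IsBounded {x | s < a x})
    (hbddB : ∀ s, 0 < s → Bornology.IsBounded {x | s < b x})
    {u v : ℝ} (hu : 0 ≤ u) (hv : 0 ≤ v) (huv : u + v = 1)
    (h : ∀ x y, 0 < a x → 0 < b y → u * a x + v * b y ≤ c (u * x + v * y)) :
    ENNReal.ofReal (u + v * (hB / hA)) *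
        (ENNReal.ofReal u * (∫⁻ x, ENNReal.ofReal (a x)) +
          ENNReal.ofReal (v * (hA / hB)) * (∫⁻ x, ENNReal.ofReal (b x))) ≤
      ∫⁻ x, ENNReal.ofReal (c x) := by
  set κ := hB / hA with hκ
  have hκ0 : 0 < κ := div_pos hB0 hA0
  set θ := u + v * κ with hθ
  have hθ0 : 0 < θ := by
    rcases hu.eq_or_lt with h0 | h0
    · have hv1 : v = 1 := by linarith
      rw [hθ, ← h0, hv1]
      simpa using hκ0
    · have := mul_nonneg hv hκ0.le
      linarith
  have lcA : ∫⁻ x, ENNReal.ofReal (a x) = ∫⁻ t in Ioi 0, volume {x | t < a x} :=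
    lintegral_eq_lintegral_meas_lt volume (Filter.Eventually.of_forall ha0) ha.aemeasurable
  have lcB : ∫⁻ x, ENNReal.ofReal (b x / κ) = ∫⁻ t in Ioi 0, volume {x | t < b x / κ} :=
    lintegral_eq_lintegral_meas_lt volume
      (Filter.Eventually.of_forall fun x => div_nonneg (hb0 x) hκ0.le)
      (hb.div_const κ).aemeasurable
  have lcC : ∫⁻ x, ENNReal.ofReal (c x / θ) = ∫⁻ t in Ioi 0, volume {x | t < c x / θ} :=
    lintegral_eq_lintegral_meas_lt volume
      (Filter.Eventually.of_forall fun x => div_nonneg (hc0 x) hθ0.le)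
      (hc.div_const θ).aemeasurable
  have key : ∀ t ∈ Ioi (0 : ℝ),
      ENNReal.ofReal u * volume {x | t < a x} + ENNReal.ofReal v * volume {x | t < b x / κ} ≤
        volume {x | t < c x / θ} := by
    intro t ht
    have ht0 : 0 < t := ht
    by_cases htA : t < hA
    · have hκt : κ * t < hB := by
        have h1 : hB / hA * t < hB / hA * hA := mul_lt_mul_of_pos_left htA hκ0
        rwa [div_mul_cancel₀ _ hA0.ne'] at h1
      have eB : {x | t < b x / κ} = {x | κ * t < b x} := by
        ext x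
        simp only [mem_setOf_eq]
        rw [lt_div_iff₀ hκ0, mul_comm]
      rw [eB]
      obtain ⟨x0, hx0⟩ := hAlub t htA
      obtain ⟨y0, hy0⟩ := hBlub (κ * t) hκt
      refine volume_combo_le (hconvA t ht0) (hconvB (κ * t) (mul_pos hκ0 ht0)) ⟨x0, hx0⟩
        ⟨y0, hy0⟩ (hbddA t ht0) (hbddB _ (mul_pos hκ0 ht0)) hu hv huv ?_
      intro x hx y hy
      have hx' : t < a x := hx
      have hy' : κ * t < b y := hy
      have hax : 0 < a x := ht0.trans hx'
      have hby : 0 < b y := (mul_pos hκ0 ht0).trans hy'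
      have h1 := h x y hax hby
      have h2 := combo_lt hu hv huv hx' hy'
      show t < c (u * x + v * y) / θ
      rw [lt_div_iff₀ hθ0]
      calc t * θ = u * t + v * (κ * t) := by rw [hθ]; ring
        _ < u * a x + v * b y := h2
        _ ≤ _ := h1
    · have hA' : hA ≤ t := not_lt.mp htA
      have e1 : {x | t < a x} = ∅ := by
        ext x
        simp only [mem_setOf_eq, mem_empty_iff_false, iff_false, not_lt]
        exact (hAub x).trans hA'
      have e2 : {x | t < b x / κ} = ∅ := by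
        ext x
        simp only [mem_setOf_eq, mem_empty_iff_false, iff_false, not_lt]
        rw [div_le_iff₀ hκ0]
        calc b x ≤ hB := hBub x
          _ = hA * κ := by rw [hκ]; field_simp
          _ ≤ t * κ := by gcongr
      rw [e1, e2]
      simp
  have hmeasA : Measurable fun t : ℝ => ENNReal.ofReal u * volume {x | t < a x} := by
    apply Measurable.const_mul
    apply Antitone.measurable
    intro s t hst
    exact measure_mono fun x hx => lt_of_le_of_lt hst hx
  have step : ENNReal.ofReal u * (∫⁻ x, ENNReal.ofReal (a x)) +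
      ENNReal.ofReal v * (∫⁻ x, ENNReal.ofReal (b x / κ)) ≤ ∫⁻ x, ENNReal.ofReal (c x / θ) := by
    rw [lcA, lcB, lcC, ← lintegral_const_mul' _ _ ENNReal.ofReal_ne_top,
      ← lintegral_const_mul' _ _ ENNReal.ofReal_ne_top, ← lintegral_add_left hmeasA]
    exact setLIntegral_mono' measurableSet_Ioi key
  have eC : ∫⁻ x, ENNReal.ofReal (c x) = ENNReal.ofReal θ * ∫⁻ x, ENNReal.ofReal (c x / θ) := by
    rw [← lintegral_const_mul' _ _ ENNReal.ofReal_ne_top]
    congr 1
    ext x
    rw [← ENNReal.ofReal_mul hθ0.le]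
    congr 1
    field_simp
  have eB : ∫⁻ x, ENNReal.ofReal (b x / κ) =
      ENNReal.ofReal (hA / hB) * ∫⁻ x, ENNReal.ofReal (b x) := by
    rw [← lintegral_const_mul' _ _ ENNReal.ofReal_ne_top]
    congr 1
    ext x
    rw [← ENNReal.ofReal_mul (div_nonneg hA0.le hB0.le)]
    congr 1
    rw [hκ]
    field_simp
  rw [eC]
  gcongr
  rw [eB] at step
  calc ENNReal.ofReal u * (∫⁻ x, ENNReal.ofReal (a x)) +
        ENNReal.ofReal (v * (hA / hB)) * (∫⁻ x, ENNReal.ofReal (b x))
      = ENNReal.ofReal u * (∫⁻ x, ENNReal.ofReal (a x)) +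
        ENNReal.ofReal v * (ENNReal.ofReal (hA / hB) * (∫⁻ x, ENNReal.ofReal (b x))) := by
        rw [ENNReal.ofReal_mul hv, mul_assoc]
    _ ≤ _ := step

theorem bm_degenerate {B C : Set (ℝ × ℝ)} {p₀ : ℝ × ℝ} {u v : ℝ} (hv : 0 ≤ v)
    (hCfin : volume C ≠ ⊤) (hsub : ∀ q ∈ B, u • p₀ + v • q ∈ C) :
    v * √(volume B).toReal ≤ √(volume C).toReal := by
  rcases hv.eq_or_lt with h0 | h0
  · rw [← h0, zero_mul]
    exact Real.sqrt_nonneg _
  have hss : (u • p₀) +ᵥ (v • B) ⊆ C := by
    rintro _ ⟨_, ⟨q, hq, rfl⟩, rfl⟩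
    exact hsub q hq
  have hvol : volume ((u • p₀) +ᵥ (v • B)) = ENNReal.ofReal (v ^ 2) * volume B := by
    rw [measure_vadd, Measure.addHaar_smul]
    have : Module.finrank ℝ (ℝ × ℝ) = 2 := by simp
    rw [this, abs_of_nonneg (by positivity)]
  have hle : ENNReal.ofReal (v ^ 2) * volume B ≤ volume C := hvol ▸ measure_mono hss
  have hv2 : ENNReal.ofReal (v ^ 2) ≠ 0 := by
    rw [Ne, ENNReal.ofReal_eq_zero, not_le]
    positivity
  have hBfin : volume B ≠ ⊤ := by
    intro hB
    rw [hB, ENNReal.mul_top hv2] at hle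
    exact hCfin (top_le_iff.mp hle)
  have h1 : v ^ 2 * (volume B).toReal ≤ (volume C).toReal := by
    have := ENNReal.toReal_mono hCfin hle
    rwa [ENNReal.toReal_mul, ENNReal.toReal_ofReal (by positivity)] at this
  calc v * √(volume B).toReal = √(v ^ 2 * (volume B).toReal) := by
        rw [Real.sqrt_mul (by positivity), Real.sqrt_sq hv]
    _ ≤ √(volume C).toReal := Real.sqrt_le_sqrt h1

theorem fibre_bounded {S : Set (ℝ × ℝ)} (hS : Bornology.IsBounded S) (x : ℝ) :
    Bornology.IsBounded (Prod.mk x ⁻¹' S) :=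
  (LipschitzWith.prod_snd.isBounded_image hS).subset fun z hz => ⟨(x, z), hz, rfl⟩

/-- **Brunn-Minkowski inequality** for bounded convex measurable sets in the plane. -/
theorem bm_planar {A B C : Set (ℝ × ℝ)} (hA : Convex ℝ A) (hB : Convex ℝ B)
    (hAm : MeasurableSet A) (hBm : MeasurableSet B) (hCm : MeasurableSet C)
    (hAb : Bornology.IsBounded A) (hBb : Bornology.IsBounded B) (hCb : Bornology.IsBounded C)
    (hAne : A.Nonempty) (hBne : B.Nonempty)
    {u v : ℝ} (hu : 0 ≤ u) (hv : 0 ≤ v) (huv : u + v = 1)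
    (hsub : ∀ p ∈ A, ∀ q ∈ B, u • p + v • q ∈ C) :
    u * √(volume A).toReal + v * √(volume B).toReal ≤ √(volume C).toReal := by
  have hAfin : volume A ≠ ⊤ := hAb.measure_lt_top.ne
  have hBfin : volume B ≠ ⊤ := hBb.measure_lt_top.ne
  have hCfin : volume C ≠ ⊤ := hCb.measure_lt_top.ne
  by_cases hA0 : volume A = 0
  · obtain ⟨p₀, hp₀⟩ := hAne
    rw [hA0, ENNReal.toReal_zero, Real.sqrt_zero, mul_zero, zero_add]
    exact bm_degenerate hv hCfin (fun q hq => hsub p₀ hp₀ q hq)
  by_cases hB0 : volume B = 0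
  · obtain ⟨q₀, hq₀⟩ := hBne
    rw [hB0, ENNReal.toReal_zero, Real.sqrt_zero, mul_zero, add_zero]
    exact bm_degenerate hu hCfin (fun p hp => by rw [add_comm]; exact hsub p hp q₀ hq₀)
  -- section functions
  have secfin : ∀ {S : Set (ℝ × ℝ)}, Bornology.IsBounded S → ∀ x,
      volume (Prod.mk x ⁻¹' S) ≠ ⊤ := fun hS x => (fibre_bounded hS x).measure_lt_top.ne
  set a : ℝ → ℝ := fun x => (volume (Prod.mk x ⁻¹' A)).toReal with ha
  set b : ℝ → ℝ := fun x => (volume (Prod.mk x ⁻¹' B)).toReal with hb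
  set c : ℝ → ℝ := fun x => (volume (Prod.mk x ⁻¹' C)).toReal with hc
  have ham : Measurable a := (measurable_measure_prodMk_left hAm).ennreal_toReal
  have hbm : Measurable b := (measurable_measure_prodMk_left hBm).ennreal_toReal
  have hcm : Measurable c := (measurable_measure_prodMk_left hCm).ennreal_toReal
  have volA : volume A = ∫⁻ x, ENNReal.ofReal (a x) := by
    rw [Measure.volume_eq_prod, Measure.prod_apply hAm]
    refine lintegral_congr fun x => ?_
    rw [ha, ENNReal.ofReal_toReal (secfin hAb x)]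
  have volB : volume B = ∫⁻ x, ENNReal.ofReal (b x) := by
    rw [Measure.volume_eq_prod, Measure.prod_apply hBm]
    refine lintegral_congr fun x => ?_
    rw [hb, ENNReal.ofReal_toReal (secfin hBb x)]
  have volC : volume C = ∫⁻ x, ENNReal.ofReal (c x) := by
    rw [Measure.volume_eq_prod, Measure.prod_apply hCm]
    refine lintegral_congr fun x => ?_
    rw [hc, ENNReal.ofReal_toReal (secfin hCb x)]
  have secne : ∀ {S : Set (ℝ × ℝ)} {x : ℝ}, 0 < (volume (Prod.mk x ⁻¹' S)).toReal →
      (Prod.mk x ⁻¹' S).Nonempty := by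
    intro S x h
    by_contra hne
    rw [not_nonempty_iff_eq_empty] at hne
    rw [hne, measure_empty, ENNReal.toReal_zero] at h
    exact lt_irrefl _ h
  -- bounds for the section functions
  have bddA : BddAbove (range a) := by
    refine ⟨(volume (Prod.snd '' A)).toReal, ?_⟩
    rintro _ ⟨x, rfl⟩
    exact ENNReal.toReal_mono (LipschitzWith.prod_snd.isBounded_image hAb).measure_lt_top.ne
      (measure_mono fun z hz => ⟨(x, z), hz, rfl⟩)
  have bddB : BddAbove (range b) := by
    refine ⟨(volume (Prod.snd '' B)).toReal, ?_⟩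
    rintro _ ⟨x, rfl⟩
    exact ENNReal.toReal_mono (LipschitzWith.prod_snd.isBounded_image hBb).measure_lt_top.ne
      (measure_mono fun z hz => ⟨(x, z), hz, rfl⟩)
  have exA : ∃ x, 0 < a x := by
    by_contra hne
    push Not at hne
    apply hA0
    rw [volA]
    have : ∀ x, ENNReal.ofReal (a x) = 0 := fun x => ENNReal.ofReal_eq_zero.mpr (hne x)
    simp [this]
  have exB : ∃ x, 0 < b x := by
    by_contra hne
    push Not at hne
    apply hB0
    rw [volB]
    have : ∀ x, ENNReal.ofReal (b x) = 0 := fun x => ENNReal.ofReal_eq_zero.mpr (hne x)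
    simp [this]
  set hAs := ⨆ x, a x with hAs_def
  set hBs := ⨆ x, b x with hBs_def
  have hAs0 : 0 < hAs := by
    obtain ⟨x, hx⟩ := exA
    exact hx.trans_le (le_ciSup bddA x)
  have hBs0 : 0 < hBs := by
    obtain ⟨x, hx⟩ := exB
    exact hx.trans_le (le_ciSup bddB x)
  -- concavity of section lengths
  have conc : ∀ {S₁ S₂ S₃ : Set (ℝ × ℝ)}, Convex ℝ S₁ → Convex ℝ S₂ → Bornology.IsBounded S₁ →
      Bornology.IsBounded S₂ → Bornology.IsBounded S₃ → ∀ {w w' : ℝ}, 0 ≤ w → 0 ≤ w' →
      w + w' = 1 → (∀ p ∈ S₁, ∀ q ∈ S₂, w • p + w' • q ∈ S₃) → ∀ x y : ℝ,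
      0 < (volume (Prod.mk x ⁻¹' S₁)).toReal → 0 < (volume (Prod.mk y ⁻¹' S₂)).toReal →
      w * (volume (Prod.mk x ⁻¹' S₁)).toReal + w' * (volume (Prod.mk y ⁻¹' S₂)).toReal ≤
        (volume (Prod.mk (w * x + w' * y) ⁻¹' S₃)).toReal := by
    intro S₁ S₂ S₃ h₁ h₂ hb₁ hb₂ hb₃ w w' hw hw' hww' hs x y hx hy
    have h := fibre_combo h₁ h₂ (fibre_bounded hb₁ x) (fibre_bounded hb₂ y) (secne hx) (secne hy)
      hw hw' hww' hs
    have h' := ENNReal.toReal_mono (secfin hb₃ _) h
    rw [ENNReal.toReal_add (ENNReal.mul_ne_top ENNReal.ofReal_ne_top (secfin hb₁ x))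
      (ENNReal.mul_ne_top ENNReal.ofReal_ne_top (secfin hb₂ y)), ENNReal.toReal_mul,
      ENNReal.toReal_mul, ENNReal.toReal_ofReal hw, ENNReal.toReal_ofReal hw'] at h'
    exact h'
  have convA : ∀ s, 0 < s → Convex ℝ {x | s < a x} := by
    intro s hs x hx y hy w w' hw hw' hww'
    have hx' : s < a x := hx
    have hy' : s < a y := hy
    have h := conc hA hA hAb hAb hAb hw hw' hww' (fun p hp q hq => hA hp hq hw hw' hww') x y
      (hs.trans hx') (hs.trans hy')
    have h2 := combo_lt hw hw' hww' hx' hy'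
    show s < a (w • x + w' • y)
    calc s = w * s + w' * s := by rw [← add_mul, hww', one_mul]
      _ < w * a x + w' * a y := h2
      _ ≤ _ := h
  have convB : ∀ s, 0 < s → Convex ℝ {x | s < b x} := by
    intro s hs x hx y hy w w' hw hw' hww'
    have hx' : s < b x := hx
    have hy' : s < b y := hy
    have h := conc hB hB hBb hBb hBb hw hw' hww' (fun p hp q hq => hB hp hq hw hw' hww') x y
      (hs.trans hx') (hs.trans hy')
    have h2 := combo_lt hw hw' hww' hx' hy'
    show s < b (w • x + w' • y)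
    calc s = w * s + w' * s := by rw [← add_mul, hww', one_mul]
      _ < w * b x + w' * b y := h2
      _ ≤ _ := h
  have bdA : ∀ s, 0 < s → Bornology.IsBounded {x | s < a x} := by
    intro s hs
    refine (LipschitzWith.prod_fst.isBounded_image hAb).subset fun x hx => ?_
    obtain ⟨z, hz⟩ := secne (hs.trans (show s < a x from hx))
    exact ⟨(x, z), hz, rfl⟩
  have bdB : ∀ s, 0 < s → Bornology.IsBounded {x | s < b x} := by
    intro s hs
    refine (LipschitzWith.prod_fst.isBounded_image hBb).subset fun x hx => ?_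
    obtain ⟨z, hz⟩ := secne (hs.trans (show s < b x from hx))
    exact ⟨(x, z), hz, rfl⟩
  have main := bbl_one ham hbm hcm (fun x => ENNReal.toReal_nonneg)
    (fun x => ENNReal.toReal_nonneg) (fun x => ENNReal.toReal_nonneg) hAs0 hBs0
    (fun x => le_ciSup bddA x) (fun s hs => exists_lt_of_lt_ciSup hs)
    (fun x => le_ciSup bddB x) (fun s hs => exists_lt_of_lt_ciSup hs)
    convA convB bdA bdB hu hv huv
    (fun x y hx hy => conc hA hB hAb hBb hCb hu hv huv hsub x y hx hy)
  rw [← volA, ← volB, ← volC] at main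
  set κ := hBs / hAs with hκ
  have hκ0 : 0 < κ := div_pos hBs0 hAs0
  set VA := (volume A).toReal with hVA
  set VB := (volume B).toReal with hVB
  set VC := (volume C).toReal with hVC
  have hθ0 : 0 ≤ u + v * κ := by positivity
  have hvk : 0 ≤ v * (hAs / hBs) := by positivity
  have mainR : (u + v * κ) * (u * VA + v * (hAs / hBs) * VB) ≤ VC := by
    have h' := ENNReal.toReal_mono hCfin main
    rw [ENNReal.toReal_mul, ENNReal.toReal_ofReal hθ0,
      ENNReal.toReal_add (ENNReal.mul_ne_top ENNReal.ofReal_ne_top hAfin)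
        (ENNReal.mul_ne_top ENNReal.ofReal_ne_top hBfin),
      ENNReal.toReal_mul, ENNReal.toReal_mul, ENNReal.toReal_ofReal hu,
      ENNReal.toReal_ofReal hvk] at h'
    exact h'
  set p := √VA with hp
  set q := √VB with hq
  have hp2 : p ^ 2 = VA := Real.sq_sqrt ENNReal.toReal_nonneg
  have hq2 : q ^ 2 = VB := Real.sq_sqrt ENNReal.toReal_nonneg
  have hp0 : 0 ≤ p := Real.sqrt_nonneg _
  have hq0 : 0 ≤ q := Real.sqrt_nonneg _
  have key : (u * p + v * q) ^ 2 ≤ (u + v * κ) * (u * VA + v * (hAs / hBs) * VB) := by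
    have h1 : 0 ≤ u * v * (κ * p - q) ^ 2 / κ := by positivity
    have e : (u + v * κ) * (u * VA + v * (hAs / hBs) * VB) - (u * p + v * q) ^ 2 =
        u * v * (κ * p - q) ^ 2 / κ := by
      rw [← hp2, ← hq2, hκ]
      field_simp
      ring
    linarith
  exact Real.le_sqrt_of_sq_le (key.trans mainR)

end Vale.Agent.Lib.P243
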