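import Mathlib

/-!
# P243: Bang's plank theorem (Bang's lemma and the translation argument)
-/

namespace Vale.Agent.Lib.P243

open Finset

variable {E : Type*} [NormedAddCommGroup E] [InnerProductSpace ℝ E]

/-- The sign `±1` attached to a Boolean. -/
def sgn (b : Bool) : ℝ := if b then 1 else -1

theorem sgn_mul_self (b : Bool) : sgn b * sgn b = 1 := by cases b <;> simp [sgn]

theorem sgn_not (b : Bool) : sgn (!b) = -sgn b := by cases b <;> simp [sgn]

theorem abs_sgn (b : Bool) : |sgn b| = 1 := by cases b <;> simp [sgn]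

/-- **Bang's lemma.**  For vectors `a i` and reals `c i` there are signs such that the signed
sum `y` satisfies `‖a j‖² ≤ ± (⟪y, a j⟫ - c j)` for every `j`. -/
theorem bang_lemma {ι : Type*} [Fintype ι] [DecidableEq ι] (a : ι → E) (c : ι → ℝ) :
    ∃ ε : ι → Bool, ∀ j,
      ‖a j‖ ^ 2 ≤ sgn (ε j) * (inner ℝ (∑ i, sgn (ε i) • a i) (a j) - c j) := by
  let F : (ι → Bool) → ℝ := fun ε =>
    ‖∑ i, sgn (ε i) • a i‖ ^ 2 - 2 * ∑ i, sgn (ε i) * c i
  obtain ⟨ε, -, hε⟩ := Finset.exists_max_image (Finset.univ : Finset (ι → Bool)) F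
    ⟨fun _ => true, Finset.mem_univ _⟩
  refine ⟨ε, fun j => ?_⟩
  have h := hε (Function.update ε j (!ε j)) (Finset.mem_univ _)
  set y := ∑ i, sgn (ε i) • a i with hy
  set σ := sgn (ε j) with hσ
  have hσσ : σ * σ = 1 := sgn_mul_self _
  have hsum1 : ∑ i, sgn (Function.update ε j (!ε j) i) • a i = y - (2 * σ) • a j := by
    have hterm : ∀ i, sgn (Function.update ε j (!ε j) i) • a i =
        sgn (ε i) • a i - (if i = j then (2 * σ) • a j else 0) := by
      intro i
      by_cases hij : i = j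
      · subst hij
        rw [Function.update_self, sgn_not, if_pos rfl, hσ, neg_smul, mul_smul, two_smul]
        abel
      · rw [Function.update_of_ne hij, if_neg hij, sub_zero]
    rw [Finset.sum_congr rfl (fun i _ => hterm i), Finset.sum_sub_distrib,
      Finset.sum_ite_eq' Finset.univ j, if_pos (Finset.mem_univ _)]
  have hsum2 : ∑ i, sgn (Function.update ε j (!ε j) i) * c i =
      ∑ i, sgn (ε i) * c i - 2 * σ * c j := by
    have hterm : ∀ i, sgn (Function.update ε j (!ε j) i) * c i =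
        sgn (ε i) * c i - (if i = j then 2 * σ * c j else 0) := by
      intro i
      by_cases hij : i = j
      · subst hij
        rw [Function.update_self, sgn_not, if_pos rfl, hσ]
        ring
      · rw [Function.update_of_ne hij, if_neg hij, sub_zero]
    rw [Finset.sum_congr rfl (fun i _ => hterm i), Finset.sum_sub_distrib,
      Finset.sum_ite_eq' Finset.univ j, if_pos (Finset.mem_univ _)]
  have hF1 : F (Function.update ε j (!ε j)) =
      ‖y - (2 * σ) • a j‖ ^ 2 - 2 * (∑ i, sgn (ε i) * c i - 2 * σ * c j) := by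
    show ‖∑ i, sgn (Function.update ε j (!ε j) i) • a i‖ ^ 2 -
      2 * ∑ i, sgn (Function.update ε j (!ε j) i) * c i = _
    rw [hsum1, hsum2]
  have hF2 : F ε = ‖y‖ ^ 2 - 2 * ∑ i, sgn (ε i) * c i := rfl
  have hnorm : ‖y - (2 * σ) • a j‖ ^ 2 =
      ‖y‖ ^ 2 - 4 * σ * inner ℝ y (a j) + 4 * ‖a j‖ ^ 2 := by
    rw [norm_sub_sq_real, inner_smul_right, norm_smul, mul_pow, Real.norm_eq_abs, sq_abs]
    have : (2 * σ) ^ 2 = 4 := by nlinarith
    rw [this]
    ring
  rw [hF1, hF2, hnorm] at h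
  nlinarith

/-- `HasChords K w`: every vector of length at most `w` is a difference of two points of
`K`. -/
def HasChords (K : Set E) (w : ℝ) : Prop := ∀ v : E, ‖v‖ ≤ w → ∃ q ∈ K, q + v ∈ K

theorem convex_shrink {K : Set E} (hK : Convex ℝ K) (a : E) :
    Convex ℝ {x | x + a ∈ K ∧ x - a ∈ K} := by
  intro x hx y hy s t hs ht hst
  refine ⟨?_, ?_⟩
  · have h := hK hx.1 hy.1 hs ht hst
    have e : s • x + t • y + a = s • (x + a) + t • (y + a) := by
      rw [smul_add, smul_add]
      have : a = s • a + t • a := by rw [← add_smul, hst, one_smul]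
      nth_rewrite 1 [this]
      abel
    show s • x + t • y + a ∈ K
    rw [e]
    exact h
  · have h := hK hx.2 hy.2 hs ht hst
    have e : s • x + t • y - a = s • (x - a) + t • (y - a) := by
      rw [smul_sub, smul_sub]
      have : a = s • a + t • a := by rw [← add_smul, hst, one_smul]
      nth_rewrite 1 [this]
      abel
    show s • x + t • y - a ∈ K
    rw [e]
    exact h

theorem hasChords_shrink {K : Set E} (hK : Convex ℝ K) {w : ℝ} (hD : HasChords K w) (a : E)
    (ha : 2 * ‖a‖ ≤ w) : HasChords {x | x + a ∈ K ∧ x - a ∈ K} (w - 2 * ‖a‖) := by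
  intro v hv
  by_cases ha0 : a = 0
  · subst ha0
    rw [norm_zero, mul_zero, sub_zero] at hv
    obtain ⟨q, hq, hqv⟩ := hD v hv
    refine ⟨q, ⟨by simpa using hq, by simpa using hq⟩, ⟨by simpa using hqv, by simpa using hqv⟩⟩
  have hapos : 0 < ‖a‖ := norm_pos_iff.mpr ha0
  have hw : 0 < w := by linarith
  obtain ⟨q₀, hq₀, hp₀⟩ := hD ((w / ‖a‖) • a) (by
    rw [norm_smul, Real.norm_of_nonneg (by positivity), div_mul_cancel₀ _ hapos.ne'])
  set μ := 2 * ‖a‖ / w with hμ
  have hμ0 : 0 < μ := by positivity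
  have hμ1 : μ ≤ 1 := by
    rw [hμ, div_le_one hw]
    exact ha
  have hμw : μ * (w / ‖a‖) = 2 := by
    rw [hμ]
    field_simp
  -- the map z ↦ (1 - μ) • z + μ • q₀ + a sends K into the shrunk set
  have key : ∀ z ∈ K, (1 - μ) • z + μ • q₀ + a ∈ {x | x + a ∈ K ∧ x - a ∈ K} := by
    intro z hz
    refine ⟨?_, ?_⟩
    · have h := hK hz hp₀ (by linarith : (0 : ℝ) ≤ 1 - μ) hμ0.le (by ring)
      have e : (1 - μ) • z + μ • q₀ + a + a = (1 - μ) • z + μ • (q₀ + (w / ‖a‖) • a) := by
        rw [smul_add, smul_smul, hμw, two_smul]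
        abel
      show (1 - μ) • z + μ • q₀ + a + a ∈ K
      rw [e]
      exact h
    · have h := hK hz hq₀ (by linarith : (0 : ℝ) ≤ 1 - μ) hμ0.le (by ring)
      show (1 - μ) • z + μ • q₀ + a - a ∈ K
      rw [add_sub_cancel_right]
      exact h
  rcases eq_or_lt_of_le hμ1 with h1 | h1
  · -- w = 2 ‖a‖, so v = 0
    have hw2 : w = 2 * ‖a‖ := by
      have := h1
      rw [hμ, div_eq_one_iff_eq hw.ne'] at this
      exact this.symm
    have hv0 : v = 0 := by
      rw [hw2, sub_self] at hv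
      exact norm_le_zero_iff.mp hv
    subst hv0
    refine ⟨_, key q₀ hq₀, ?_⟩
    rw [add_zero]
    exact key q₀ hq₀
  · have h1μ : 0 < 1 - μ := by linarith
    have hvn : ‖(1 - μ)⁻¹ • v‖ ≤ w := by
      rw [norm_smul, Real.norm_of_nonneg (inv_nonneg.mpr h1μ.le), inv_mul_le_iff₀ h1μ]
      have : (1 - μ) * w = w - 2 * ‖a‖ := by
        rw [hμ]
        field_simp
      rw [this]
      exact hv
    obtain ⟨z, hz, hz2⟩ := hD _ hvn
    refine ⟨_, key z hz, ?_⟩
    have e : (1 - μ) • z + μ • q₀ + a + v = (1 - μ) • (z + (1 - μ)⁻¹ • v) + μ • q₀ + a := by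
      rw [smul_add, smul_smul, mul_inv_cancel₀ h1μ.ne', one_smul]
      abel
    rw [e]
    exact key _ hz2

/-- A convex set with chords of all lengths up to `w` contains a translate of all signed sums
of vectors `a i` whose doubled lengths add up to at most `w`. -/
theorem exists_translate {ι : Type*} (s : Finset ι) (a : ι → E) :
    ∀ (K : Set E) (w : ℝ), Convex ℝ K → HasChords K w → 2 * ∑ i ∈ s, ‖a i‖ ≤ w →
      ∃ x, ∀ ε : ι → Bool, x + ∑ i ∈ s, sgn (ε i) • a i ∈ K := by
  classical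
  induction s using Finset.induction_on with
  | empty =>
    intro K w hK hD hw
    obtain ⟨q, hq, -⟩ := hD 0 (by simpa using hw)
    exact ⟨q, fun ε => by simpa using hq⟩
  | insert j s hj ih =>
    intro K w hK hD hw
    rw [Finset.sum_insert hj] at hw
    have hnn : 0 ≤ ∑ i ∈ s, ‖a i‖ := Finset.sum_nonneg fun i _ => norm_nonneg _
    obtain ⟨x, hx⟩ := ih _ (w - 2 * ‖a j‖) (convex_shrink hK (a j))
      (hasChords_shrink hK hD (a j) (by linarith)) (by linarith)
    refine ⟨x, fun ε => ?_⟩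
    rw [Finset.sum_insert hj]
    have h := hx ε
    cases hε : ε j
    · have e : x + (sgn false • a j + ∑ i ∈ s, sgn (ε i) • a i) =
          x + ∑ i ∈ s, sgn (ε i) • a i - a j := by
        simp only [sgn, Bool.false_eq_true, if_false, neg_smul, one_smul]
        abel
      rw [e]
      exact h.2
    · have e : x + (sgn true • a j + ∑ i ∈ s, sgn (ε i) • a i) =
          x + ∑ i ∈ s, sgn (ε i) • a i + a j := by
        simp only [sgn, if_true, one_smul]
        abel
      rw [e]
      exact h.1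

/-- **Bang's theorem**, in the form used here: a convex set having chords of all lengths up
to `w` is not covered by the open planks `{y | |⟪y, a j⟫ - c j| < ‖a j‖²}` (of widths
`2 ‖a j‖`) when `2 ∑ ‖a j‖ ≤ w`. -/
theorem bang_planks {ι : Type*} [Fintype ι] {K : Set E} (hK : Convex ℝ K) {w : ℝ}
    (hD : HasChords K w) (a : ι → E) (c : ι → ℝ) (hw : 2 * ∑ i, ‖a i‖ ≤ w) :
    ∃ y ∈ K, ∀ j, ‖a j‖ ^ 2 ≤ |inner ℝ y (a j) - c j| := by
  classical
  obtain ⟨x, hx⟩ := exists_translate Finset.univ a K w hK hD hw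
  obtain ⟨ε, hε⟩ := bang_lemma a (fun j => c j - inner ℝ x (a j))
  refine ⟨x + ∑ i, sgn (ε i) • a i, hx ε, fun j => ?_⟩
  have h := hε j
  rw [inner_add_left]
  have e : inner ℝ x (a j) + inner ℝ (∑ i, sgn (ε i) • a i) (a j) - c j =
      inner ℝ (∑ i, sgn (ε i) • a i) (a j) - (c j - inner ℝ x (a j)) := by ring
  rw [e]
  refine h.trans ?_
  cases ε j
  · simp only [sgn, Bool.false_eq_true, if_false, neg_mul, one_mul]
    exact neg_le_abs _
  · simp only [sgn, if_true, one_mul]
    exact le_abs_self _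

/-- Bang's theorem for open planks `{y | ⟪θ j, y⟫ ∈ (α j, β j)}` with unit normals. -/
theorem bang_intervals {ι : Type*} [Fintype ι] {K : Set E} (hK : Convex ℝ K) {w : ℝ}
    (hD : HasChords K w) (θ : ι → E) (hθ : ∀ i, ‖θ i‖ = 1) (α β : ι → ℝ)
    (hw : ∑ i, max (β i - α i) 0 ≤ w) :
    ∃ y ∈ K, ∀ j, inner ℝ (θ j) y ∉ Set.Ioo (α j) (β j) := by
  obtain ⟨y, hy, hyj⟩ := bang_planks hK hD (fun i => (max (β i - α i) 0 / 2) • θ i)
    (fun i => (max (β i - α i) 0 / 2) * ((α i + β i) / 2)) (by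
      have e : ∀ i, ‖(max (β i - α i) 0 / 2) • θ i‖ = max (β i - α i) 0 / 2 := by
        intro i
        rw [norm_smul, hθ i, mul_one, Real.norm_of_nonneg (by positivity)]
      rw [Finset.sum_congr rfl (fun i _ => e i), ← Finset.sum_div, mul_div_cancel₀ _ two_ne_zero]
      exact hw)
  refine ⟨y, hy, fun j hmem => ?_⟩
  have h := hyj j
  have hpos : 0 < β j - α j := by linarith [hmem.1, hmem.2]
  rw [max_eq_left hpos.le, norm_smul, hθ j, mul_one, Real.norm_of_nonneg (by positivity),
    inner_smul_right, real_inner_comm, ← mul_sub, abs_mul,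
    abs_of_pos (by positivity : 0 < (β j - α j) / 2)] at h
  have h2 : (β j - α j) / 2 ≤ |inner ℝ (θ j) y - (α j + β j) / 2| := by
    have hp : 0 < (β j - α j) / 2 := by positivity
    nlinarith
  have h3 : |inner ℝ (θ j) y - (α j + β j) / 2| < (β j - α j) / 2 := by
    rw [abs_lt]
    constructor <;> linarith [hmem.1, hmem.2]
  linarith

end Vale.Agent.Lib.P243
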