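import Vale.Agent.Lib.P243.Slices

/-!
# P243, step 6: two cylinders along coordinate axes
-/

namespace Vale.Agent.Lib.P243

open MeasureTheory Set

theorem integral_tent {z₀ z₁ : ℝ} (h : z₀ < z₁) :
    ∫ t in z₀..z₁, 2 * min (t - z₀) (z₁ - t) / (z₁ - z₀) ^ 2 = 1 / 2 := by
  have hw : z₁ - z₀ ≠ 0 := by linarith
  have hcont : Continuous fun t : ℝ => 2 * min (t - z₀) (z₁ - t) / (z₁ - z₀) ^ 2 := by
    have hm : Continuous fun t : ℝ => min (t - z₀) (z₁ - t) :=
      (continuous_id.sub continuous_const).min (continuous_const.sub continuous_id)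
    fun_prop
  set mid := (z₀ + z₁) / 2 with hmid
  rw [← intervalIntegral.integral_add_adjacent_intervals (a := z₀) (b := mid) (c := z₁)
    (hcont.intervalIntegrable _ _) (hcont.intervalIntegrable _ _)]
  have e1 : ∫ t in z₀..mid, 2 * min (t - z₀) (z₁ - t) / (z₁ - z₀) ^ 2 =
      ∫ t in z₀..mid, (2 / (z₁ - z₀) ^ 2) * (t - z₀) := by
    refine intervalIntegral.integral_congr fun t ht => ?_
    rw [uIcc_of_le (by rw [hmid]; linarith)] at ht
    have : t - z₀ ≤ z₁ - t := by have := ht.2; rw [hmid] at this; linarith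
    simp only [min_eq_left this]
    ring
  have e2 : ∫ t in mid..z₁, 2 * min (t - z₀) (z₁ - t) / (z₁ - z₀) ^ 2 =
      ∫ t in mid..z₁, (2 / (z₁ - z₀) ^ 2) * (z₁ - t) := by
    refine intervalIntegral.integral_congr fun t ht => ?_
    rw [uIcc_of_le (by rw [hmid]; linarith)] at ht
    have : z₁ - t ≤ t - z₀ := by have := ht.1; rw [hmid] at this; linarith
    simp only [min_eq_right this]
    ring
  rw [e1, e2, intervalIntegral.integral_const_mul, intervalIntegral.integral_const_mul,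
    intervalIntegral.integral_comp_sub_right (fun x => x) z₀,
    intervalIntegral.integral_comp_sub_left (fun x => x) z₁, integral_id, integral_id, hmid]
  field_simp
  ring

theorem lintegral_tent {z₀ z₁ : ℝ} (h : z₀ < z₁) :
    ∫⁻ t in Ioo z₀ z₁, ENNReal.ofReal (2 * min (t - z₀) (z₁ - t) / (z₁ - z₀) ^ 2) = 1 / 2 := by
  have hcont : Continuous fun t : ℝ => 2 * min (t - z₀) (z₁ - t) / (z₁ - z₀) ^ 2 := by
    have hm : Continuous fun t : ℝ => min (t - z₀) (z₁ - t) :=
      (continuous_id.sub continuous_const).min (continuous_const.sub continuous_id)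
    fun_prop
  have hint : IntegrableOn (fun t : ℝ => 2 * min (t - z₀) (z₁ - t) / (z₁ - z₀) ^ 2) (Ioo z₀ z₁) :=
    (hcont.integrableOn_Icc).mono_set Ioo_subset_Icc_self
  have hnn : 0 ≤ᵐ[volume.restrict (Ioo z₀ z₁)]
      fun t : ℝ => 2 * min (t - z₀) (z₁ - t) / (z₁ - z₀) ^ 2 := by
    refine (ae_restrict_iff' measurableSet_Ioo).mpr (Filter.Eventually.of_forall fun t ht => ?_)
    have h1 : 0 ≤ min (t - z₀) (z₁ - t) := le_min (by linarith [ht.1]) (by linarith [ht.2])
    have hw : 0 < z₁ - z₀ := by linarith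
    have h2 : 0 < (z₁ - z₀) ^ 2 := by positivity
    show 0 ≤ 2 * min (t - z₀) (z₁ - t) / (z₁ - z₀) ^ 2
    positivity
  rw [← ofReal_integral_eq_lintegral_ofReal hint hnn, ← integral_Ioc_eq_integral_Ioo,
    ← intervalIntegral.integral_of_le h.le, integral_tent h]
  simp

theorem ennreal_aux {P m u v : ENNReal} (h : P * m ≤ v) (hP0 : P ≠ 0) (hPt : P ≠ ⊤) :
    m * (u / v) ≤ u / P := by
  have h1 : m ≤ P⁻¹ * v := by
    calc m = P⁻¹ * (P * m) := by rw [← mul_assoc, ENNReal.inv_mul_cancel hP0 hPt, one_mul]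
      _ ≤ P⁻¹ * v := by gcongr
  have h2 : m / v ≤ P⁻¹ := ENNReal.div_le_of_le_mul h1
  calc m * (u / v) = u * (m / v) := by rw [div_eq_mul_inv, div_eq_mul_inv]; ring
    _ ≤ u * P⁻¹ := by gcongr
    _ = u / P := (div_eq_mul_inv _ _).symm

/-- Two cylinders along the first two coordinate axes covering a convex body in `ℝ³`:
the relative areas of their bases sum to at least `1/2`. -/
theorem two_axis_cylinders {K : Set (ℝ × ℝ × ℝ)} (hK : Convex ℝ K) (hKc : IsCompact K)
    (hKi : (interior K).Nonempty) {B₁ B₂ : Set (ℝ × ℝ)} (hB₁ : MeasurableSet B₁)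
    (hB₂ : MeasurableSet B₂) (hcov : ∀ p ∈ K, p.2 ∈ B₁ ∨ (p.1, p.2.2) ∈ B₂) :
    (1 : ENNReal) / 2 ≤ volume B₁ / volume (Prod.snd '' K) +
      volume B₂ / volume ((fun p : ℝ × ℝ × ℝ => (p.1, p.2.2)) '' K) := by
  set M₁ : Set (ℝ × ℝ) := Prod.snd '' K with hM₁
  set M₂ : Set (ℝ × ℝ) := (fun p : ℝ × ℝ × ℝ => (p.1, p.2.2)) '' K with hM₂
  have hM₁c : IsCompact M₁ := hKc.image continuous_snd
  have hM₂c : IsCompact M₂ := hKc.image (by fun_prop)
  have hM₁conv : Convex ℝ M₁ := by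
    have h := hK.linear_image (LinearMap.snd ℝ ℝ (ℝ × ℝ))
    rwa [LinearMap.coe_snd] at h
  have hM₂conv : Convex ℝ M₂ := by
    rintro _ ⟨p, hp, rfl⟩ _ ⟨q, hq, rfl⟩ a b ha hb hab
    exact ⟨a • p + b • q, hK hp hq ha hb hab, by ext <;> simp⟩
  set Z : Set ℝ := (fun p : ℝ × ℝ × ℝ => p.2.2) '' K with hZ
  have hZ₁ : Prod.snd '' M₁ = Z := by rw [hM₁, image_image]
  have hZ₂ : Prod.snd '' M₂ = Z := by rw [hM₂, image_image]
  obtain ⟨p₀, hp₀⟩ := hKi
  have hKne : K.Nonempty := ⟨p₀, interior_subset hp₀⟩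
  have hZc : IsCompact Z := hKc.image (by fun_prop)
  have hZconn : IsConnected Z :=
    ⟨hKne.image _, hK.isPreconnected.image _ (Continuous.continuousOn (by fun_prop))⟩
  have hZIcc : Z = Icc (sInf Z) (sSup Z) := eq_Icc_of_connected_compact hZconn hZc
  set z₀ := sInf Z with hz₀
  set z₁ := sSup Z with hz₁
  have hz : z₀ < z₁ := by
    have hp₀' := hp₀
    rw [mem_interior_iff_mem_nhds, Metric.mem_nhds_iff] at hp₀'
    obtain ⟨ε, hε, hball⟩ := hp₀'
    have h1 : (p₀.1, p₀.2.1, p₀.2.2 + ε / 2) ∈ K := by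
      apply hball
      rw [Metric.mem_ball, Prod.dist_eq, Prod.dist_eq]
      simp only [dist_self, Real.dist_eq]
      have : |p₀.2.2 + ε / 2 - p₀.2.2| = ε / 2 := by
        rw [add_sub_cancel_left, abs_of_pos (by linarith)]
      rw [this]
      simp only [max_lt_iff]
      exact ⟨hε, hε, by linarith⟩
    have h2 : (p₀.1, p₀.2.1, p₀.2.2 - ε / 2) ∈ K := by
      apply hball
      rw [Metric.mem_ball, Prod.dist_eq, Prod.dist_eq]
      simp only [dist_self, Real.dist_eq]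
      have : |p₀.2.2 - ε / 2 - p₀.2.2| = ε / 2 := by
        rw [sub_sub_cancel_left, abs_neg, abs_of_pos (by linarith)]
      rw [this]
      simp only [max_lt_iff]
      exact ⟨hε, hε, by linarith⟩
    have m1 : p₀.2.2 + ε / 2 ∈ Z := ⟨_, h1, rfl⟩
    have m2 : p₀.2.2 - ε / 2 ∈ Z := ⟨_, h2, rfl⟩
    have i1 := csInf_le hZc.bddBelow m2
    have i2 := le_csSup hZc.bddAbove m1
    linarith
  set P₁ := volume M₁ with hP₁
  set P₂ := volume M₂ with hP₂
  have hP₁t : P₁ ≠ ⊤ := hM₁c.measure_lt_top.ne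
  have hP₂t : P₂ ≠ ⊤ := hM₂c.measure_lt_top.ne
  have hP₁0 : P₁ ≠ 0 := by
    have hopen : IsOpen (Prod.snd '' interior K : Set (ℝ × ℝ)) :=
      isOpenMap_snd _ isOpen_interior
    have hne : (Prod.snd '' interior K : Set (ℝ × ℝ)).Nonempty := ⟨_, ⟨p₀, hp₀, rfl⟩⟩
    exact ((hopen.measure_pos volume hne).trans_le
      (measure_mono (image_mono interior_subset))).ne'
  have hP₂0 : P₂ ≠ 0 := by
    have hmap : IsOpenMap (fun p : ℝ × ℝ × ℝ => (p.1, p.2.2)) :=
      IsOpenMap.prodMap IsOpenMap.id isOpenMap_snd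
    have hopen : IsOpen ((fun p : ℝ × ℝ × ℝ => (p.1, p.2.2)) '' interior K) :=
      hmap _ isOpen_interior
    have hne : ((fun p : ℝ × ℝ × ℝ => (p.1, p.2.2)) '' interior K).Nonempty :=
      ⟨_, ⟨p₀, hp₀, rfl⟩⟩
    exact ((hopen.measure_pos volume hne).trans_le
      (measure_mono (image_mono interior_subset))).ne'
  have hpt : ∀ t ∈ Ioo z₀ z₁, ENNReal.ofReal (2 * min (t - z₀) (z₁ - t) / (z₁ - z₀) ^ 2) ≤
      volume (hslice B₁ t) / P₁ + volume (hslice B₂ t) / P₂ := by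
    intro t ht
    set m := ENNReal.ofReal (2 * min (t - z₀) (z₁ - t) / (z₁ - z₀) ^ 2) with hm
    have hmpos : 0 < m := by
      rw [hm, ENNReal.ofReal_pos]
      have h1 : 0 < min (t - z₀) (z₁ - t) := lt_min (by linarith [ht.1]) (by linarith [ht.2])
      have h2 : 0 < z₁ - z₀ := by linarith
      positivity
    have hb1 := slice_lower_bound hM₁c hM₁conv (hZ₁.trans hZIcc) ht
    have hb2 := slice_lower_bound hM₂c hM₂conv (hZ₂.trans hZIcc) ht
    have htZ : t ∈ Z := by rw [hZIcc]; exact ⟨ht.1.le, ht.2.le⟩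
    have hne1 : (hslice M₁ t).Nonempty := hslice_nonempty_iff.mpr (by rw [hZ₁]; exact htZ)
    have hne2 : (hslice M₂ t).Nonempty := hslice_nonempty_iff.mpr (by rw [hZ₂]; exact htZ)
    have hv1 := volume_hslice hM₁c hM₁conv hne1
    have hv2 := volume_hslice hM₂c hM₂conv hne2
    have e1 := hslice_eq_Icc hM₁c hM₁conv hne1
    have e2 := hslice_eq_Icc hM₂c hM₂conv hne2
    have ma1 : sInf (hslice M₁ t) ∈ hslice M₁ t := (hslice_isCompact hM₁c t).sInf_mem hne1
    have ma2 : sSup (hslice M₁ t) ∈ hslice M₁ t := (hslice_isCompact hM₁c t).sSup_mem hne1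
    have mb1 : sInf (hslice M₂ t) ∈ hslice M₂ t := (hslice_isCompact hM₂c t).sInf_mem hne2
    have mb2 : sSup (hslice M₂ t) ∈ hslice M₂ t := (hslice_isCompact hM₂c t).sSup_mem hne2
    set a₁ := sInf (hslice M₁ t) with ha₁
    set a₂ := sSup (hslice M₁ t) with ha₂
    set b₁ := sInf (hslice M₂ t) with hb₁
    set b₂ := sSup (hslice M₂ t) with hb₂
    have ha : a₁ < a₂ := by
      by_contra hcon
      have h0 : volume (hslice M₁ t) = 0 := by
        rw [hv1]; exact ENNReal.ofReal_of_nonpos (by linarith)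
      rw [h0] at hb1
      have h00 : P₁ * m = 0 := nonpos_iff_eq_zero.mp hb1
      rcases mul_eq_zero.mp h00 with h | h
      · exact hP₁0 h
      · exact hmpos.ne' h
    have hb : b₁ < b₂ := by
      by_contra hcon
      have h0 : volume (hslice M₂ t) = 0 := by
        rw [hv2]; exact ENNReal.ofReal_of_nonpos (by linarith)
      rw [h0] at hb2
      have h00 : P₂ * m = 0 := nonpos_iff_eq_zero.mp hb2
      rcases mul_eq_zero.mp h00 with h | h
      · exact hP₂0 h
      · exact hmpos.ne' h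
    obtain ⟨pC, hpC, hpCe⟩ := ma1
    obtain ⟨pD, hpD, hpDe⟩ := ma2
    obtain ⟨pA, hpA, hpAe⟩ := mb1
    obtain ⟨pB, hpB, hpBe⟩ := mb2
    set Sl : Set (ℝ × ℝ) := {q | (q.1, q.2, t) ∈ K} with hSl
    have hSlconv : Convex ℝ Sl := by
      intro u hu v hv a b ha' hb' hab
      have h := hK hu hv ha' hb' hab
      have e : a • (u.1, u.2, t) + b • (v.1, v.2, t) =
          ((a • u + b • v).1, (a • u + b • v).2, t) := by
        ext
        · simp
        · simp
        · simp only [Prod.smul_mk, Prod.mk_add_mk, smul_eq_mul]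
          rw [← add_mul, hab, one_mul]
      rw [e] at h
      exact h
    have hC1 : pC.2.1 = a₁ := congrArg Prod.fst hpCe
    have hC2 : pC.2.2 = t := congrArg Prod.snd hpCe
    have hD1 : pD.2.1 = a₂ := congrArg Prod.fst hpDe
    have hD2 : pD.2.2 = t := congrArg Prod.snd hpDe
    have hA1 : pA.1 = b₁ := congrArg Prod.fst hpAe
    have hA2 : pA.2.2 = t := congrArg Prod.snd hpAe
    have hB1 : pB.1 = b₂ := congrArg Prod.fst hpBe
    have hB2 : pB.2.2 = t := congrArg Prod.snd hpBe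
    have hA : (b₁, pA.2.1) ∈ Sl := by
      show (b₁, pA.2.1, t) ∈ K
      rw [← hA1, ← hA2]; exact hpA
    have hB : (b₂, pB.2.1) ∈ Sl := by
      show (b₂, pB.2.1, t) ∈ K
      rw [← hB1, ← hB2]; exact hpB
    have hC : (pC.1, a₁) ∈ Sl := by
      show (pC.1, a₁, t) ∈ K
      rw [← hC1, ← hC2]; exact hpC
    have hD : (pD.1, a₂) ∈ Sl := by
      show (pD.1, a₂, t) ∈ K
      rw [← hD1, ← hD2]; exact hpD
    have hyA : pA.2.1 ∈ Icc a₁ a₂ := by
      rw [← e1]
      exact ⟨pA, hpA, by rw [← hA2]⟩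
    have hyB : pB.2.1 ∈ Icc a₁ a₂ := by
      rw [← e1]
      exact ⟨pB, hpB, by rw [← hB2]⟩
    have hxC : pC.1 ∈ Icc b₁ b₂ := by
      rw [← e2]
      exact ⟨pC, hpC, by rw [← hC2]⟩
    have hxD : pD.1 ∈ Icc b₁ b₂ := by
      rw [← e2]
      exact ⟨pD, hpD, by rw [← hD2]⟩
    have hcov' : ∀ x y, (x, y) ∈ Sl → x ∈ hslice B₂ t ∨ y ∈ hslice B₁ t := by
      intro x y hxy
      rcases hcov (x, y, t) hxy with h | h
      · exact Or.inr h
      · exact Or.inl h
    have key := planar_rect hSlconv hb ha hyA hyB hxC hxD hA hB hC hD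
      (measurableSet_hslice hB₂ t) (measurableSet_hslice hB₁ t) hcov'
    rw [← hv1, ← hv2] at key
    calc m = m * 1 := (mul_one m).symm
      _ ≤ m * (volume (hslice B₂ t ∩ Icc b₁ b₂) / volume (hslice M₂ t) +
            volume (hslice B₁ t ∩ Icc a₁ a₂) / volume (hslice M₁ t)) := by gcongr
      _ = m * (volume (hslice B₂ t ∩ Icc b₁ b₂) / volume (hslice M₂ t)) +
            m * (volume (hslice B₁ t ∩ Icc a₁ a₂) / volume (hslice M₁ t)) := mul_add _ _ _
      _ ≤ volume (hslice B₂ t ∩ Icc b₁ b₂) / P₂ + volume (hslice B₁ t ∩ Icc a₁ a₂) / P₁ :=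
          add_le_add (ennreal_aux hb2 hP₂0 hP₂t) (ennreal_aux hb1 hP₁0 hP₁t)
      _ ≤ volume (hslice B₂ t) / P₂ + volume (hslice B₁ t) / P₁ :=
          add_le_add (ENNReal.div_le_div_right (measure_mono inter_subset_left) _)
            (ENNReal.div_le_div_right (measure_mono inter_subset_left) _)
      _ = volume (hslice B₁ t) / P₁ + volume (hslice B₂ t) / P₂ := add_comm _ _
  have hmeas1 := measurable_volume_hslice hB₁
  have hmeas2 := measurable_volume_hslice hB₂
  have hF : ∫⁻ t, (volume (hslice B₁ t) / P₁ + volume (hslice B₂ t) / P₂) =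
      volume B₁ / P₁ + volume B₂ / P₂ := by
    simp_rw [div_eq_mul_inv]
    rw [lintegral_add_left (hmeas1.mul_const _), lintegral_mul_const _ hmeas1,
      lintegral_mul_const _ hmeas2, ← volume_eq_lintegral_hslice hB₁,
      ← volume_eq_lintegral_hslice hB₂]
  calc (1 : ENNReal) / 2
      = ∫⁻ t in Ioo z₀ z₁, ENNReal.ofReal (2 * min (t - z₀) (z₁ - t) / (z₁ - z₀) ^ 2) :=
        (lintegral_tent hz).symm
    _ ≤ ∫⁻ t in Ioo z₀ z₁, (volume (hslice B₁ t) / P₁ + volume (hslice B₂ t) / P₂) :=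
        setLIntegral_mono' measurableSet_Ioo hpt
    _ ≤ ∫⁻ t, (volume (hslice B₁ t) / P₁ + volume (hslice B₂ t) / P₂) :=
        setLIntegral_le_lintegral _ _
    _ = volume B₁ / P₁ + volume B₂ / P₂ := hF

end Vale.Agent.Lib.P243
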