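import Vale.Agent.Lib.P243.Profile

/-!
# P243: the part of a convex body inside a cylinder

`K` is a compact convex set in `(ℝ × ℝ) × ℝ`; the cylinder over a base `B ⊆ ℝ × ℝ` with
vertical axis is `Prod.fst ⁻¹' B`.  If the base has relative area `β` (relative to the
projection of `K`), the cylinder contains at most the fraction `3β - 2β^{3/2}` of the volume
of `K`.
-/

namespace Vale.Agent.Lib.P243

open MeasureTheory Set

theorem cylinder_volume_le {K : Set ((ℝ × ℝ) × ℝ)} (hK : Convex ℝ K) (hKc : IsCompact K)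
    (hpos : 0 < volume (Prod.fst '' K)) {B : Set (ℝ × ℝ)} (hB : MeasurableSet B) :
    volume (K ∩ Prod.fst ⁻¹' B) ≤
      ENNReal.ofReal (phi ((volume (B ∩ Prod.fst '' K)).toReal /
        (volume (Prod.fst '' K)).toReal)) * volume K := by
  set D : Set (ℝ × ℝ) := Prod.fst '' K with hD
  have hDc : IsCompact D := hKc.image continuous_fst
  have hDfin : volume D ≠ ⊤ := hDc.measure_lt_top.ne
  have hKm : MeasurableSet K := hKc.measurableSet
  have hKb : Bornology.IsBounded K := hKc.isBounded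
  have fb : ∀ p : ℝ × ℝ, Bornology.IsBounded (Prod.mk p ⁻¹' K) := fun p =>
    (LipschitzWith.prod_snd.isBounded_image hKb).subset fun z hz => ⟨(p, z), hz, rfl⟩
  have ffin : ∀ p : ℝ × ℝ, volume (Prod.mk p ⁻¹' K) ≠ ⊤ := fun p => (fb p).measure_lt_top.ne
  set ℓ : ℝ × ℝ → ℝ := fun p => (volume (Prod.mk p ⁻¹' K)).toReal with hℓ
  have hℓm : Measurable ℓ := (measurable_measure_prodMk_left hKm).ennreal_toReal
  have hℓ0 : ∀ p, 0 ≤ ℓ p := fun p => ENNReal.toReal_nonneg
  have hℓof : ∀ p, ENNReal.ofReal (ℓ p) = volume (Prod.mk p ⁻¹' K) := fun p =>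
    ENNReal.ofReal_toReal (ffin p)
  have fne : ∀ p, 0 < ℓ p → (Prod.mk p ⁻¹' K).Nonempty := by
    intro p h
    by_contra hne
    rw [not_nonempty_iff_eq_empty] at hne
    rw [hℓ] at h
    simp only [hne, measure_empty, ENNReal.toReal_zero, lt_self_iff_false] at h
  have hsubD : ∀ t, 0 < t → {p | t ≤ ℓ p} ⊆ D := by
    intro t ht p hp
    obtain ⟨z, hz⟩ := fne p (ht.trans_le hp)
    exact ⟨(p, z), hz, rfl⟩
  have volK : volume K = ∫⁻ p, ENNReal.ofReal (ℓ p) := by
    rw [Measure.volume_eq_prod, Measure.prod_apply hKm]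
    exact lintegral_congr fun p => (hℓof p).symm
  have lcK : ∫⁻ p, ENNReal.ofReal (ℓ p) = ∫⁻ t in Ioi 0, volume {p | t ≤ ℓ p} :=
    lintegral_eq_lintegral_meas_le volume (Filter.Eventually.of_forall hℓ0) hℓm.aemeasurable
  have volKB : volume (K ∩ Prod.fst ⁻¹' B) = ∫⁻ p in B, ENNReal.ofReal (ℓ p) := by
    rw [Measure.volume_eq_prod, Measure.prod_apply (hKm.inter (hB.preimage measurable_fst)),
      ← lintegral_indicator hB]
    refine lintegral_congr fun p => ?_
    by_cases hp : p ∈ B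
    · rw [indicator_of_mem hp, hℓof]
      congr 1
      ext z
      simp [hp]
    · rw [indicator_of_notMem hp]
      have : Prod.mk p ⁻¹' (K ∩ Prod.fst ⁻¹' B) = ∅ := by
        ext z
        simp [hp]
      rw [this, measure_empty]
  have lcKB : ∫⁻ p in B, ENNReal.ofReal (ℓ p) =
      ∫⁻ t in Ioi 0, (volume.restrict B) {p | t ≤ ℓ p} :=
    lintegral_eq_lintegral_meas_le (volume.restrict B) (Filter.Eventually.of_forall hℓ0)
      hℓm.aemeasurable
  set M := (volume D).toReal with hM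
  have hM0 : 0 < M := ENNReal.toReal_pos hpos.ne' hDfin
  have hBDfin : volume (B ∩ D) ≠ ⊤ :=
    ((measure_mono inter_subset_right).trans_lt hDc.measure_lt_top).ne
  set b := (volume (B ∩ D)).toReal with hb
  have hbM : b ≤ M := ENNReal.toReal_mono hDfin (measure_mono inter_subset_right)
  set m : ℝ → ℝ := fun t => (volume {p | t ≤ ℓ p}).toReal with hm
  have lvlfin : ∀ t, 0 < t → volume {p | t ≤ ℓ p} ≠ ⊤ := fun t ht =>
    ((measure_mono (hsubD t ht)).trans_lt hDc.measure_lt_top).ne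
  have hmof : ∀ t, 0 < t → ENNReal.ofReal (m t) = volume {p | t ≤ ℓ p} := fun t ht =>
    ENNReal.ofReal_toReal (lvlfin t ht)
  have lvlmeas : ∀ t, MeasurableSet {p | t ≤ ℓ p} := fun t =>
    measurableSet_le measurable_const hℓm
  have conc : ∀ {w w' : ℝ}, 0 ≤ w → 0 ≤ w' → w + w' = 1 → ∀ p q : ℝ × ℝ,
      (Prod.mk p ⁻¹' K).Nonempty → (Prod.mk q ⁻¹' K).Nonempty →
      w * ℓ p + w' * ℓ q ≤ ℓ (w • p + w' • q) := by
    intro w w' hw hw' hww' p q hp hq
    have h := fibre_combo hK hK (fb p) (fb q) hp hq hw hw' hww'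
      (fun x hx y hy => hK hx hy hw hw' hww')
    have h' := ENNReal.toReal_mono (ffin _) h
    rw [ENNReal.toReal_add (ENNReal.mul_ne_top ENNReal.ofReal_ne_top (ffin p))
      (ENNReal.mul_ne_top ENNReal.ofReal_ne_top (ffin q)), ENNReal.toReal_mul,
      ENNReal.toReal_mul, ENNReal.toReal_ofReal hw, ENNReal.toReal_ofReal hw'] at h'
    exact h'
  have lvlconv : ∀ t, 0 < t → Convex ℝ {p | t ≤ ℓ p} := by
    intro t ht p hp q hq w w' hw hw' hww'
    have hp' : t ≤ ℓ p := hp
    have hq' : t ≤ ℓ q := hq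
    have h := conc hw hw' hww' p q (fne p (ht.trans_le hp')) (fne q (ht.trans_le hq'))
    show t ≤ ℓ (w • p + w' • q)
    calc t = w * t + w' * t := by rw [← add_mul, hww', one_mul]
      _ ≤ w * ℓ p + w' * ℓ q := by gcongr
      _ ≤ _ := h
  have hDconv : Convex ℝ D := by
    have := hK.linear_image (LinearMap.fst ℝ (ℝ × ℝ) ℝ)
    exact this
  have hDne : D.Nonempty := by
    by_contra hne
    rw [not_nonempty_iff_eq_empty] at hne
    rw [hne, measure_empty] at hpos
    exact lt_irrefl _ hpos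
  have eqm : ∫⁻ t in Ioi 0, ENNReal.ofReal (m t) = volume K := by
    rw [volK, lcK]
    exact setLIntegral_congr_fun measurableSet_Ioi (fun t ht => hmof t ht)
  have claim : ∀ t, 0 < t → 0 < m t → ∀ lam, 0 < lam → lam ≤ 1 →
      (1 - lam) * √M + lam * √(m t) ≤ √(m (lam * t)) := by
    intro t ht hmt lam hlam hlam1
    have hlne : {p | t ≤ ℓ p}.Nonempty := by
      by_contra hne
      rw [not_nonempty_iff_eq_empty] at hne
      rw [hm] at hmt
      simp only [hne, measure_empty, ENNReal.toReal_zero, lt_self_iff_false] at hmt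
    have hlt : 0 < lam * t := mul_pos hlam ht
    refine bm_planar hDconv (lvlconv t ht) hDc.measurableSet (lvlmeas t) (lvlmeas (lam * t))
      hDc.isBounded (hDc.isBounded.subset (hsubD t ht)) (hDc.isBounded.subset (hsubD _ hlt))
      hDne hlne (u := 1 - lam) (v := lam) (by linarith) hlam.le (by ring) ?_
    rintro p ⟨⟨p', z⟩, hz, rfl⟩ q hq
    have hq' : t ≤ ℓ q := hq
    have h := conc (w := 1 - lam) (w' := lam) (by linarith) hlam.le (by ring) p' q ⟨z, hz⟩
      (fne q (ht.trans_le hq'))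
    show lam * t ≤ ℓ ((1 - lam) • p' + lam • q)
    have h1 : 0 ≤ (1 - lam) * ℓ p' := mul_nonneg (by linarith) (hℓ0 p')
    have h2 : lam * t ≤ lam * ℓ q := mul_le_mul_of_nonneg_left hq' hlam.le
    linarith
  have prof := profile_ineq (m := m) (M := M) (b := b) hM0 ENNReal.toReal_nonneg hbM
    (fun t _ => ENNReal.toReal_nonneg)
    (fun s t hs hst => ENNReal.toReal_mono (lvlfin s hs)
      (measure_mono fun p hp => le_trans hst hp))
    claim (by rw [eqm]; exact hKc.measure_lt_top.ne)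
  rw [eqm] at prof
  refine le_trans ?_ prof
  rw [volKB, lcKB]
  refine setLIntegral_mono' measurableSet_Ioi fun t ht => ?_
  have ht0 : 0 < t := ht
  rw [Measure.restrict_apply (lvlmeas t)]
  have h1 : volume ({p | t ≤ ℓ p} ∩ B) ≤ ENNReal.ofReal b := by
    rw [hb, ENNReal.ofReal_toReal hBDfin]
    exact measure_mono fun p hp => ⟨hp.2, hsubD t ht0 hp.1⟩
  have h2 : volume ({p | t ≤ ℓ p} ∩ B) ≤ ENNReal.ofReal (m t) := by
    rw [hmof t ht0]
    exact measure_mono inter_subset_left
  rcases le_total b (m t) with h | h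
  · rw [min_eq_left h]
    exact h1
  · rw [min_eq_right h]
    exact h2

end Vale.Agent.Lib.P243
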