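import Mathlib

/-!
# P243, step 4: a sharp pointwise lower bound for nonnegative concave functions
-/

namespace Vale.Agent.Lib.P243

open MeasureTheory Set

/-- A concave function on `[z₀,z₁]` has a supporting line at every interior point. -/
theorem exists_supergradient {f : ℝ → ℝ} {z₀ z₁ t₀ : ℝ} (hf : ConcaveOn ℝ (Icc z₀ z₁) f)
    (ht : t₀ ∈ Ioo z₀ z₁) : ∃ σ : ℝ, ∀ t ∈ Icc z₀ z₁, f t ≤ f t₀ + σ * (t - t₀) := by
  have hz0 : z₀ ∈ Icc z₀ z₁ := ⟨le_rfl, (ht.1.trans ht.2).le⟩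
  have hz1 : z₁ ∈ Icc z₀ z₁ := ⟨(ht.1.trans ht.2).le, le_rfl⟩
  set Ls : Set ℝ := (fun s => (f t₀ - f s) / (t₀ - s)) '' Ico z₀ t₀ with hLs
  have hne : Ls.Nonempty := ⟨_, ⟨z₀, ⟨le_rfl, ht.1⟩, rfl⟩⟩
  have hbdd : BddBelow Ls := by
    refine ⟨(f z₁ - f t₀) / (z₁ - t₀), ?_⟩
    rintro _ ⟨s, hs, rfl⟩
    exact hf.slope_anti_adjacent ⟨hs.1, (hs.2.trans ht.2).le⟩ hz1 hs.2 ht.2
  refine ⟨sInf Ls, fun t htI => ?_⟩
  rcases lt_trichotomy t t₀ with hlt | heq | hgt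
  · have h1 : sInf Ls ≤ (f t₀ - f t) / (t₀ - t) := csInf_le hbdd ⟨t, ⟨htI.1, hlt⟩, rfl⟩
    have hpos : 0 < t₀ - t := sub_pos.mpr hlt
    rw [le_div_iff₀ hpos] at h1
    linarith
  · rw [heq]; simp
  · have hpos : 0 < t - t₀ := sub_pos.mpr hgt
    have h1 : (f t - f t₀) / (t - t₀) ≤ sInf Ls := by
      refine le_csInf hne ?_
      rintro _ ⟨s, hs, rfl⟩
      exact hf.slope_anti_adjacent ⟨hs.1, (hs.2.trans ht.2).le⟩ htI hs.2 hgt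
    rw [div_le_iff₀ hpos] at h1
    linarith

/-- If `f ≥ 0` is concave on `[z₀,z₁]` then
`f t₀ ≥ 2 * min (t₀ - z₀) (z₁ - t₀) / (z₁ - z₀)^2 * ∫ f`. -/
theorem concave_integral_bound {f : ℝ → ℝ} {z₀ z₁ t₀ : ℝ} (hf : ConcaveOn ℝ (Icc z₀ z₁) f)
    (hnn : ∀ t ∈ Icc z₀ z₁, 0 ≤ f t) (hint : IntervalIntegrable f volume z₀ z₁)
    (ht : t₀ ∈ Ioo z₀ z₁) :
    (∫ t in z₀..z₁, f t) * (2 * min (t₀ - z₀) (z₁ - t₀)) ≤ f t₀ * (z₁ - z₀) ^ 2 := by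
  obtain ⟨σ, hσ⟩ := exists_supergradient hf ht
  have hz01 : z₀ ≤ z₁ := (ht.1.trans ht.2).le
  have hz0 : z₀ ∈ Icc z₀ z₁ := ⟨le_rfl, hz01⟩
  have hz1 : z₁ ∈ Icc z₀ z₁ := ⟨hz01, le_rfl⟩
  have hI : (∫ t in z₀..z₁, f t) ≤ ∫ t in z₀..z₁, (f t₀ + σ * (t - t₀)) := by
    refine intervalIntegral.integral_mono_on hz01 hint ?_ hσ
    exact Continuous.intervalIntegrable (by fun_prop) _ _
  have hcalc : (∫ t in z₀..z₁, (f t₀ + σ * (t - t₀))) =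
      f t₀ * (z₁ - z₀) + σ * (((z₁ - t₀) ^ 2 - (z₀ - t₀) ^ 2) / 2) := by
    rw [intervalIntegral.integral_add (by simp) (Continuous.intervalIntegrable (by fun_prop) _ _),
      intervalIntegral.integral_const, intervalIntegral.integral_const_mul,
      intervalIntegral.integral_comp_sub_right (fun x => x) t₀, integral_id]
    simp only [smul_eq_mul]
    ring
  rw [hcalc] at hI
  have h0 := hσ z₀ hz0
  have h1 := hσ z₁ hz1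
  have hf0 := hnn z₀ hz0
  have hf1 := hnn z₁ hz1
  have ha : 0 < t₀ - z₀ := sub_pos.mpr ht.1
  have hb : 0 < z₁ - t₀ := sub_pos.mpr ht.2
  have hv : 0 ≤ f t₀ := hnn t₀ ⟨ht.1.le, ht.2.le⟩
  -- constraints: σ * a ≤ v and -σ * b ≤ v
  have c0 : σ * (t₀ - z₀) ≤ f t₀ := by nlinarith
  have c1 : -(σ * (z₁ - t₀)) ≤ f t₀ := by nlinarith
  rcases le_total (t₀ - z₀) (z₁ - t₀) with hab | hab
  · rw [min_eq_left hab]
    have hdiff : 0 ≤ (z₁ - t₀) ^ 2 - (t₀ - z₀) ^ 2 := by nlinarith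
    have step : (∫ t in z₀..z₁, f t) * (2 * (t₀ - z₀)) ≤
        (f t₀ * (z₁ - z₀) + σ * (((z₁ - t₀) ^ 2 - (z₀ - t₀) ^ 2) / 2)) * (2 * (t₀ - z₀)) :=
      mul_le_mul_of_nonneg_right hI (by linarith)
    nlinarith [mul_le_mul_of_nonneg_right c0 hdiff]
  · rw [min_eq_right hab]
    have hdiff : 0 ≤ (t₀ - z₀) ^ 2 - (z₁ - t₀) ^ 2 := by nlinarith
    have step : (∫ t in z₀..z₁, f t) * (2 * (z₁ - t₀)) ≤
        (f t₀ * (z₁ - z₀) + σ * (((z₁ - t₀) ^ 2 - (z₀ - t₀) ^ 2) / 2)) * (2 * (z₁ - t₀)) :=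
      mul_le_mul_of_nonneg_right hI (by linarith)
    nlinarith [mul_le_mul_of_nonneg_right c1 hdiff]

end Vale.Agent.Lib.P243
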