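import Vale.Agent.Lib.P243.Strips
import Vale.Agent.Lib.P243.Body

/-!
# P243: cylinders with horizontal axes (all axes parallel to one plane)
-/

namespace Vale.Agent.Lib.P243

open MeasureTheory Set

/-- The point of the Euclidean plane with coordinates `x`, `y`. -/
noncomputable def vec2 (x y : ℝ) : EuclideanSpace ℝ (Fin 2) := !₂[x, y]

theorem vec2_zero (x y : ℝ) : vec2 x y 0 = x := rfl

theorem vec2_one (x y : ℝ) : vec2 x y 1 = y := rfl

theorem vec2_eta (v : EuclideanSpace ℝ (Fin 2)) : vec2 (v 0) (v 1) = v := by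
  ext i
  fin_cases i <;> rfl

theorem inner_vec2 (a b : ℝ) (v : EuclideanSpace ℝ (Fin 2)) :
    inner ℝ (vec2 a b) v = a * v 0 + b * v 1 := by
  rw [PiLp.inner_apply, Fin.sum_univ_two, vec2_zero, vec2_one]
  simp only [RCLike.inner_apply, conj_trivial]
  ring

theorem norm_vec2 {a b : ℝ} (h : a ^ 2 + b ^ 2 = 1) : ‖vec2 a b‖ = 1 := by
  have h1 : ‖vec2 a b‖ ^ 2 = 1 := by
    rw [← real_inner_self_eq_norm_sq, inner_vec2, vec2_zero, vec2_one]
    nlinarith
  have h2 := norm_nonneg (vec2 a b)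
  nlinarith

theorem continuous_vec2 : Continuous fun p : ℝ × ℝ × ℝ => vec2 p.1 p.2.1 := by
  unfold vec2
  fun_prop

theorem coplanar_axes_measurable {ι : Type*} [Fintype ι] {K : Set (ℝ × ℝ × ℝ)}
    (hK : Convex ℝ K) (hKc : IsCompact K) (a b : ι → ℝ) (hab : ∀ i, a i ^ 2 + b i ^ 2 = 1)
    (B : ι → Set (ℝ × ℝ)) (hB : ∀ i, MeasurableSet (B i))
    (hcov : ∀ p ∈ K, ∃ i, (a i * p.1 + b i * p.2.1, p.2.2) ∈ B i) :
    (1 : ENNReal) / 2 * (⨅ (c : ℝ) (d : ℝ) (_ : c ^ 2 + d ^ 2 = 1),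
        volume ((fun p : ℝ × ℝ × ℝ => (c * p.1 + d * p.2.1, p.2.2)) '' K)) ≤
      ∑ i, volume (B i) := by
  set AH := ⨅ (c : ℝ) (d : ℝ) (_ : c ^ 2 + d ^ 2 = 1),
    volume ((fun p : ℝ × ℝ × ℝ => (c * p.1 + d * p.2.1, p.2.2)) '' K) with hAH
  have hproj_cont : ∀ c d : ℝ,
      Continuous (fun p : ℝ × ℝ × ℝ => (c * p.1 + d * p.2.1, p.2.2)) := fun c d => by fun_prop
  have hAHle : ∀ c d : ℝ, c ^ 2 + d ^ 2 = 1 →
      AH ≤ volume ((fun p : ℝ × ℝ × ℝ => (c * p.1 + d * p.2.1, p.2.2)) '' K) :=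
    fun c d h => iInf_le_of_le c (iInf_le_of_le d (iInf_le _ h))
  have hAHtop : AH ≠ ⊤ :=
    ((hAHle 1 0 (by norm_num)).trans_lt (hKc.image (hproj_cont 1 0)).measure_lt_top).ne
  rcases K.eq_empty_or_nonempty with hKe | hKne
  · have h0 : AH ≤ 0 := by
      have := hAHle 1 0 (by norm_num)
      rw [hKe, image_empty, measure_empty] at this
      exact this
    rw [nonpos_iff_eq_zero.mp h0, mul_zero]
    exact zero_le
  set Z : Set ℝ := (fun p : ℝ × ℝ × ℝ => p.2.2) '' K with hZ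
  have hZc : IsCompact Z := hKc.image (by fun_prop)
  have hZne : Z.Nonempty := hKne.image _
  have hZconn : IsConnected Z :=
    ⟨hZne, hK.isPreconnected.image _ (Continuous.continuousOn (by fun_prop))⟩
  have hZIcc : Z = Icc (sInf Z) (sSup Z) := eq_Icc_of_connected_compact hZconn hZc
  set z₀ := sInf Z with hz₀
  set z₁ := sSup Z with hz₁
  have hz01 : z₀ ≤ z₁ := by
    obtain ⟨z, hz⟩ := hZne
    rw [hZIcc] at hz
    exact hz.1.trans hz.2
  rcases eq_or_lt_of_le hz01 with hzeq | hz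
  · have hsub : (fun p : ℝ × ℝ × ℝ => ((1 : ℝ) * p.1 + 0 * p.2.1, p.2.2)) '' K ⊆
        (univ : Set ℝ) ×ˢ ({z₀} : Set ℝ) := by
      rintro _ ⟨p, hp, rfl⟩
      refine ⟨mem_univ _, ?_⟩
      have : p.2.2 ∈ Z := ⟨p, hp, rfl⟩
      rw [hZIcc, ← hzeq, Icc_self] at this
      exact this
    have h0 : volume ((univ : Set ℝ) ×ˢ ({z₀} : Set ℝ)) = 0 := by
      rw [Measure.volume_eq_prod, Measure.prod_prod]
      simp
    have h1 : AH ≤ 0 := (hAHle 1 0 (by norm_num)).trans ((measure_mono hsub).trans h0.le)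
    rw [nonpos_iff_eq_zero.mp h1, mul_zero]
    exact zero_le
  have key : ∀ t ∈ Ioo z₀ z₁,
      ENNReal.ofReal (AH.toReal * (2 * min (t - z₀) (z₁ - t) / (z₁ - z₀) ^ 2)) ≤
        ∑ i, volume (hslice (B i) t) := by
    intro t ht
    set m := 2 * min (t - z₀) (z₁ - t) / (z₁ - z₀) ^ 2 with hm
    set S : Set (EuclideanSpace ℝ (Fin 2)) := {v | (v 0, v 1, t) ∈ K} with hS
    have hmemS : ∀ p : ℝ × ℝ × ℝ, p ∈ K → p.2.2 = t → vec2 p.1 p.2.1 ∈ S := by
      intro p hp hpt
      show (vec2 p.1 p.2.1 0, vec2 p.1 p.2.1 1, t) ∈ K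
      rw [vec2_zero, vec2_one, ← hpt]
      exact hp
    have hSimg : S = (fun p : ℝ × ℝ × ℝ => vec2 p.1 p.2.1) '' (K ∩ {p | p.2.2 = t}) := by
      ext v
      constructor
      · intro hv
        exact ⟨(v 0, v 1, t), ⟨hv, rfl⟩, vec2_eta v⟩
      · rintro ⟨p, ⟨hp, hpt⟩, rfl⟩
        exact hmemS p hp hpt
    have hSc : IsCompact S := by
      rw [hSimg]
      exact (hKc.inter_right (isClosed_eq (by fun_prop) continuous_const)).image continuous_vec2
    have hSconv : Convex ℝ S := by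
      intro u hu v hv s r hs hr hsr
      have h := hK hu hv hs hr hsr
      have e : s • ((u 0, u 1, t) : ℝ × ℝ × ℝ) + r • ((v 0, v 1, t) : ℝ × ℝ × ℝ) =
          ((s • u + r • v) 0, (s • u + r • v) 1, t) := by
        refine Prod.ext ?_ (Prod.ext ?_ ?_)
        · simp
        · simp
        · simp only [Prod.smul_mk, Prod.mk_add_mk, smul_eq_mul]
          rw [← add_mul, hsr, one_mul]
      show ((s • u + r • v) 0, (s • u + r • v) 1, t) ∈ K
      rw [← e]
      exact h
    have htZ : t ∈ Z := by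
      rw [hZIcc]
      exact ⟨ht.1.le, ht.2.le⟩
    have hSne : S.Nonempty := by
      obtain ⟨p, hp, hpt⟩ := htZ
      exact ⟨vec2 p.1 p.2.1, hmemS p hp hpt⟩
    have hwid : ∀ θ : EuclideanSpace ℝ (Fin 2), ‖θ‖ = 1 →
        ∃ p ∈ S, ∃ q ∈ S, AH.toReal * m ≤ inner ℝ θ (p - q) := by
      intro θ hθ
      have hθe : θ = vec2 (θ 0) (θ 1) := (vec2_eta θ).symm
      set c := θ 0 with hc
      set d := θ 1 with hd
      have hcd : c ^ 2 + d ^ 2 = 1 := by
        have h1 := real_inner_self_eq_norm_sq (vec2 c d)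
        rw [inner_vec2, vec2_zero, vec2_one, ← hθe, hθ] at h1
        nlinarith
      set M : Set (ℝ × ℝ) := (fun p : ℝ × ℝ × ℝ => (c * p.1 + d * p.2.1, p.2.2)) '' K with hM
      have hMc : IsCompact M := hKc.image (hproj_cont c d)
      have hMconv : Convex ℝ M := by
        rintro _ ⟨p, hp, rfl⟩ _ ⟨q, hq, rfl⟩ s r hs hr hsr
        refine ⟨s • p + r • q, hK hp hq hs hr hsr, ?_⟩
        refine Prod.ext ?_ ?_
        · simp only [Prod.fst_add, Prod.smul_fst, Prod.snd_add, Prod.smul_snd, smul_eq_mul]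
          ring
        · simp
      have hMZ : Prod.snd '' M = Icc z₀ z₁ := by
        rw [hM, image_image]
        exact hZIcc
      have hlow := slice_lower_bound hMc hMconv hMZ ht
      have hne : (hslice M t).Nonempty :=
        hslice_nonempty_iff.mpr (by rw [hMZ]; exact ⟨ht.1.le, ht.2.le⟩)
      have hvol := volume_hslice hMc hMconv hne
      have hsup : sSup (hslice M t) ∈ hslice M t := (hslice_isCompact hMc t).sSup_mem hne
      have hinf : sInf (hslice M t) ∈ hslice M t := (hslice_isCompact hMc t).sInf_mem hne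
      have hdiff : 0 ≤ sSup (hslice M t) - sInf (hslice M t) :=
        sub_nonneg.mpr (csInf_le_csSup hne (hslice_isCompact hMc t).bddBelow
          (hslice_isCompact hMc t).bddAbove)
      obtain ⟨p₁, hp₁, hp₁e⟩ := hsup
      obtain ⟨p₂, hp₂, hp₂e⟩ := hinf
      have e1 : c * p₁.1 + d * p₁.2.1 = sSup (hslice M t) := congrArg Prod.fst hp₁e
      have e1t : p₁.2.2 = t := congrArg Prod.snd hp₁e
      have e2 : c * p₂.1 + d * p₂.2.1 = sInf (hslice M t) := congrArg Prod.fst hp₂e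
      have e2t : p₂.2.2 = t := congrArg Prod.snd hp₂e
      refine ⟨vec2 p₁.1 p₁.2.1, hmemS p₁ hp₁ e1t, vec2 p₂.1 p₂.2.1, hmemS p₂ hp₂ e2t, ?_⟩
      rw [inner_sub_right, hθe, inner_vec2, inner_vec2, vec2_zero, vec2_one, vec2_zero,
        vec2_one, e1, e2]
      have hle : ENNReal.ofReal (AH.toReal * m) ≤
          ENNReal.ofReal (sSup (hslice M t) - sInf (hslice M t)) := by
        rw [← hvol]
        refine le_trans ?_ hlow
        rw [ENNReal.ofReal_mul ENNReal.toReal_nonneg, ENNReal.ofReal_toReal hAHtop]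
        gcongr
        exact hAHle c d hcd
      exact (ENNReal.ofReal_le_ofReal_iff hdiff).mp hle
    have hD := hasChords_of_width hSconv hSc hSne hwid
    exact bang_multistrips hSconv hSc hD (fun i => vec2 (a i) (b i))
      (fun i => norm_vec2 (hab i)) (fun i => hslice (B i) t)
      (fun v hv => by
        obtain ⟨i, hi⟩ := hcov _ hv
        refine ⟨i, ?_⟩
        rw [inner_vec2]
        exact hi)
  calc (1 : ENNReal) / 2 * AH
      = AH * ∫⁻ t in Ioo z₀ z₁,
          ENNReal.ofReal (2 * min (t - z₀) (z₁ - t) / (z₁ - z₀) ^ 2) := by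
        rw [lintegral_tent hz, mul_comm]
    _ = ∫⁻ t in Ioo z₀ z₁,
          AH * ENNReal.ofReal (2 * min (t - z₀) (z₁ - t) / (z₁ - z₀) ^ 2) :=
        (lintegral_const_mul' _ _ hAHtop).symm
    _ = ∫⁻ t in Ioo z₀ z₁,
          ENNReal.ofReal (AH.toReal * (2 * min (t - z₀) (z₁ - t) / (z₁ - z₀) ^ 2)) := by
        congr 1
        funext t
        rw [ENNReal.ofReal_mul ENNReal.toReal_nonneg, ENNReal.ofReal_toReal hAHtop]
    _ ≤ ∫⁻ t in Ioo z₀ z₁, ∑ i, volume (hslice (B i) t) :=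
        setLIntegral_mono' measurableSet_Ioo key
    _ ≤ ∫⁻ t, ∑ i, volume (hslice (B i) t) := setLIntegral_le_lintegral _ _
    _ = ∑ i, ∫⁻ t, volume (hslice (B i) t) :=
        lintegral_finsetSum _ (fun i _ => measurable_volume_hslice (hB i))
    _ = ∑ i, volume (B i) :=
        Finset.sum_congr rfl (fun i _ => (volume_eq_lintegral_hslice (hB i)).symm)

/-- **Cylinders with horizontal axes.**  `K` is a compact convex set in three-space, the
`i`-th cylinder is the set of points `(x, y, z)` with `(a i * x + b i * y, z) ∈ B i`, where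
`(a i, b i)` is a unit vector (so its axis is the horizontal direction `(-b i, a i, 0)`).  If
the cylinders cover `K`, the areas of the bases add up to at least half the least area of a
projection of `K` along a horizontal direction. -/
theorem coplanar_axes {ι : Type*} [Fintype ι] {K : Set (ℝ × ℝ × ℝ)}
    (hK : Convex ℝ K) (hKc : IsCompact K) (a b : ι → ℝ) (hab : ∀ i, a i ^ 2 + b i ^ 2 = 1)
    (B : ι → Set (ℝ × ℝ))
    (hcov : ∀ p ∈ K, ∃ i, (a i * p.1 + b i * p.2.1, p.2.2) ∈ B i) :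
    (1 : ENNReal) / 2 * (⨅ (c : ℝ) (d : ℝ) (_ : c ^ 2 + d ^ 2 = 1),
        volume ((fun p : ℝ × ℝ × ℝ => (c * p.1 + d * p.2.1, p.2.2)) '' K)) ≤
      ∑ i, volume (B i) := by
  have h := coplanar_axes_measurable hK hKc a b hab (fun i => toMeasurable volume (B i))
    (fun i => measurableSet_toMeasurable _ _)
    (fun p hp => by
      obtain ⟨i, hi⟩ := hcov p hp
      exact ⟨i, subset_toMeasurable _ _ hi⟩)
  simpa only [measure_toMeasurable] using h

end Vale.Agent.Lib.P243
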