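import Vale.Agent.Lib.P243.Many

/-!
# P243: the covering inequality in terms of the number of axis directions
-/

namespace Vale.Agent.Lib.P243

open MeasureTheory Set

/-- Cylinders given by orthonormal pairs, with axes in at most `card κ` directions. -/
theorem direction_count_pi {ι κ : Type*} [Fintype ι] [Fintype κ] {K : Set (Fin 3 → ℝ)}
    (hK : Convex ℝ K) (hKc : IsCompact K) (hKi : (interior K).Nonempty)
    (e f : κ → Fin 3 → ℝ) (hef : ∀ k, e k ⬝ᵥ e k = 1 ∧ f k ⬝ᵥ f k = 1 ∧ e k ⬝ᵥ f k = 0)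
    (d : ι → κ) (B : ι → Set (ℝ × ℝ))
    (hcov : ∀ p ∈ K, ∃ i, (e (d i) ⬝ᵥ p, f (d i) ⬝ᵥ p) ∈ B i) :
    (∀ y : ℝ, 0 ≤ y → y ≤ 1 →
        ENNReal.ofReal (1 - Fintype.card κ * y ^ 3) ≤ ENNReal.ofReal (3 * (1 - y)) *
          ∑ i, volume (B i) /
            volume ((fun p : Fin 3 → ℝ => (e (d i) ⬝ᵥ p, f (d i) ⬝ᵥ p)) '' K)) ∧
      ENNReal.ofReal (1 / 3 + 1 / (6 * (√(2 * Fintype.card κ) - 1))) ≤
        ∑ i, volume (B i) /
          volume ((fun p : Fin 3 → ℝ => (e (d i) ⬝ᵥ p, f (d i) ⬝ᵥ p)) '' K) ∧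
      ENNReal.ofReal (1 / 3 + 1 / (6 * (√(2 * Fintype.card κ) - 1))) *
          (⨅ (a : Fin 3 → ℝ) (b : Fin 3 → ℝ) (_ : a ⬝ᵥ a = 1 ∧ b ⬝ᵥ b = 1 ∧ a ⬝ᵥ b = 0),
            volume ((fun p : Fin 3 → ℝ => (a ⬝ᵥ p, b ⬝ᵥ p)) '' K)) ≤ ∑ i, volume (B i) := by
  have fam : ∀ y : ℝ, 0 ≤ y → y ≤ 1 →
      ENNReal.ofReal (1 - Fintype.card κ * y ^ 3) ≤ ENNReal.ofReal (3 * (1 - y)) *
        ∑ i, volume (B i) /
          volume ((fun p : Fin 3 → ℝ => (e (d i) ⬝ᵥ p, f (d i) ⬝ᵥ p)) '' K) := by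
    intro y hy0 hy1
    exact direction_count hK hKc hKi (fun k => dotPair (e k) (f k))
      (fun k => dotPair_surjective (hef k)) d B hcov hy0 hy1
  have hn : 1 ≤ Fintype.card κ := by
    obtain ⟨p, hp⟩ := hKi
    obtain ⟨i, _⟩ := hcov p (interior_subset hp)
    exact Fintype.card_pos_iff.mpr ⟨d i⟩
  have hnR : (1 : ℝ) ≤ Fintype.card κ := by exact_mod_cast hn
  set n : ℝ := (Fintype.card κ : ℝ) with hn_def
  set r := √(2 * n) with hr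
  have hr2 : r ^ 2 = 2 * n := Real.sq_sqrt (by linarith)
  have hr1 : 1 < r := by
    rw [hr, Real.lt_sqrt (by norm_num)]
    linarith
  have hy0 : (0 : ℝ) ≤ 1 / r := by positivity
  have hy1 : 1 / r ≤ 1 := by
    rw [div_le_one (by linarith)]
    exact hr1.le
  have hpos : 0 < 3 * (1 - 1 / r) := by
    have : 1 / r < 1 := by
      rw [div_lt_one (by linarith)]
      exact hr1
    linarith
  have hval : (1 - n * (1 / r) ^ 3) / (3 * (1 - 1 / r)) = 1 / 3 + 1 / (6 * (r - 1)) := by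
    have hn2 : n = r ^ 2 / 2 := by rw [hr2]; ring
    have h1 : r ≠ 0 := by linarith
    have h2 : r - 1 ≠ 0 := by linarith
    rw [hn2]
    field_simp
    ring
  have second : ENNReal.ofReal (1 / 3 + 1 / (6 * (r - 1))) ≤
      ∑ i, volume (B i) /
        volume ((fun p : Fin 3 → ℝ => (e (d i) ⬝ᵥ p, f (d i) ⬝ᵥ p)) '' K) := by
    rw [← hval, ENNReal.ofReal_div_of_pos hpos]
    exact ENNReal.div_le_of_le_mul' (fam (1 / r) hy0 hy1)
  refine ⟨fam, second, ?_⟩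
  set A := ⨅ (a : Fin 3 → ℝ) (b : Fin 3 → ℝ) (_ : a ⬝ᵥ a = 1 ∧ b ⬝ᵥ b = 1 ∧ a ⬝ᵥ b = 0),
    volume ((fun p : Fin 3 → ℝ => (a ⬝ᵥ p, b ⬝ᵥ p)) '' K) with hA
  have hAle : ∀ k, A ≤ volume ((fun p : Fin 3 → ℝ => (e k ⬝ᵥ p, f k ⬝ᵥ p)) '' K) := fun k =>
    iInf_le_of_le (e k) (iInf_le_of_le (f k) (iInf_le _ (hef k)))
  have h3 : ∑ i, volume (B i) /
      volume ((fun p : Fin 3 → ℝ => (e (d i) ⬝ᵥ p, f (d i) ⬝ᵥ p)) '' K) ≤
        (∑ i, volume (B i)) / A := by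
    have h4 : (∑ i, volume (B i)) / A = ∑ i, volume (B i) / A := by
      simp only [div_eq_mul_inv, Finset.sum_mul]
    rw [h4]
    exact Finset.sum_le_sum fun i _ => ENNReal.div_le_div_left (hAle (d i)) _
  exact ENNReal.mul_le_of_le_div (second.trans h3)

end Vale.Agent.Lib.P243
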