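import Vale.Agent.Lib.P243.Family

/-!
# P243: small lemmas used to state the results for unit vectors in Euclidean three-space
-/

namespace Vale.Agent.Lib.P243

open MeasureTheory Set

theorem span_eq_of_mem {E : Type*} [AddCommGroup E] [Module ℝ E] {u v : E} (hu : u ≠ 0)
    (h : u ∈ Submodule.span ℝ {v}) : Submodule.span ℝ {u} = Submodule.span ℝ {v} := by
  obtain ⟨c, rfl⟩ := Submodule.mem_span_singleton.mp h
  have hc : c ≠ 0 := by
    rintro rfl
    exact hu (zero_smul _ _)
  exact Submodule.span_singleton_smul_eq (IsUnit.mk0 c hc) v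

theorem bang_form {ι : Type*} (s : Finset ι) (a P : ι → ENNReal) (A : ENNReal)
    (hA : ∀ i ∈ s, A ≤ P i) (h : (1 : ENNReal) / 2 ≤ ∑ i ∈ s, a i / P i) :
    (1 : ENNReal) / 2 * A ≤ ∑ i ∈ s, a i := by
  have h1 : ∑ i ∈ s, a i / P i ≤ ∑ i ∈ s, a i / A :=
    Finset.sum_le_sum (fun i hi => ENNReal.div_le_div_left (hA i hi) _)
  have h2 : ∑ i ∈ s, a i / A = (∑ i ∈ s, a i) / A := by
    simp only [div_eq_mul_inv, Finset.sum_mul]
  exact ENNReal.mul_le_of_le_div ((h.trans h1).trans h2.le)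

theorem unit_ne_zero {E : Type*} [NormedAddCommGroup E] {u : E} (hu : ‖u‖ = 1) : u ≠ 0 := by
  rintro rfl
  rw [norm_zero] at hu
  exact zero_ne_one hu

/-- Finite families of cylinders in Euclidean three-space whose unit axis vectors are all
parallel to `v` or to `w`; the bases are arbitrary sets. -/
theorem euclid_family {ι : Type*} [Fintype ι]
    (K : Set (EuclideanSpace ℝ (Fin 3))) (hK : Convex ℝ K) (hKc : IsCompact K)
    (hKi : (interior K).Nonempty)
    (u : ι → EuclideanSpace ℝ (Fin 3)) (hu : ∀ i, ‖u i‖ = 1)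
    (B : ∀ i, Set (Submodule.span ℝ {u i})ᗮ)
    (hcov : ∀ p ∈ K, ∃ i, (Submodule.span ℝ {u i})ᗮ.orthogonalProjectionOnto p ∈ B i)
    (v w : EuclideanSpace ℝ (Fin 3))
    (hdir : ∀ i, u i ∈ Submodule.span ℝ {v} ∨ u i ∈ Submodule.span ℝ {w}) :
    (1 : ENNReal) / 2 ≤ ∑ i, volume (B i) /
        volume ((Submodule.span ℝ {u i})ᗮ.orthogonalProjectionOnto '' K) := by
  have hE : Module.finrank ℝ (EuclideanSpace ℝ (Fin 3)) = 3 := by simp
  have h := family_two_lines hE hK hKc hKi (fun i => Submodule.span ℝ {u i})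
    (fun i => finrank_span_singleton (unit_ne_zero (hu i)))
    (fun i => toMeasurable volume (B i)) (fun i => measurableSet_toMeasurable _ _)
    (fun p hp => by
      obtain ⟨i, hi⟩ := hcov p hp
      exact ⟨i, subset_toMeasurable _ _ hi⟩)
    (Submodule.span ℝ {v}) (Submodule.span ℝ {w})
    (fun i => (hdir i).imp (span_eq_of_mem (unit_ne_zero (hu i)))
      (span_eq_of_mem (unit_ne_zero (hu i))))
  simpa only [measure_toMeasurable] using h

end Vale.Agent.Lib.P243
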