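import Vale.Agent.Lib.P243.General

/-!
# P243: finite families of cylinders whose axes take at most two directions
-/

namespace Vale.Agent.Lib.P243

open MeasureTheory Set

section

variable {E : Type*} [NormedAddCommGroup E] [InnerProductSpace ℝ E] [FiniteDimensional ℝ E]
  [MeasurableSpace E] [BorelSpace E]

/-- The same subset of `E`, seen inside another orthogonal complement. -/
def transportBase {S : Submodule ℝ E} (B : Set Sᗮ) (W : Submodule ℝ E) : Set Wᗮ :=
  {x | ∃ y ∈ B, (y : E) = (x : E)}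

theorem transportBase_spec {S : Submodule ℝ E} (B : Set Sᗮ) (hB : MeasurableSet B)
    (W : Submodule ℝ E) (h : S = W) (K : Set E) :
    MeasurableSet (transportBase B W) ∧ volume (transportBase B W) = volume B ∧
    (∀ p : E, Sᗮ.orthogonalProjectionOnto p ∈ B →
      Wᗮ.orthogonalProjectionOnto p ∈ transportBase B W) ∧
    volume ((Wᗮ.orthogonalProjectionOnto : E → Wᗮ) '' K) =
      volume ((Sᗮ.orthogonalProjectionOnto : E → Sᗮ) '' K) := by
  subst h
  have e : transportBase B S = B := by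
    ext x
    constructor
    · rintro ⟨y, hy, hyx⟩
      rwa [← Subtype.ext hyx]
    · intro hx
      exact ⟨x, hx, rfl⟩
  rw [e]
  exact ⟨hB, rfl, fun p hp => hp, rfl⟩

/-- A finite family of cylinders in a three-dimensional Euclidean space, all of whose axes
are one of two lines: if it covers a convex body, the relative areas of the bases sum to at
least `1/2`. -/
theorem family_two_lines (hE : Module.finrank ℝ E = 3) {K : Set E} (hK : Convex ℝ K)
    (hKc : IsCompact K) (hKi : (interior K).Nonempty) {ι : Type*} [Fintype ι]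
    (S : ι → Submodule ℝ E) (hS : ∀ i, Module.finrank ℝ (S i) = 1)
    (B : ∀ i, Set (S i)ᗮ) (hB : ∀ i, MeasurableSet (B i))
    (hcov : ∀ p ∈ K, ∃ i, (S i)ᗮ.orthogonalProjectionOnto p ∈ B i)
    (S₁ S₂ : Submodule ℝ E) (hdir : ∀ i, S i = S₁ ∨ S i = S₂) :
    (1 : ENNReal) / 2 ≤ ∑ i, volume (B i) /
      volume (((S i)ᗮ.orthogonalProjectionOnto : E → (S i)ᗮ) '' K) := by
  classical
  obtain ⟨p₀, hp₀⟩ := hKi
  obtain ⟨i₀, -⟩ := hcov p₀ (interior_subset hp₀)
  obtain ⟨W₁, W₂, hW₁, hW₂, hW⟩ : ∃ W₁ W₂ : Submodule ℝ E, Module.finrank ℝ W₁ = 1 ∧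
      Module.finrank ℝ W₂ = 1 ∧ ∀ i, S i = W₁ ∨ S i = W₂ := by
    by_cases hall : ∀ i, S i = S i₀
    · exact ⟨S i₀, S i₀, hS i₀, hS i₀, fun i => Or.inl (hall i)⟩
    · push Not at hall
      obtain ⟨i₁, hi₁⟩ := hall
      refine ⟨S i₀, S i₁, hS i₀, hS i₁, fun i => ?_⟩
      rcases hdir i₀ with h0 | h0 <;> rcases hdir i₁ with h1 | h1 <;> rcases hdir i with h | h
      all_goals
        first
        | exact Or.inl (h.trans h0.symm)
        | exact Or.inr (h.trans h1.symm)
        | exact absurd (h1.trans h0.symm) hi₁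
  set I₁ : Finset ι := Finset.univ.filter (fun i => S i = W₁) with hI₁
  set I₂ : Finset ι := Finset.univ.filter (fun i => ¬ S i = W₁) with hI₂
  set D₁ : Set W₁ᗮ := ⋃ i ∈ I₁, transportBase (B i) W₁ with hD₁
  set D₂ : Set W₂ᗮ := ⋃ i ∈ I₂, transportBase (B i) W₂ with hD₂
  have hi₁ : ∀ i ∈ I₁, S i = W₁ := fun i hi => (Finset.mem_filter.mp hi).2
  have hi₂ : ∀ i ∈ I₂, S i = W₂ := fun i hi =>
    (hW i).resolve_left (Finset.mem_filter.mp hi).2
  have hD₁m : MeasurableSet D₁ := Finset.measurableSet_biUnion _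
    (fun i hi => (transportBase_spec (B i) (hB i) W₁ (hi₁ i hi) K).1)
  have hD₂m : MeasurableSet D₂ := Finset.measurableSet_biUnion _
    (fun i hi => (transportBase_spec (B i) (hB i) W₂ (hi₂ i hi) K).1)
  have hcov' : ∀ p ∈ K,
      W₁ᗮ.orthogonalProjectionOnto p ∈ D₁ ∨ W₂ᗮ.orthogonalProjectionOnto p ∈ D₂ := by
    intro p hp
    obtain ⟨i, hi⟩ := hcov p hp
    by_cases h : S i = W₁
    · left
      have hiI : i ∈ I₁ := Finset.mem_filter.mpr ⟨Finset.mem_univ _, h⟩
      exact mem_biUnion hiI ((transportBase_spec (B i) (hB i) W₁ h K).2.2.1 p hi)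
    · right
      have hiI : i ∈ I₂ := Finset.mem_filter.mpr ⟨Finset.mem_univ _, h⟩
      exact mem_biUnion hiI ((transportBase_spec (B i) (hB i) W₂ (hi₂ i hiI) K).2.2.1 p hi)
  have key := two_line_cylinders hE hK hKc ⟨p₀, hp₀⟩ W₁ W₂ hW₁ hW₂ hD₁m hD₂m hcov'
  have hb₁ : volume D₁ / volume ((W₁ᗮ.orthogonalProjectionOnto : E → W₁ᗮ) '' K) ≤
      ∑ i ∈ I₁, volume (B i) /
        volume (((S i)ᗮ.orthogonalProjectionOnto : E → (S i)ᗮ) '' K) := by
    calc volume D₁ / volume ((W₁ᗮ.orthogonalProjectionOnto : E → W₁ᗮ) '' K)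
        ≤ (∑ i ∈ I₁, volume (transportBase (B i) W₁)) /
            volume ((W₁ᗮ.orthogonalProjectionOnto : E → W₁ᗮ) '' K) :=
          ENNReal.div_le_div_right (measure_biUnion_finset_le _ _) _
      _ = ∑ i ∈ I₁, volume (transportBase (B i) W₁) /
            volume ((W₁ᗮ.orthogonalProjectionOnto : E → W₁ᗮ) '' K) := by
          simp only [div_eq_mul_inv, Finset.sum_mul]
      _ = ∑ i ∈ I₁, volume (B i) /
            volume (((S i)ᗮ.orthogonalProjectionOnto : E → (S i)ᗮ) '' K) :=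
          Finset.sum_congr rfl (fun i hi => by
            obtain ⟨-, h1, -, h2⟩ := transportBase_spec (B i) (hB i) W₁ (hi₁ i hi) K
            rw [h1, h2])
  have hb₂ : volume D₂ / volume ((W₂ᗮ.orthogonalProjectionOnto : E → W₂ᗮ) '' K) ≤
      ∑ i ∈ I₂, volume (B i) /
        volume (((S i)ᗮ.orthogonalProjectionOnto : E → (S i)ᗮ) '' K) := by
    calc volume D₂ / volume ((W₂ᗮ.orthogonalProjectionOnto : E → W₂ᗮ) '' K)
        ≤ (∑ i ∈ I₂, volume (transportBase (B i) W₂)) /
            volume ((W₂ᗮ.orthogonalProjectionOnto : E → W₂ᗮ) '' K) :=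
          ENNReal.div_le_div_right (measure_biUnion_finset_le _ _) _
      _ = ∑ i ∈ I₂, volume (transportBase (B i) W₂) /
            volume ((W₂ᗮ.orthogonalProjectionOnto : E → W₂ᗮ) '' K) := by
          simp only [div_eq_mul_inv, Finset.sum_mul]
      _ = ∑ i ∈ I₂, volume (B i) /
            volume (((S i)ᗮ.orthogonalProjectionOnto : E → (S i)ᗮ) '' K) :=
          Finset.sum_congr rfl (fun i hi => by
            obtain ⟨-, h1, -, h2⟩ := transportBase_spec (B i) (hB i) W₂ (hi₂ i hi) K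
            rw [h1, h2])
  calc (1 : ENNReal) / 2
      ≤ volume D₁ / volume ((W₁ᗮ.orthogonalProjectionOnto : E → W₁ᗮ) '' K) +
        volume D₂ / volume ((W₂ᗮ.orthogonalProjectionOnto : E → W₂ᗮ) '' K) := key
    _ ≤ (∑ i ∈ I₁, volume (B i) /
          volume (((S i)ᗮ.orthogonalProjectionOnto : E → (S i)ᗮ) '' K)) +
        ∑ i ∈ I₂, volume (B i) /
          volume (((S i)ᗮ.orthogonalProjectionOnto : E → (S i)ᗮ) '' K) := add_le_add hb₁ hb₂
    _ = ∑ i, volume (B i) /
          volume (((S i)ᗮ.orthogonalProjectionOnto : E → (S i)ᗮ) '' K) :=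
        Finset.sum_filter_add_sum_filter_not _ _ _

end

end Vale.Agent.Lib.P243
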