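import Mathlib

/-!
# P243: a linear map with kernel `S` scales the area of subsets of `Sᗮ` by a constant
-/

namespace Vale.Agent.Lib.P243

open MeasureTheory Set

/-- The difference of a vector and its orthogonal projection to `Sᗮ` lies in `S`. -/
theorem sub_proj_mem {E : Type*} [NormedAddCommGroup E] [InnerProductSpace ℝ E]
    [FiniteDimensional ℝ E] (S : Submodule ℝ E) (p : E) :
    p - (Sᗮ.orthogonalProjectionOnto p : E) ∈ S := by
  have h := Sᗮ.sub_starProjection_mem_orthogonal p
  rwa [Submodule.orthogonal_orthogonal] at h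

/-- A linear map with kernel `S` takes the same value at a vector and at its projection. -/
theorem map_proj_eq {E F : Type*} [NormedAddCommGroup E] [InnerProductSpace ℝ E]
    [FiniteDimensional ℝ E] [AddCommGroup F] [Module ℝ F] (S : Submodule ℝ E)
    (q : E →ₗ[ℝ] F) (hker : LinearMap.ker q = S) (p : E) :
    q (Sᗮ.orthogonalProjectionOnto p : E) = q p := by
  subst hker
  have h := sub_proj_mem (LinearMap.ker q) p
  rw [LinearMap.mem_ker, map_sub, sub_eq_zero] at h
  exact h.symm

theorem exists_scale {E F : Type*} [NormedAddCommGroup E] [InnerProductSpace ℝ E]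
    [FiniteDimensional ℝ E] [MeasurableSpace E] [BorelSpace E]
    [NormedAddCommGroup F] [NormedSpace ℝ F] [FiniteDimensional ℝ F] [MeasurableSpace F]
    [BorelSpace F] (ν : Measure F) [ν.IsAddHaarMeasure]
    (S : Submodule ℝ E) (q : E →ₗ[ℝ] F) (hker : LinearMap.ker q = S)
    (hsurj : Function.Surjective q) :
    ∃ c : ENNReal, c ≠ 0 ∧ c ≠ ⊤ ∧
      (∀ A : Set Sᗮ, ν ((fun x : Sᗮ => q (x : E)) '' A) = c * volume A) ∧
      (∀ A : Set Sᗮ, MeasurableSet A → MeasurableSet ((fun x : Sᗮ => q (x : E)) '' A)) ∧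
      Function.Injective (fun x : Sᗮ => q (x : E)) := by
  subst hker
  set S := LinearMap.ker q with hS
  set q' : Sᗮ →ₗ[ℝ] F := q.comp Sᗮ.subtype with hq'
  have hinj : Function.Injective q' := by
    rw [← LinearMap.ker_eq_bot, Submodule.eq_bot_iff]
    intro x hx
    rw [LinearMap.mem_ker, hq', LinearMap.comp_apply, Submodule.subtype_apply] at hx
    have h1 : (x : E) ∈ S := LinearMap.mem_ker.mpr hx
    have h2 : (x : E) ∈ S ⊓ Sᗮ := ⟨h1, x.2⟩
    rw [Submodule.inf_orthogonal_eq_bot, Submodule.mem_bot] at h2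
    exact Subtype.ext h2
  have hsur : Function.Surjective q' := by
    intro y
    obtain ⟨p, rfl⟩ := hsurj y
    exact ⟨Sᗮ.orthogonalProjectionOnto p, map_proj_eq S q rfl p⟩
  set L : Sᗮ ≃L[ℝ] F := (LinearEquiv.ofBijective q' ⟨hinj, hsur⟩).toContinuousLinearEquiv with hL
  have hLapp : ∀ x : Sᗮ, L x = q (x : E) := fun x => rfl
  have hfun : (fun x : Sᗮ => q (x : E)) = L := by ext x; rfl
  have hHaar : (Measure.map L (volume : Measure Sᗮ)).IsAddHaarMeasure :=
    L.isAddHaarMeasure_map volume
  have hsm := Measure.isAddLeftInvariant_eq_smul (Measure.map L (volume : Measure Sᗮ)) ν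
  have hpos := Measure.addHaarScalarFactor_pos_of_isAddHaarMeasure
    (Measure.map L (volume : Measure Sᗮ)) ν
  set c₀ := Measure.addHaarScalarFactor (Measure.map L (volume : Measure Sᗮ)) ν with hc₀
  refine ⟨(c₀ : ENNReal)⁻¹, ?_, ?_, ?_, ?_, ?_⟩
  · simp
  · simp [hpos.ne']
  · intro A
    rw [hfun]
    have h1 : Measure.map L (volume : Measure Sᗮ) (L '' A) = volume A := by
      have := L.toHomeomorph.toMeasurableEquiv.map_apply (μ := (volume : Measure Sᗮ)) (L '' A)
      have e : (L.toHomeomorph.toMeasurableEquiv : Sᗮ → F) = L := rfl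
      rw [e] at this
      rw [this, L.injective.preimage_image]
    rw [hsm] at h1
    rw [Measure.smul_apply] at h1
    rw [← h1]
    have hc0 : (c₀ : ENNReal) ≠ 0 := by simp [hpos.ne']
    have hct : (c₀ : ENNReal) ≠ ⊤ := ENNReal.coe_ne_top
    rw [ENNReal.smul_def, smul_eq_mul, ← mul_assoc, ENNReal.inv_mul_cancel hc0 hct, one_mul]
  · intro A hA
    rw [hfun]
    exact (L.toHomeomorph.toMeasurableEquiv.measurableSet_image).mpr hA
  · rw [hfun]; exact L.injective

end Vale.Agent.Lib.P243
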