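import Vale.Agent.Lib.P243.Body
import Vale.Agent.Lib.P243.Scale

/-!
# P243: two cylinders with arbitrary axis directions
-/

namespace Vale.Agent.Lib.P243

open MeasureTheory Set

section

variable {E : Type*} [NormedAddCommGroup E] [InnerProductSpace ℝ E] [FiniteDimensional ℝ E]
  [MeasurableSpace E] [BorelSpace E]

omit [MeasurableSpace E] [BorelSpace E] in
theorem proj_surjective (S : Submodule ℝ E) :
    Function.Surjective (Sᗮ.orthogonalProjectionOnto : E → Sᗮ) := fun x =>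
  ⟨(x : E), Submodule.orthogonalProjectionOnto_mem_subspace_eq_self x⟩

theorem proj_volume_ne_zero (S : Submodule ℝ E) {K : Set E} (hKi : (interior K).Nonempty) :
    volume ((Sᗮ.orthogonalProjectionOnto : E → Sᗮ) '' K) ≠ 0 := by
  have hopen : IsOpenMap (Sᗮ.orthogonalProjectionOnto : E → Sᗮ) :=
    LinearMap.isOpenMap_of_finiteDimensional (Sᗮ.orthogonalProjectionOnto : E →ₗ[ℝ] Sᗮ)
      (proj_surjective S)
  have h1 : IsOpen ((Sᗮ.orthogonalProjectionOnto : E → Sᗮ) '' interior K) :=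
    hopen _ isOpen_interior
  have h2 : ((Sᗮ.orthogonalProjectionOnto : E → Sᗮ) '' interior K).Nonempty := hKi.image _
  exact ((h1.measure_pos volume h2).trans_le (measure_mono (image_mono interior_subset))).ne'

theorem proj_volume_ne_top (S : Submodule ℝ E) {K : Set E} (hKc : IsCompact K) :
    volume ((Sᗮ.orthogonalProjectionOnto : E → Sᗮ) '' K) ≠ ⊤ :=
  (hKc.image (Sᗮ.orthogonalProjectionOnto).continuous).measure_lt_top.ne

/-- Two cylinders with the same axis direction covering a body: relative areas sum to at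
least one. -/
theorem parallel_cylinders (S : Submodule ℝ E) {K : Set E} (hKc : IsCompact K)
    (hKi : (interior K).Nonempty) {B₁ B₂ : Set Sᗮ}
    (hcov : ∀ p ∈ K, Sᗮ.orthogonalProjectionOnto p ∈ B₁ ∨ Sᗮ.orthogonalProjectionOnto p ∈ B₂) :
    (1 : ENNReal) ≤ volume B₁ / volume ((Sᗮ.orthogonalProjectionOnto : E → Sᗮ) '' K) +
      volume B₂ / volume ((Sᗮ.orthogonalProjectionOnto : E → Sᗮ) '' K) := by
  set P := volume ((Sᗮ.orthogonalProjectionOnto : E → Sᗮ) '' K) with hP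
  have hP0 : P ≠ 0 := proj_volume_ne_zero S hKi
  have hPt : P ≠ ⊤ := proj_volume_ne_top S hKc
  have hsub : (Sᗮ.orthogonalProjectionOnto : E → Sᗮ) '' K ⊆ B₁ ∪ B₂ := by
    rintro _ ⟨p, hp, rfl⟩
    exact hcov p hp
  have hle : P ≤ volume B₁ + volume B₂ := (measure_mono hsub).trans (measure_union_le _ _)
  rw [← ENNReal.add_div, ENNReal.le_div_iff_mul_le (Or.inl hP0) (Or.inl hPt), one_mul]
  exact hle

/-- Two cylinders in a three-dimensional Euclidean space whose axes are the lines `S₁`, `S₂`: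
if they cover a convex body, the relative areas of the bases sum to at least `1/2`. -/
theorem two_line_cylinders (hE : Module.finrank ℝ E = 3) {K : Set E} (hK : Convex ℝ K)
    (hKc : IsCompact K) (hKi : (interior K).Nonempty) (S₁ S₂ : Submodule ℝ E)
    (h₁ : Module.finrank ℝ S₁ = 1) (h₂ : Module.finrank ℝ S₂ = 1)
    {B₁ : Set S₁ᗮ} {B₂ : Set S₂ᗮ} (hB₁ : MeasurableSet B₁) (hB₂ : MeasurableSet B₂)
    (hcov : ∀ p ∈ K,
      S₁ᗮ.orthogonalProjectionOnto p ∈ B₁ ∨ S₂ᗮ.orthogonalProjectionOnto p ∈ B₂) :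
    (1 : ENNReal) / 2 ≤
      volume B₁ / volume ((S₁ᗮ.orthogonalProjectionOnto : E → S₁ᗮ) '' K) +
      volume B₂ / volume ((S₂ᗮ.orthogonalProjectionOnto : E → S₂ᗮ) '' K) := by
  by_cases hS : S₁ = S₂
  · subst hS
    exact ENNReal.half_le_self.trans (parallel_cylinders S₁ hKc hKi hcov)
  obtain ⟨v₁, hv₁0, hv₁⟩ := finrank_eq_one_iff'.mp h₁
  obtain ⟨v₂, hv₂0, hv₂⟩ := finrank_eq_one_iff'.mp h₂
  set u₁ : E := (v₁ : E) with hu₁
  set u₂ : E := (v₂ : E) with hu₂
  have hu₁0 : u₁ ≠ 0 := fun h => hv₁0 (Subtype.ext h)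
  have hS₁ : ∀ w ∈ S₁, ∃ c : ℝ, c • u₁ = w := fun w hw => by
    obtain ⟨c, hc⟩ := hv₁ ⟨w, hw⟩
    exact ⟨c, congrArg Subtype.val hc⟩
  have hS₂ : ∀ w ∈ S₂, ∃ c : ℝ, c • u₂ = w := fun w hw => by
    obtain ⟨c, hc⟩ := hv₂ ⟨w, hw⟩
    exact ⟨c, congrArg Subtype.val hc⟩
  have hu₁S : u₁ ∈ S₁ := v₁.2
  have hu₂S : u₂ ∈ S₂ := v₂.2
  have hu₂S₁ : u₂ ∉ S₁ := by
    intro hmem
    apply hS
    have hle : S₂ ≤ S₁ := by
      intro w hw
      obtain ⟨c, rfl⟩ := hS₂ w hw
      exact S₁.smul_mem c hmem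
    exact (Submodule.eq_of_le_of_finrank_eq hle (by rw [h₁, h₂])).symm
  have hsup : S₁ ⊔ S₂ ≠ ⊤ := by
    intro htop
    have h := Submodule.finrank_add_le_finrank_add_finrank S₁ S₂
    rw [htop, finrank_top, hE, h₁, h₂] at h
    omega
  obtain ⟨u₃, hu₃⟩ : ∃ u₃ : E, u₃ ∉ S₁ ⊔ S₂ := by
    by_contra hcon
    push Not at hcon
    exact hsup (Submodule.eq_top_iff'.mpr hcon)
  set G : ℝ × ℝ × ℝ →ₗ[ℝ] E :=
    { toFun := fun x => x.1 • u₁ + x.2.1 • u₂ + x.2.2 • u₃
      map_add' := by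
        intro x y
        simp only [Prod.fst_add, Prod.snd_add, add_smul]
        abel
      map_smul' := by
        intro c x
        simp only [Prod.smul_fst, Prod.smul_snd, smul_eq_mul, mul_smul, RingHom.id_apply,
          smul_add] } with hG
  have hGapp : ∀ x : ℝ × ℝ × ℝ, G x = x.1 • u₁ + x.2.1 • u₂ + x.2.2 • u₃ := fun x => rfl
  have hGinj : Function.Injective G := by
    rw [← LinearMap.ker_eq_bot, Submodule.eq_bot_iff]
    rintro ⟨a, b, c⟩ hx
    rw [LinearMap.mem_ker, hGapp] at hx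
    simp only at hx
    have hc : c = 0 := by
      by_contra hc
      apply hu₃
      have h3 : u₃ = (-(c⁻¹ * a)) • u₁ + (-(c⁻¹ * b)) • u₂ := by
        have h' : c • u₃ = -(a • u₁) - b • u₂ := by
          rw [eq_sub_iff_add_eq, eq_neg_iff_add_eq_zero, ← hx]
          abel
        have h'' : u₃ = c⁻¹ • (c • u₃) := by rw [smul_smul, inv_mul_cancel₀ hc, one_smul]
        rw [h'', h', smul_sub, smul_neg, smul_smul, smul_smul, neg_smul, neg_smul]
        abel
      rw [h3]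
      exact Submodule.add_mem _ (Submodule.mem_sup_left (S₁.smul_mem _ hu₁S))
        (Submodule.mem_sup_right (S₂.smul_mem _ hu₂S))
    subst hc
    rw [zero_smul, add_zero] at hx
    have hb : b = 0 := by
      by_contra hb
      apply hu₂S₁
      have h2 : u₂ = (-(b⁻¹ * a)) • u₁ := by
        have h' : b • u₂ = -(a • u₁) := by
          rw [eq_neg_iff_add_eq_zero, ← hx]
          abel
        have h'' : u₂ = b⁻¹ • (b • u₂) := by rw [smul_smul, inv_mul_cancel₀ hb, one_smul]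
        rw [h'', h', smul_neg, smul_smul, neg_smul]
      rw [h2]
      exact S₁.smul_mem _ hu₁S
    subst hb
    rw [zero_smul, add_zero] at hx
    have ha : a = 0 := by
      rcases smul_eq_zero.mp hx with h | h
      · exact h
      · exact absurd h hu₁0
    subst ha
    rfl
  set T : E ≃ₗ[ℝ] ℝ × ℝ × ℝ :=
    (LinearMap.linearEquivOfInjective G hGinj (by simp [hE])).symm with hT
  have hTG : ∀ x, T (G x) = x := fun x => by
    rw [hT]
    exact (LinearMap.linearEquivOfInjective G hGinj _).symm_apply_apply x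
  have hGT : ∀ p, G (T p) = p := fun p => by
    rw [hT]
    exact (LinearMap.linearEquivOfInjective G hGinj _).apply_symm_apply p
  set q₁ : E →ₗ[ℝ] ℝ × ℝ := (LinearMap.snd ℝ ℝ (ℝ × ℝ)).comp T.toLinearMap with hq₁
  set q₂ : E →ₗ[ℝ] ℝ × ℝ := ((LinearMap.fst ℝ ℝ (ℝ × ℝ)).prod
    ((LinearMap.snd ℝ ℝ ℝ).comp (LinearMap.snd ℝ ℝ (ℝ × ℝ)))).comp T.toLinearMap with hq₂
  have hq₁app : ∀ p, q₁ p = (T p).2 := fun p => rfl
  have hq₂app : ∀ p, q₂ p = ((T p).1, (T p).2.2) := fun p => rfl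
  have hker₁ : LinearMap.ker q₁ = S₁ := by
    ext p
    rw [LinearMap.mem_ker, hq₁app]
    constructor
    · intro h
      have hp := hGT p
      rw [hGapp] at hp
      have e1 : (T p).2.1 = 0 := by rw [h]; rfl
      have e2 : (T p).2.2 = 0 := by rw [h]; rfl
      rw [e1, e2, zero_smul, zero_smul, add_zero, add_zero] at hp
      rw [← hp]
      exact S₁.smul_mem _ hu₁S
    · intro hp
      obtain ⟨c, rfl⟩ := hS₁ p hp
      have e : c • u₁ = G (c, 0, 0) := by rw [hGapp]; simp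
      rw [e, hTG]
      rfl
  have hker₂ : LinearMap.ker q₂ = S₂ := by
    ext p
    rw [LinearMap.mem_ker, hq₂app]
    constructor
    · intro h
      have hp := hGT p
      rw [hGapp] at hp
      have e1 : (T p).1 = 0 := congrArg Prod.fst h
      have e2 : (T p).2.2 = 0 := congrArg Prod.snd h
      rw [e1, e2, zero_smul, zero_smul, add_zero, zero_add] at hp
      rw [← hp]
      exact S₂.smul_mem _ hu₂S
    · intro hp
      obtain ⟨c, rfl⟩ := hS₂ p hp
      have e : c • u₂ = G (0, c, 0) := by rw [hGapp]; simp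
      rw [e, hTG]
      rfl
  have hsurj₁ : Function.Surjective q₁ := by
    intro y
    refine ⟨G (0, y.1, y.2), ?_⟩
    rw [hq₁app, hTG]
  have hsurj₂ : Function.Surjective q₂ := by
    intro y
    refine ⟨G (y.1, 0, y.2), ?_⟩
    rw [hq₂app, hTG]
  obtain ⟨c₁, hc₁0, hc₁t, hvol₁, hmeas₁, -⟩ :=
    exists_scale (volume : Measure (ℝ × ℝ)) S₁ q₁ hker₁ hsurj₁
  obtain ⟨c₂, hc₂0, hc₂t, hvol₂, hmeas₂, -⟩ :=
    exists_scale (volume : Measure (ℝ × ℝ)) S₂ q₂ hker₂ hsurj₂
  set K' : Set (ℝ × ℝ × ℝ) := T '' K with hK'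
  have hK'conv : Convex ℝ K' := hK.linear_image T.toLinearMap
  have hK'c : IsCompact K' := hKc.image T.toLinearMap.continuous_of_finiteDimensional
  have hK'i : (interior K').Nonempty := by
    have hopen : IsOpenMap T :=
      LinearMap.isOpenMap_of_finiteDimensional T.toLinearMap T.surjective
    have h1 : IsOpen (T '' interior K) := hopen _ isOpen_interior
    have h2 : T '' interior K ⊆ interior K' :=
      interior_maximal (image_mono interior_subset) h1
    exact (hKi.image T).mono h2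
  have hcov' : ∀ p' ∈ K', p'.2 ∈ (fun x : S₁ᗮ => q₁ (x : E)) '' B₁ ∨
      (p'.1, p'.2.2) ∈ (fun x : S₂ᗮ => q₂ (x : E)) '' B₂ := by
    rintro _ ⟨p, hp, rfl⟩
    rcases hcov p hp with h | h
    · left
      exact ⟨_, h, map_proj_eq S₁ q₁ hker₁ p⟩
    · right
      exact ⟨_, h, map_proj_eq S₂ q₂ hker₂ p⟩
  have him₁ : Prod.snd '' K' =
      (fun x : S₁ᗮ => q₁ (x : E)) '' ((S₁ᗮ.orthogonalProjectionOnto : E → S₁ᗮ) '' K) := by
    rw [hK', image_image, image_image]
    refine image_congr fun p _ => ?_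
    exact (map_proj_eq S₁ q₁ hker₁ p).symm
  have him₂ : (fun p : ℝ × ℝ × ℝ => (p.1, p.2.2)) '' K' =
      (fun x : S₂ᗮ => q₂ (x : E)) '' ((S₂ᗮ.orthogonalProjectionOnto : E → S₂ᗮ) '' K) := by
    rw [hK', image_image, image_image]
    refine image_congr fun p _ => ?_
    exact (map_proj_eq S₂ q₂ hker₂ p).symm
  have key := two_axis_cylinders hK'conv hK'c hK'i (hmeas₁ B₁ hB₁) (hmeas₂ B₂ hB₂) hcov'
  rw [him₁, him₂, hvol₁, hvol₁, hvol₂, hvol₂, ENNReal.mul_div_mul_left _ _ hc₁0 hc₁t,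
    ENNReal.mul_div_mul_left _ _ hc₂0 hc₂t] at key
  exact key

end

end Vale.Agent.Lib.P243
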