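import Vale.Agent.Lib.P243.Quad

/-!
# P243, step 2: the planar covering lemma in the unit square
-/

namespace Vale.Agent.Lib.P243

open MeasureTheory Set

/-- Points of a chord of a convex planar set. -/
theorem chord_mem {S : Set (ℝ × ℝ)} (hS : Convex ℝ S) {x₁ y₁ x₂ y₂ x : ℝ}
    (h₁ : (x₁, y₁) ∈ S) (h₂ : (x₂, y₂) ∈ S) (h12 : x₁ < x₂) (hx1 : x₁ ≤ x) (hx2 : x ≤ x₂) :
    ∃ y, (x, y) ∈ S ∧ (x₂ - x₁) * y = y₁ * (x₂ - x) + y₂ * (x - x₁) := by
  have hpos : 0 < x₂ - x₁ := sub_pos.mpr h12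
  set t := (x - x₁) / (x₂ - x₁) with ht
  have ht0 : 0 ≤ t := div_nonneg (sub_nonneg.mpr hx1) hpos.le
  have ht1 : t ≤ 1 := by rw [ht, div_le_one hpos]; linarith
  have hmem := hS h₁ h₂ (sub_nonneg.mpr ht1) ht0 (by ring)
  refine ⟨(1 - t) * y₁ + t * y₂, ?_, ?_⟩
  · have : (1 - t) • (x₁, y₁) + t • (x₂, y₂) = (x, (1 - t) * y₁ + t * y₂) := by
      ext
      · simp only [Prod.smul_mk, Prod.mk_add_mk, smul_eq_mul]
        rw [ht]; field_simp; ring
      · simp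
    rwa [this] at hmem
  · rw [ht]; field_simp; ring

/-- Vertical sections of a convex planar set are preconnected. -/
theorem section_isPreconnected {S : Set (ℝ × ℝ)} (hS : Convex ℝ S) (x : ℝ) :
    IsPreconnected {y : ℝ | (x, y) ∈ S} := by
  have hconv : Convex ℝ {y : ℝ | (x, y) ∈ S} := by
    intro y1 hy1 y2 hy2 a b ha hb hab
    have h := hS hy1 hy2 ha hb hab
    have e : a • (x, y1) + b • (x, y2) = (x, a • y1 + b • y2) := by
      ext
      · simp only [Prod.smul_mk, Prod.mk_add_mk, smul_eq_mul]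
        rw [← add_mul, hab, one_mul]
      · simp
    rw [e] at h
    exact h
  exact hconv.isPreconnected

section quad

variable {S : Set (ℝ × ℝ)} (hS : Convex ℝ S) {α β γ δ : ℝ}
  (hα0 : 0 ≤ α) (hα1 : α ≤ 1) (hβ0 : 0 ≤ β) (hβ1 : β ≤ 1) (hγ0 : 0 ≤ γ) (hγ1 : γ ≤ 1)
  (hδ0 : 0 ≤ δ) (hδ1 : δ ≤ 1)
  (hA : ((0:ℝ), α) ∈ S) (hB : ((1:ℝ), β) ∈ S) (hC : (γ, (0:ℝ)) ∈ S) (hD : (δ, (1:ℝ)) ∈ S)

include hS hα0 hα1 hβ0 hβ1 hγ0 hγ1 hδ0 hδ1 hA hB hC hD

theorem hall_interval {I : Set ℝ} (hI : I.OrdConnected) :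
    volume {x : ℝ | 0 ≤ x ∧ x ≤ 1 ∧ ∀ y, (x, y) ∈ S → y ∈ I} ≤ volume (I ∩ Icc 0 1) := by
  set G := {x : ℝ | 0 ≤ x ∧ x ≤ 1 ∧ ∀ y, (x, y) ∈ S → y ∈ I} with hG
  rcases G.eq_empty_or_nonempty with hGe | ⟨x₀, hx₀⟩
  · rw [hGe]; simp
  set J := I ∩ Icc (0:ℝ) 1 with hJ
  have hJne : J.Nonempty := by
    obtain ⟨y, hy, hyeq⟩ := chord_mem hS hA hB (by norm_num) hx₀.1 hx₀.2.1
    refine ⟨y, hx₀.2.2 y hy, ?_, ?_⟩
    · nlinarith [mul_nonneg hα0 (sub_nonneg.mpr hx₀.2.1), mul_nonneg hβ0 hx₀.1]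
    · nlinarith [mul_le_mul_of_nonneg_right hα1 (sub_nonneg.mpr hx₀.2.1),
        mul_le_mul_of_nonneg_right hβ1 hx₀.1]
  have hJbb : BddBelow J := ⟨0, fun y hy => hy.2.1⟩
  have hJba : BddAbove J := ⟨1, fun y hy => hy.2.2⟩
  set c := sInf J with hc
  set d := sSup J with hd
  have hc0 : 0 ≤ c := le_csInf hJne (fun y hy => hy.2.1)
  have hd1 : d ≤ 1 := csSup_le hJne (fun y hy => hy.2.2)
  have hcd : c ≤ d := by
    obtain ⟨y, hy⟩ := hJne
    exact (csInf_le hJbb hy).trans (le_csSup hJba hy)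
  have hJord : J.OrdConnected := hI.inter ordConnected_Icc
  have hIoo : Ioo c d ⊆ J := by
    intro y hy
    obtain ⟨y1, hy1, hy1lt⟩ := exists_lt_of_csInf_lt hJne hy.1
    obtain ⟨y2, hy2, hy2gt⟩ := exists_lt_of_lt_csSup hJne hy.2
    exact hJord.out hy1 hy2 ⟨hy1lt.le, hy2gt.le⟩
  have hvol : ENNReal.ofReal (d - c) ≤ volume J := by
    rw [← Real.volume_Ioo]; exact measure_mono hIoo
  refine le_trans ?_ hvol
  refine le_trans (measure_mono ?_)
    (volume_chordSet_le hα0 hα1 hβ0 hβ1 hγ0 hγ1 hδ0 hδ1 hc0 hcd hd1)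
  intro x hx
  have key : ∀ y, (x, y) ∈ S → 0 ≤ y → y ≤ 1 → c ≤ y ∧ y ≤ d := fun y hy h0 h1 =>
    ⟨csInf_le hJbb ⟨hx.2.2 y hy, h0, h1⟩, le_csSup hJba ⟨hx.2.2 y hy, h0, h1⟩⟩
  have hx0 := hx.1
  have hx1 := hx.2.1
  refine ⟨hx0, hx1, fun hxγ => ?_, fun hxγ => ?_, fun hxδ => ?_, fun hxδ => ?_⟩
  · -- chord from A to C
    rcases hγ0.eq_or_lt with h0 | hpos
    · have hx00 : x = 0 := le_antisymm (by linarith) hx0
      rw [hx00, ← h0]; simp
    · obtain ⟨y, hy, hyeq⟩ := chord_mem hS hA hC hpos hx0 hxγ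
      have hyeq' : γ * y = α * (γ - x) := by linarith
      have hy0 : 0 ≤ y := by
        have h : 0 ≤ γ * y := by rw [hyeq']; exact mul_nonneg hα0 (sub_nonneg.mpr hxγ)
        exact nonneg_of_mul_nonneg_right h hpos
      have hy1 : y ≤ 1 := by
        have h : γ * y ≤ γ * 1 := by
          rw [hyeq']
          nlinarith [mul_nonneg hα0 hx0, mul_le_mul_of_nonneg_right hα1 (sub_nonneg.mpr hxγ)]
        exact le_of_mul_le_mul_left h hpos
      have hcy := (key y hy hy0 hy1).1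
      nlinarith [mul_le_mul_of_nonneg_left hcy hpos.le]
  · -- chord from C to B
    rcases hγ1.eq_or_lt with h1 | hlt
    · have hx11 : x = 1 := le_antisymm hx1 (by linarith)
      rw [hx11, h1]; simp
    · have hpos : 0 < 1 - γ := sub_pos.mpr hlt
      obtain ⟨y, hy, hyeq⟩ := chord_mem hS hC hB hlt hxγ hx1
      have hyeq' : (1 - γ) * y = β * (x - γ) := by linarith
      have hy0 : 0 ≤ y := by
        have h : 0 ≤ (1 - γ) * y := by rw [hyeq']; exact mul_nonneg hβ0 (sub_nonneg.mpr hxγ)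
        exact nonneg_of_mul_nonneg_right h hpos
      have hy1 : y ≤ 1 := by
        have h : (1 - γ) * y ≤ (1 - γ) * 1 := by
          rw [hyeq']
          nlinarith [mul_nonneg hβ0 (sub_nonneg.mpr hx1),
            mul_le_mul_of_nonneg_right hβ1 (sub_nonneg.mpr hxγ)]
        exact le_of_mul_le_mul_left h hpos
      have hcy := (key y hy hy0 hy1).1
      nlinarith [mul_le_mul_of_nonneg_left hcy hpos.le]
  · -- chord from A to D
    rcases hδ0.eq_or_lt with h0 | hpos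
    · have hx00 : x = 0 := le_antisymm (by linarith) hx0
      rw [hx00, ← h0]; simp
    · obtain ⟨y, hy, hyeq⟩ := chord_mem hS hA hD hpos hx0 hxδ
      have hyeq' : δ * y = α * (δ - x) + x := by linarith
      have hy0 : 0 ≤ y := by
        have h : 0 ≤ δ * y := by
          rw [hyeq']; exact add_nonneg (mul_nonneg hα0 (sub_nonneg.mpr hxδ)) hx0
        exact nonneg_of_mul_nonneg_right h hpos
      have hy1 : y ≤ 1 := by
        have h : δ * y ≤ δ * 1 := by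
          rw [hyeq']
          nlinarith [mul_le_mul_of_nonneg_right hα1 (sub_nonneg.mpr hxδ)]
        exact le_of_mul_le_mul_left h hpos
      have hyd := (key y hy hy0 hy1).2
      nlinarith [mul_le_mul_of_nonneg_left hyd hpos.le]
  · -- chord from D to B
    rcases hδ1.eq_or_lt with h1 | hlt
    · have hx11 : x = 1 := le_antisymm hx1 (by linarith)
      rw [hx11, h1]; simp
    · have hpos : 0 < 1 - δ := sub_pos.mpr hlt
      obtain ⟨y, hy, hyeq⟩ := chord_mem hS hD hB hlt hxδ hx1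
      have hyeq' : (1 - δ) * y = (1 - x) + β * (x - δ) := by linarith
      have hy0 : 0 ≤ y := by
        have h : 0 ≤ (1 - δ) * y := by
          rw [hyeq']
          exact add_nonneg (sub_nonneg.mpr hx1) (mul_nonneg hβ0 (sub_nonneg.mpr hxδ))
        exact nonneg_of_mul_nonneg_right h hpos
      have hy1 : y ≤ 1 := by
        have h : (1 - δ) * y ≤ (1 - δ) * 1 := by
          rw [hyeq']
          nlinarith [mul_le_mul_of_nonneg_right hβ1 (sub_nonneg.mpr hxδ)]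
        exact le_of_mul_le_mul_left h hpos
      have hyd := (key y hy hy0 hy1).2
      nlinarith [mul_le_mul_of_nonneg_left hyd hpos.le]

theorem hall_open {O : Set ℝ} (hO : IsOpen O) :
    volume {x : ℝ | 0 ≤ x ∧ x ≤ 1 ∧ ∀ y, (x, y) ∈ S → y ∈ O} ≤ volume (O ∩ Icc 0 1) := by
  set T : Set (Set ℝ) := (fun y => connectedComponentIn O y) '' O with hT
  have hTopen : ∀ U ∈ T, IsOpen (id U) := by
    rintro U ⟨y, hy, rfl⟩; exact hO.connectedComponentIn
  have hTne : ∀ U ∈ T, (id U).Nonempty := by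
    rintro U ⟨y, hy, rfl⟩; exact ⟨y, mem_connectedComponentIn hy⟩
  have hTdisj : T.PairwiseDisjoint id := by
    rintro U ⟨y, hy, rfl⟩ V ⟨z, hz, rfl⟩ hne
    by_contra h
    obtain ⟨w, hw1, hw2⟩ := Set.not_disjoint_iff.mp h
    exact hne ((connectedComponentIn_eq hw1).trans (connectedComponentIn_eq hw2).symm)
  have hTc : T.Countable := hTdisj.countable_of_isOpen hTopen hTne
  have hTsub : ∀ U ∈ T, U ⊆ O := by
    rintro U ⟨y, hy, rfl⟩; exact connectedComponentIn_subset O y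
  have hTord : ∀ U ∈ T, U.OrdConnected := by
    rintro U ⟨y, hy, rfl⟩; exact isPreconnected_connectedComponentIn.ordConnected
  have hcover : {x : ℝ | 0 ≤ x ∧ x ≤ 1 ∧ ∀ y, (x, y) ∈ S → y ∈ O} ⊆
      ⋃ U ∈ T, {x : ℝ | 0 ≤ x ∧ x ≤ 1 ∧ ∀ y, (x, y) ∈ S → y ∈ U} := by
    intro x hx
    obtain ⟨y₀, hy₀, -⟩ := chord_mem hS hA hB (by norm_num) hx.1 hx.2.1
    have hy₀O := hx.2.2 y₀ hy₀
    refine mem_iUnion₂.mpr ⟨connectedComponentIn O y₀, ⟨y₀, hy₀O, rfl⟩, hx.1, hx.2.1, ?_⟩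
    intro y hy
    exact (section_isPreconnected hS x).subset_connectedComponentIn hy₀
      (fun z hz => hx.2.2 z hz) hy
  calc volume {x : ℝ | 0 ≤ x ∧ x ≤ 1 ∧ ∀ y, (x, y) ∈ S → y ∈ O}
      ≤ volume (⋃ U ∈ T, {x : ℝ | 0 ≤ x ∧ x ≤ 1 ∧ ∀ y, (x, y) ∈ S → y ∈ U}) :=
        measure_mono hcover
    _ ≤ ∑' U : T, volume {x : ℝ | 0 ≤ x ∧ x ≤ 1 ∧ ∀ y, (x, y) ∈ S → y ∈ (U : Set ℝ)} :=
        measure_biUnion_le volume hTc _
    _ ≤ ∑' U : T, volume ((U : Set ℝ) ∩ Icc 0 1) :=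
        ENNReal.tsum_le_tsum fun U =>
          hall_interval hS hα0 hα1 hβ0 hβ1 hγ0 hγ1 hδ0 hδ1 hA hB hC hD (hTord U U.2)
    _ = volume (⋃ U ∈ T, (U ∩ Icc (0:ℝ) 1)) := by
        refine (measure_biUnion (μ := volume) (f := fun U : Set ℝ => U ∩ Icc (0:ℝ) 1) hTc ?_ ?_).symm
        · intro U hU V hV hne
          exact (hTdisj hU hV hne).mono inter_subset_left inter_subset_left
        · intro U hU
          exact (hTopen U hU).measurableSet.inter measurableSet_Icc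
    _ ≤ volume (O ∩ Icc 0 1) :=
        measure_mono (iUnion₂_subset fun U hU => inter_subset_inter_left _ (hTsub U hU))

/-- The planar covering lemma in the unit square: if a convex set `S` touches the four sides of
the unit square and is covered by `X × ℝ` and `ℝ × Y`, then `|X ∩ [0,1]| + |Y ∩ [0,1]| ≥ 1`. -/
theorem planar_unit {X Y : Set ℝ} (hX : MeasurableSet X) (hY : MeasurableSet Y)
    (hcov : ∀ x y, (x, y) ∈ S → x ∈ X ∨ y ∈ Y) :
    1 ≤ volume (X ∩ Icc 0 1) + volume (Y ∩ Icc 0 1) := by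
  have hI : volume (Icc (0:ℝ) 1) = 1 := by simp
  set F := Icc (0:ℝ) 1 \ Y with hF
  have hFm : MeasurableSet F := measurableSet_Icc.diff hY
  have hFfin : volume F ≠ ⊤ :=
    ne_top_of_le_ne_top (by rw [hI]; exact ENNReal.one_ne_top) (measure_mono sdiff_subset)
  have hYF : volume (Y ∩ Icc 0 1) + volume F = 1 := by
    rw [inter_comm, hF, measure_inter_add_sdiff _ hY, hI]
  have hXd : volume (X ∩ Icc 0 1) + volume (Icc (0:ℝ) 1 \ X) = 1 := by
    rw [inter_comm, measure_inter_add_sdiff _ hX, hI]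
  refine ENNReal.le_of_forall_pos_le_add ?_
  intro ε hε _
  have hε' : (ε : ENNReal) ≠ 0 := by simpa using hε.ne'
  obtain ⟨K, hKF, hKc, hKlt⟩ := hFm.exists_isCompact_lt_add hFfin hε'
  have hKI : K ⊆ Icc (0:ℝ) 1 := hKF.trans sdiff_subset
  have hKd : volume K + volume (Icc (0:ℝ) 1 \ K) = 1 := by
    have := measure_inter_add_sdiff (μ := volume) (Icc (0:ℝ) 1) hKc.measurableSet
    rwa [inter_eq_self_of_subset_right hKI, hI] at this
  have hsub : Icc (0:ℝ) 1 \ X ⊆ {x : ℝ | 0 ≤ x ∧ x ≤ 1 ∧ ∀ y, (x, y) ∈ S → y ∈ Kᶜ} := by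
    rintro x ⟨⟨hx0, hx1⟩, hxX⟩
    refine ⟨hx0, hx1, fun y hy hyK => ?_⟩
    rcases hcov x y hy with h | h
    · exact hxX h
    · exact (hKF hyK).2 h
  have h1 : volume (Icc (0:ℝ) 1 \ X) ≤ volume (Icc (0:ℝ) 1 \ K) := by
    calc volume (Icc (0:ℝ) 1 \ X) ≤ _ := measure_mono hsub
      _ ≤ volume (Kᶜ ∩ Icc 0 1) :=
        hall_open hS hα0 hα1 hβ0 hβ1 hγ0 hγ1 hδ0 hδ1 hA hB hC hD hKc.isClosed.isOpen_compl
      _ = volume (Icc (0:ℝ) 1 \ K) := by rw [inter_comm, sdiff_eq]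
  have hdfin : volume (Icc (0:ℝ) 1 \ K) ≠ ⊤ :=
    ne_top_of_le_ne_top (by rw [hI]; exact ENNReal.one_ne_top) (measure_mono sdiff_subset)
  have h2 : volume K ≤ volume (X ∩ Icc 0 1) := by
    have : volume K + volume (Icc (0:ℝ) 1 \ K) ≤
        volume (X ∩ Icc 0 1) + volume (Icc (0:ℝ) 1 \ K) := by
      rw [hKd, ← hXd]; exact add_le_add le_rfl h1
    exact (ENNReal.add_le_add_iff_right hdfin).mp this
  calc (1 : ENNReal) = volume (Y ∩ Icc 0 1) + volume F := hYF.symm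
    _ ≤ volume (Y ∩ Icc 0 1) + (volume K + ε) := add_le_add le_rfl hKlt.le
    _ ≤ volume (Y ∩ Icc 0 1) + (volume (X ∩ Icc 0 1) + ε) :=
        add_le_add le_rfl (add_le_add h2 le_rfl)
    _ = volume (X ∩ Icc 0 1) + volume (Y ∩ Icc 0 1) + ε := by ring

end quad

end Vale.Agent.Lib.P243
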