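import Mathlib

/-!
# P243: one-dimensional Brunn-Minkowski for convex sets, and lengths of fibres of convex sets
-/

namespace Vale.Agent.Lib.P243

open MeasureTheory Set

theorem combo_lt {a b x X y Y : ℝ} (ha : 0 ≤ a) (hb : 0 ≤ b) (hab : a + b = 1) (hx : x < X)
    (hy : y < Y) : a * x + b * y < a * X + b * Y := by
  rcases ha.eq_or_lt with h | h
  · have hb1 : b = 1 := by linarith
    rw [← h, hb1]
    simpa using hy
  · have h1 := mul_lt_mul_of_pos_left hx h
    have h2 := mul_le_mul_of_nonneg_left hy.le hb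
    linarith

/-- One-dimensional Brunn-Minkowski inequality for bounded convex sets. -/
theorem volume_combo_le {I J T : Set ℝ} (hI : Convex ℝ I) (hJ : Convex ℝ J)
    (hIne : I.Nonempty) (hJne : J.Nonempty) (hIb : Bornology.IsBounded I)
    (hJb : Bornology.IsBounded J) {a b : ℝ} (ha : 0 ≤ a) (hb : 0 ≤ b) (hab : a + b = 1)
    (hT : ∀ x ∈ I, ∀ y ∈ J, a * x + b * y ∈ T) :
    ENNReal.ofReal a * volume I + ENNReal.ofReal b * volume J ≤ volume T := by
  obtain ⟨hIbb, hIba⟩ := isBounded_iff_bddBelow_bddAbove.mp hIb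
  obtain ⟨hJbb, hJba⟩ := isBounded_iff_bddBelow_bddAbove.mp hJb
  have hIvol : volume I ≤ ENNReal.ofReal (sSup I - sInf I) := by
    rw [← Real.volume_Icc]
    exact measure_mono fun x hx => ⟨csInf_le hIbb hx, le_csSup hIba hx⟩
  have hJvol : volume J ≤ ENNReal.ofReal (sSup J - sInf J) := by
    rw [← Real.volume_Icc]
    exact measure_mono fun x hx => ⟨csInf_le hJbb hx, le_csSup hJba hx⟩
  set S : Set ℝ := (fun p : ℝ × ℝ => a * p.1 + b * p.2) '' (I ×ˢ J) with hS
  have hSpre : IsPreconnected S :=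
    (hI.isPreconnected.prod hJ.isPreconnected).image _ (Continuous.continuousOn (by fun_prop))
  have hST : S ⊆ T := by
    rintro _ ⟨p, hp, rfl⟩
    exact hT p.1 hp.1 p.2 hp.2
  set lo := a * sInf I + b * sInf J with hlo
  set hi := a * sSup I + b * sSup J with hhi
  have hIoo : Ioo lo hi ⊆ S := by
    intro z hz
    have hδ : 0 < z - lo := by linarith [hz.1]
    obtain ⟨x₁, hx₁I, hx₁⟩ := exists_lt_of_csInf_lt hIne (show sInf I < sInf I + (z - lo) by linarith)
    obtain ⟨y₁, hy₁J, hy₁⟩ := exists_lt_of_csInf_lt hJne (show sInf J < sInf J + (z - lo) by linarith)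
    have h1 : a * x₁ + b * y₁ < z := by
      have := combo_lt ha hb hab hx₁ hy₁
      have e : a * (sInf I + (z - lo)) + b * (sInf J + (z - lo)) = lo + (a + b) * (z - lo) := by
        rw [hlo]; ring
      rw [e, hab] at this
      linarith
    have hε : 0 < hi - z := by linarith [hz.2]
    obtain ⟨x₂, hx₂I, hx₂⟩ := exists_lt_of_lt_csSup hIne (show sSup I - (hi - z) < sSup I by linarith)
    obtain ⟨y₂, hy₂J, hy₂⟩ := exists_lt_of_lt_csSup hJne (show sSup J - (hi - z) < sSup J by linarith)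
    have h2 : z < a * x₂ + b * y₂ := by
      have := combo_lt ha hb hab hx₂ hy₂
      have e : a * (sSup I - (hi - z)) + b * (sSup J - (hi - z)) = hi - (a + b) * (hi - z) := by
        rw [hhi]; ring
      rw [e, hab] at this
      linarith
    have m1 : a * x₁ + b * y₁ ∈ S := ⟨(x₁, y₁), ⟨hx₁I, hy₁J⟩, rfl⟩
    have m2 : a * x₂ + b * y₂ ∈ S := ⟨(x₂, y₂), ⟨hx₂I, hy₂J⟩, rfl⟩
    exact hSpre.Icc_subset m1 m2 ⟨h1.le, h2.le⟩
  have hdI : 0 ≤ sSup I - sInf I := by
    obtain ⟨x, hx⟩ := hIne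
    linarith [csInf_le hIbb hx, le_csSup hIba hx]
  have hdJ : 0 ≤ sSup J - sInf J := by
    obtain ⟨x, hx⟩ := hJne
    linarith [csInf_le hJbb hx, le_csSup hJba hx]
  calc ENNReal.ofReal a * volume I + ENNReal.ofReal b * volume J
      ≤ ENNReal.ofReal a * ENNReal.ofReal (sSup I - sInf I) +
        ENNReal.ofReal b * ENNReal.ofReal (sSup J - sInf J) := by gcongr
    _ = ENNReal.ofReal (hi - lo) := by
        rw [← ENNReal.ofReal_mul ha, ← ENNReal.ofReal_mul hb,
          ← ENNReal.ofReal_add (mul_nonneg ha hdI) (mul_nonneg hb hdJ)]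
        congr 1
        rw [hhi, hlo]; ring
    _ = volume (Ioo lo hi) := Real.volume_Ioo.symm
    _ ≤ volume T := measure_mono (hIoo.trans hST)

section fibre

variable {E : Type*} [AddCommGroup E] [Module ℝ E]

theorem fibre_convex {S : Set (E × ℝ)} (hS : Convex ℝ S) (x : E) :
    Convex ℝ (Prod.mk x ⁻¹' S) := by
  intro z hz w hw a b ha hb hab
  have h := hS hz hw ha hb hab
  have e : a • (x, z) + b • (x, w) = (x, a • z + b • w) := by
    refine Prod.ext ?_ ?_
    · simp only [Prod.smul_mk, Prod.mk_add_mk]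
      rw [← add_smul, hab, one_smul]
    · simp
  rw [e] at h
  exact h

/-- Lengths of fibres of convex sets are concave (in the Brunn-Minkowski sense). -/
theorem fibre_combo {S₁ S₂ S₃ : Set (E × ℝ)} (h₁ : Convex ℝ S₁) (h₂ : Convex ℝ S₂)
    {x y : E} (hb₁ : Bornology.IsBounded (Prod.mk x ⁻¹' S₁))
    (hb₂ : Bornology.IsBounded (Prod.mk y ⁻¹' S₂))
    (hx : (Prod.mk x ⁻¹' S₁).Nonempty) (hy : (Prod.mk y ⁻¹' S₂).Nonempty)
    {a b : ℝ} (ha : 0 ≤ a) (hb : 0 ≤ b) (hab : a + b = 1)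
    (hsub : ∀ p ∈ S₁, ∀ q ∈ S₂, a • p + b • q ∈ S₃) :
    ENNReal.ofReal a * volume (Prod.mk x ⁻¹' S₁) + ENNReal.ofReal b * volume (Prod.mk y ⁻¹' S₂) ≤
      volume (Prod.mk (a • x + b • y) ⁻¹' S₃) := by
  refine volume_combo_le (fibre_convex h₁ x) (fibre_convex h₂ y) hx hy hb₁ hb₂ ha hb hab ?_
  intro z hz w hw
  have h := hsub (x, z) hz (y, w) hw
  exact h

end fibre

end Vale.Agent.Lib.P243
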