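import Vale.Agent.Lib.P243.Euclid

/-!
# P243: the covering inequality for cylinders given as preimages under linear maps
-/

namespace Vale.Agent.Lib.P243

open MeasureTheory Set

section

variable {E : Type*} [NormedAddCommGroup E] [InnerProductSpace ℝ E] [FiniteDimensional ℝ E]
  [MeasurableSpace E] [BorelSpace E]

omit [MeasurableSpace E] [BorelSpace E] in
theorem finrank_ker_of_surjective (hE : Module.finrank ℝ E = 3) (q : E →ₗ[ℝ] ℝ × ℝ)
    (hq : Function.Surjective q) : Module.finrank ℝ (LinearMap.ker q) = 1 := by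
  have h := LinearMap.finrank_range_add_finrank_ker q
  rw [LinearMap.range_eq_top.mpr hq, finrank_top, hE] at h
  have h2 : Module.finrank ℝ (ℝ × ℝ) = 2 := by simp
  omega

omit [MeasurableSpace E] [BorelSpace E] in
theorem ker_eq_span (hE : Module.finrank ℝ E = 3) (q : E →ₗ[ℝ] ℝ × ℝ)
    (hq : Function.Surjective q) {v : E} (hv : v ≠ 0) (hqv : q v = 0) :
    LinearMap.ker q = Submodule.span ℝ {v} := by
  have hle : Submodule.span ℝ {v} ≤ LinearMap.ker q := by
    rw [Submodule.span_singleton_le_iff_mem]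
    exact LinearMap.mem_ker.mpr hqv
  exact (Submodule.eq_of_le_of_finrank_eq hle
    (by rw [finrank_span_singleton hv, finrank_ker_of_surjective hE q hq])).symm

/-- Cylinders given as preimages of arbitrary sets `B i` of the plane under surjective linear
maps `q i`, all of whose kernels are spanned by `v` or by `w`. -/
theorem family_linear (hE : Module.finrank ℝ E = 3) {K : Set E} (hK : Convex ℝ K)
    (hKc : IsCompact K) (hKi : (interior K).Nonempty) {ι : Type*} [Fintype ι]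
    (q : ι → E →ₗ[ℝ] ℝ × ℝ) (hq : ∀ i, Function.Surjective (q i))
    (B : ι → Set (ℝ × ℝ)) (hcov : ∀ p ∈ K, ∃ i, q i p ∈ B i)
    (v w : E) (hv : v ≠ 0) (hw : w ≠ 0) (hdir : ∀ i, q i v = 0 ∨ q i w = 0) :
    (1 : ENNReal) / 2 ≤ ∑ i, volume (B i) / volume (q i '' K) := by
  choose c hc0 hct hvol hmeas hinj using
    fun i => exists_scale (volume : Measure (ℝ × ℝ)) (LinearMap.ker (q i)) (q i) rfl (hq i)
  set S : ι → Submodule ℝ E := fun i => LinearMap.ker (q i) with hS
  set B' : ∀ i, Set (S i)ᗮ := fun i => (fun x : (S i)ᗮ => q i (x : E)) ⁻¹' (B i) with hB'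
  have hsur : ∀ i, Function.Surjective (fun x : (S i)ᗮ => q i (x : E)) := by
    intro i y
    obtain ⟨p, rfl⟩ := hq i y
    exact ⟨(S i)ᗮ.orthogonalProjectionOnto p, map_proj_eq (S i) (q i) rfl p⟩
  have hBvol : ∀ i, volume (B i) = c i * volume (B' i) := by
    intro i
    rw [← hvol i (B' i)]
    show volume (B i) =
      volume ((fun x : (S i)ᗮ => q i (x : E)) '' ((fun x : (S i)ᗮ => q i (x : E)) ⁻¹' (B i)))
    rw [image_preimage_eq _ (hsur i)]
  have hKvol : ∀ i, volume (q i '' K) =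
      c i * volume (((S i)ᗮ.orthogonalProjectionOnto : E → (S i)ᗮ) '' K) := by
    intro i
    rw [← hvol i, image_image]
    congr 1
    refine image_congr fun p _ => ?_
    exact (map_proj_eq (S i) (q i) rfl p).symm
  have h := family_two_lines hE hK hKc hKi S
    (fun i => finrank_ker_of_surjective hE (q i) (hq i))
    (fun i => toMeasurable volume (B' i)) (fun i => measurableSet_toMeasurable _ _)
    (fun p hp => by
      obtain ⟨i, hi⟩ := hcov p hp
      refine ⟨i, subset_toMeasurable _ _ ?_⟩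
      show q i ((S i)ᗮ.orthogonalProjectionOnto p : E) ∈ B i
      rw [map_proj_eq (S i) (q i) rfl p]
      exact hi)
    (Submodule.span ℝ {v}) (Submodule.span ℝ {w})
    (fun i => (hdir i).imp (ker_eq_span hE (q i) (hq i) hv) (ker_eq_span hE (q i) (hq i) hw))
  simp only [measure_toMeasurable] at h
  refine h.trans (le_of_eq ?_)
  refine Finset.sum_congr rfl fun i _ => ?_
  rw [hBvol i, hKvol i, ENNReal.mul_div_mul_left _ _ (hc0 i) (hct i)]

end

/-- The same statement in the coordinate space `Fin 3 → ℝ`. -/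
theorem family_pi {K : Set (Fin 3 → ℝ)} (hK : Convex ℝ K) (hKc : IsCompact K)
    (hKi : (interior K).Nonempty) {ι : Type*} [Fintype ι]
    (q : ι → (Fin 3 → ℝ) →ₗ[ℝ] ℝ × ℝ) (hq : ∀ i, Function.Surjective (q i))
    (B : ι → Set (ℝ × ℝ)) (hcov : ∀ p ∈ K, ∃ i, q i p ∈ B i)
    (v w : Fin 3 → ℝ) (hv : v ≠ 0) (hw : w ≠ 0) (hdir : ∀ i, q i v = 0 ∨ q i w = 0) :
    (1 : ENNReal) / 2 ≤ ∑ i, volume (B i) / volume (q i '' K) := by
  set Φ : EuclideanSpace ℝ (Fin 3) ≃L[ℝ] (Fin 3 → ℝ) := EuclideanSpace.equiv (Fin 3) ℝ with hΦ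
  set K' : Set (EuclideanSpace ℝ (Fin 3)) := Φ.symm '' K with hK'
  have hK'conv : Convex ℝ K' :=
    hK.linear_image (Φ.symm.toLinearEquiv : (Fin 3 → ℝ) →ₗ[ℝ] EuclideanSpace ℝ (Fin 3))
  have hK'c : IsCompact K' := hKc.image Φ.symm.continuous
  have hK'i : (interior K').Nonempty := by
    have e := Φ.symm.toHomeomorph.image_interior K
    have e' : (Φ.symm.toHomeomorph : (Fin 3 → ℝ) → EuclideanSpace ℝ (Fin 3)) = Φ.symm := rfl
    rw [e'] at e
    rw [hK', ← e]
    exact hKi.image _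
  have hE : Module.finrank ℝ (EuclideanSpace ℝ (Fin 3)) = 3 := by simp
  have h := family_linear hE hK'conv hK'c hK'i
    (fun i => (q i).comp (Φ : EuclideanSpace ℝ (Fin 3) →ₗ[ℝ] (Fin 3 → ℝ)))
    (fun i => (hq i).comp Φ.surjective) B
    (fun p' hp' => by
      obtain ⟨p, hp, rfl⟩ := hp'
      obtain ⟨i, hi⟩ := hcov p hp
      refine ⟨i, ?_⟩
      show q i (Φ (Φ.symm p)) ∈ B i
      rw [Φ.apply_symm_apply]
      exact hi)
    (Φ.symm v) (Φ.symm w)
    (fun h0 => hv (by simpa using h0)) (fun h0 => hw (by simpa using h0))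
    (fun i => by
      have e1 : ((q i).comp (Φ : EuclideanSpace ℝ (Fin 3) →ₗ[ℝ] (Fin 3 → ℝ))) (Φ.symm v) =
          q i v := by
        show q i (Φ (Φ.symm v)) = q i v
        rw [Φ.apply_symm_apply]
      have e2 : ((q i).comp (Φ : EuclideanSpace ℝ (Fin 3) →ₗ[ℝ] (Fin 3 → ℝ))) (Φ.symm w) =
          q i w := by
        show q i (Φ (Φ.symm w)) = q i w
        rw [Φ.apply_symm_apply]
      rw [e1, e2]
      exact hdir i)
  refine h.trans (le_of_eq (Finset.sum_congr rfl fun i _ => ?_))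
  congr 2
  rw [hK', image_image]
  refine image_congr fun p _ => ?_
  show q i (Φ (Φ.symm p)) = q i p
  rw [Φ.apply_symm_apply]

/-- Two cylinders given as preimages under two surjective linear maps. -/
theorem two_pi {K : Set (Fin 3 → ℝ)} (hK : Convex ℝ K) (hKc : IsCompact K)
    (hKi : (interior K).Nonempty) (q₁ q₂ : (Fin 3 → ℝ) →ₗ[ℝ] ℝ × ℝ)
    (hq₁ : Function.Surjective q₁) (hq₂ : Function.Surjective q₂)
    (B₁ B₂ : Set (ℝ × ℝ)) (hcov : ∀ p ∈ K, q₁ p ∈ B₁ ∨ q₂ p ∈ B₂) :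
    (1 : ENNReal) / 2 ≤ volume B₁ / volume (q₁ '' K) + volume B₂ / volume (q₂ '' K) := by
  have hlt : Module.finrank ℝ (ℝ × ℝ) < Module.finrank ℝ (Fin 3 → ℝ) := by simp
  obtain ⟨v, hv, hv0⟩ :=
    Submodule.exists_mem_ne_zero_of_ne_bot (LinearMap.ker_ne_bot_of_finrank_lt (f := q₁) hlt)
  obtain ⟨w, hw, hw0⟩ :=
    Submodule.exists_mem_ne_zero_of_ne_bot (LinearMap.ker_ne_bot_of_finrank_lt (f := q₂) hlt)
  have h := family_pi hK hKc hKi (fun b : Bool => cond b q₁ q₂)
    (by intro b; cases b <;> assumption) (fun b => cond b B₁ B₂)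
    (fun p hp => by
      rcases hcov p hp with h | h
      · exact ⟨true, h⟩
      · exact ⟨false, h⟩)
    v w hv0 hw0
    (by
      intro b
      cases b
      · right; exact LinearMap.mem_ker.mp hw
      · left; exact LinearMap.mem_ker.mp hv)
  rw [Fintype.sum_bool] at h
  exact h

/-- The pair of dot products with `e` and `f`, as a linear map from three-space to the
plane. -/
def dotPair (e f : Fin 3 → ℝ) : (Fin 3 → ℝ) →ₗ[ℝ] ℝ × ℝ where
  toFun p := (e ⬝ᵥ p, f ⬝ᵥ p)
  map_add' x y := by simp [dotProduct_add]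
  map_smul' c x := by simp [dotProduct_smul]

theorem dotPair_apply (e f p : Fin 3 → ℝ) : dotPair e f p = (e ⬝ᵥ p, f ⬝ᵥ p) := rfl

theorem dotPair_surjective {e f : Fin 3 → ℝ} (h : e ⬝ᵥ e = 1 ∧ f ⬝ᵥ f = 1 ∧ e ⬝ᵥ f = 0) :
    Function.Surjective (dotPair e f) := by
  rintro ⟨a, b⟩
  refine ⟨a • e + b • f, ?_⟩
  rw [dotPair_apply, dotProduct_add, dotProduct_add, dotProduct_smul, dotProduct_smul,
    dotProduct_smul, dotProduct_smul, h.1, h.2.1, h.2.2, dotProduct_comm f e, h.2.2]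
  simp

end Vale.Agent.Lib.P243
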