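import Vale.Agent.Lib.P243.Chord
import Vale.Agent.Lib.P243.Linear

/-!
# P243: coverings by cylinders with a bounded number of axis directions
-/

namespace Vale.Agent.Lib.P243

open MeasureTheory Set

theorem phi_nonneg {β : ℝ} (h0 : 0 ≤ β) (h1 : β ≤ 1) : 0 ≤ phi β := by
  unfold phi
  have hs0 : 0 ≤ √β := Real.sqrt_nonneg β
  have hs1 : √β ≤ 1 := Real.sqrt_le_one.mpr h1
  nlinarith

theorem phi_le_tangent {β y : ℝ} (h0 : 0 ≤ β) (hy : 0 ≤ y) :
    phi β ≤ y ^ 3 + 3 * (1 - y) * β := by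
  unfold phi
  set x := √β with hx
  have hx0 : 0 ≤ x := Real.sqrt_nonneg β
  have hx2 : x ^ 2 = β := Real.sq_sqrt h0
  have h1 : 0 ≤ (y - x) ^ 2 * (y + 2 * x) := by positivity
  rw [← hx2]
  have e : y ^ 3 + 3 * (1 - y) * x ^ 2 - (3 * x ^ 2 - 2 * x ^ 2 * x) =
      (y - x) ^ 2 * (y + 2 * x) := by ring
  linarith

theorem exists_scale_equiv {E F : Type*} [NormedAddCommGroup E] [NormedSpace ℝ E]
    [FiniteDimensional ℝ E] [MeasurableSpace E] [BorelSpace E]
    [NormedAddCommGroup F] [NormedSpace ℝ F] [FiniteDimensional ℝ F] [MeasurableSpace F]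
    [BorelSpace F] (μ : Measure E) [μ.IsAddHaarMeasure] (ν : Measure F) [ν.IsAddHaarMeasure]
    (L : E ≃L[ℝ] F) :
    ∃ c : ENNReal, c ≠ 0 ∧ c ≠ ⊤ ∧ ∀ A : Set E, ν (L '' A) = c * μ A := by
  have hHaar : (Measure.map L μ).IsAddHaarMeasure := L.isAddHaarMeasure_map μ
  have hsm := Measure.isAddLeftInvariant_eq_smul (Measure.map L μ) ν
  have hpos := Measure.addHaarScalarFactor_pos_of_isAddHaarMeasure (Measure.map L μ) ν
  set c₀ := Measure.addHaarScalarFactor (Measure.map L μ) ν with hc₀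
  have hc0 : (c₀ : ENNReal) ≠ 0 := by simp [hpos.ne']
  have hct : (c₀ : ENNReal) ≠ ⊤ := ENNReal.coe_ne_top
  refine ⟨(c₀ : ENNReal)⁻¹, by simp, by simp [hpos.ne'], fun A => ?_⟩
  have h1 : Measure.map L μ (L '' A) = μ A := by
    have h2 := L.toHomeomorph.toMeasurableEquiv.map_apply (μ := μ) (L '' A)
    have e : (L.toHomeomorph.toMeasurableEquiv : E → F) = L := rfl
    rw [e] at h2
    rw [h2, L.injective.preimage_image]
  rw [hsm, Measure.smul_apply] at h1
  rw [← h1, ENNReal.smul_def, smul_eq_mul, ← mul_assoc, ENNReal.inv_mul_cancel hc0 hct, one_mul]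

/-- A cylinder `q ⁻¹' B` (given by a surjective linear map `q` to the plane) whose base has
relative area `β` contains at most the fraction `3β - 2β^{3/2}` of a convex body. -/
theorem cylinder_fraction {K : Set (Fin 3 → ℝ)} (hK : Convex ℝ K) (hKc : IsCompact K)
    (q : (Fin 3 → ℝ) →ₗ[ℝ] ℝ × ℝ) (hq : Function.Surjective q) (hpos : 0 < volume (q '' K))
    {B : Set (ℝ × ℝ)} (hB : MeasurableSet B) :
    volume (K ∩ q ⁻¹' B) ≤
      ENNReal.ofReal (phi ((volume (B ∩ q '' K)).toReal / (volume (q '' K)).toReal)) *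
        volume K := by
  have hE : Module.finrank ℝ (Fin 3 → ℝ) = 3 := by simp
  have hker : Module.finrank ℝ (LinearMap.ker q) = 1 := by
    have h := LinearMap.finrank_range_add_finrank_ker q
    rw [LinearMap.range_eq_top.mpr hq, finrank_top, hE] at h
    have h2 : Module.finrank ℝ (ℝ × ℝ) = 2 := by simp
    omega
  obtain ⟨v', hv'⟩ := (Module.finrank_pos_iff_exists_ne_zero (R := ℝ)
    (M := LinearMap.ker q)).mp (by omega)
  set v : Fin 3 → ℝ := (v' : Fin 3 → ℝ) with hv
  have hv0 : v ≠ 0 := fun h => hv' (Subtype.ext h)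
  have hspan : LinearMap.ker q = Submodule.span ℝ {v} := by
    have hle : Submodule.span ℝ {v} ≤ LinearMap.ker q := by
      rw [Submodule.span_singleton_le_iff_mem]
      exact v'.2
    exact (Submodule.eq_of_le_of_finrank_eq hle
      (by rw [finrank_span_singleton hv0, hker])).symm
  have hvv : v ⬝ᵥ v ≠ 0 := fun h => hv0 (dotProduct_self_eq_zero.mp h)
  set ζ : (Fin 3 → ℝ) →ₗ[ℝ] ℝ :=
    { toFun := fun p => v ⬝ᵥ p
      map_add' := fun x y => dotProduct_add v x y
      map_smul' := fun c x => by simp [dotProduct_smul] } with hζ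
  set Ψ : (Fin 3 → ℝ) →ₗ[ℝ] (ℝ × ℝ) × ℝ := q.prod ζ with hΨ
  have hΨapp : ∀ p, Ψ p = (q p, v ⬝ᵥ p) := fun p => rfl
  have hinj : Function.Injective Ψ := by
    rw [← LinearMap.ker_eq_bot, Submodule.eq_bot_iff]
    intro p hp
    rw [LinearMap.mem_ker, hΨapp, Prod.mk_eq_zero] at hp
    have hpk : p ∈ LinearMap.ker q := LinearMap.mem_ker.mpr hp.1
    rw [hspan, Submodule.mem_span_singleton] at hpk
    obtain ⟨c, rfl⟩ := hpk
    have h2 : v ⬝ᵥ (c • v) = 0 := hp.2
    rw [dotProduct_smul, smul_eq_mul] at h2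
    rcases mul_eq_zero.mp h2 with h | h
    · rw [h, zero_smul]
    · exact absurd h hvv
  have hdim : Module.finrank ℝ (Fin 3 → ℝ) = Module.finrank ℝ ((ℝ × ℝ) × ℝ) := by simp
  set L : (Fin 3 → ℝ) ≃L[ℝ] (ℝ × ℝ) × ℝ :=
    (LinearMap.linearEquivOfInjective Ψ hinj hdim).toContinuousLinearEquiv with hL
  have hLapp : ∀ p, L p = (q p, v ⬝ᵥ p) := fun p => rfl
  haveI : (volume : Measure ((ℝ × ℝ) × ℝ)).IsAddHaarMeasure := by
    rw [Measure.volume_eq_prod]
    infer_instance
  obtain ⟨c, hc0, hct, hc⟩ := exists_scale_equiv (volume : Measure (Fin 3 → ℝ))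
    (volume : Measure ((ℝ × ℝ) × ℝ)) L
  set K' : Set ((ℝ × ℝ) × ℝ) := L '' K with hK'
  have hK'conv : Convex ℝ K' := by
    have h := hK.linear_image Ψ
    have e : Ψ '' K = K' := image_congr fun p _ => rfl
    rwa [e] at h
  have hK'c : IsCompact K' := hKc.image L.continuous
  have hfst : Prod.fst '' K' = q '' K := by
    rw [hK', image_image]
    exact image_congr fun p _ => by rw [hLapp]
  have himg : L '' (K ∩ q ⁻¹' B) = K' ∩ Prod.fst ⁻¹' B := by
    have e : q ⁻¹' B = L ⁻¹' (Prod.fst ⁻¹' B) := by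
      ext p
      simp only [mem_preimage]
      rw [hLapp]
    rw [e, image_inter_preimage]
  have main := cylinder_volume_le hK'conv hK'c (by rw [hfst]; exact hpos) hB
  have e1 : volume K' = c * volume K := hc K
  have e2 : volume (K' ∩ Prod.fst ⁻¹' B) = c * volume (K ∩ q ⁻¹' B) := by
    rw [← himg]
    exact hc _
  rw [hfst, e1, e2, mul_left_comm] at main
  exact (ENNReal.mul_le_mul_iff_right hc0 hct).mp main

theorem proj_pos {K : Set (Fin 3 → ℝ)} (hKi : (interior K).Nonempty)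
    (q : (Fin 3 → ℝ) →ₗ[ℝ] ℝ × ℝ) (hq : Function.Surjective q) : 0 < volume (q '' K) := by
  have hopen : IsOpen (q '' interior K) :=
    q.isOpenMap_of_finiteDimensional hq _ isOpen_interior
  exact (hopen.measure_pos volume (hKi.image _)).trans_le
    (measure_mono (image_mono interior_subset))

theorem proj_fin {K : Set (Fin 3 → ℝ)} (hKc : IsCompact K) (q : (Fin 3 → ℝ) →ₗ[ℝ] ℝ × ℝ) :
    volume (q '' K) ≠ ⊤ :=
  (hKc.image q.continuous_of_finiteDimensional).measure_lt_top.ne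

/-- If finitely many cylinders with measurable bases cover a convex body, the fractions
`3β - 2β^{3/2}` of their relative base areas `β` add up to at least `1`. -/
theorem many_linear {K : Set (Fin 3 → ℝ)} (hK : Convex ℝ K) (hKc : IsCompact K)
    (hKi : (interior K).Nonempty) {κ : Type*} [Fintype κ]
    (q : κ → (Fin 3 → ℝ) →ₗ[ℝ] ℝ × ℝ) (hq : ∀ k, Function.Surjective (q k))
    (B : κ → Set (ℝ × ℝ)) (hB : ∀ k, MeasurableSet (B k))
    (hcov : ∀ p ∈ K, ∃ k, q k p ∈ B k) :
    1 ≤ ∑ k, phi ((volume (B k ∩ q k '' K)).toReal / (volume (q k '' K)).toReal) := by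
  have hKpos : 0 < volume K :=
    (isOpen_interior.measure_pos volume hKi).trans_le (measure_mono interior_subset)
  have hKfin : volume K ≠ ⊤ := hKc.measure_lt_top.ne
  set β : κ → ℝ := fun k => (volume (B k ∩ q k '' K)).toReal / (volume (q k '' K)).toReal
    with hβ
  have hβ0 : ∀ k, 0 ≤ β k := fun k => div_nonneg ENNReal.toReal_nonneg ENNReal.toReal_nonneg
  have hβ1 : ∀ k, β k ≤ 1 := fun k =>
    div_le_one_of_le₀ (ENNReal.toReal_mono (proj_fin hKc (q k)) (measure_mono inter_subset_right))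
      ENNReal.toReal_nonneg
  have hsub : K ⊆ ⋃ k, K ∩ q k ⁻¹' B k := by
    intro p hp
    obtain ⟨k, hk⟩ := hcov p hp
    exact mem_iUnion.mpr ⟨k, hp, hk⟩
  have h1 : volume K ≤ ∑ k, ENNReal.ofReal (phi (β k)) * volume K := by
    calc volume K ≤ volume (⋃ k, K ∩ q k ⁻¹' B k) := measure_mono hsub
      _ ≤ ∑ k, volume (K ∩ q k ⁻¹' B k) := measure_iUnion_fintype_le _ _
      _ ≤ ∑ k, ENNReal.ofReal (phi (β k)) * volume K :=
          Finset.sum_le_sum fun k _ =>
            cylinder_fraction hK hKc (q k) (hq k) (proj_pos hKi (q k) (hq k)) (hB k)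
  rw [← Finset.sum_mul, ← ENNReal.ofReal_sum_of_nonneg (fun k _ => phi_nonneg (hβ0 k) (hβ1 k))]
    at h1
  have h2 := ENNReal.div_le_of_le_mul h1
  rw [ENNReal.div_self hKpos.ne' hKfin] at h2
  exact ENNReal.one_le_ofReal.mp h2

/-- Cylinders whose axes take at most `card κ` directions: the `i`-th cylinder is
`q (d i) ⁻¹' B i`. -/
theorem direction_count {ι κ : Type*} [Fintype ι] [Fintype κ] {K : Set (Fin 3 → ℝ)}
    (hK : Convex ℝ K) (hKc : IsCompact K) (hKi : (interior K).Nonempty)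
    (q : κ → (Fin 3 → ℝ) →ₗ[ℝ] ℝ × ℝ) (hq : ∀ k, Function.Surjective (q k))
    (d : ι → κ) (B : ι → Set (ℝ × ℝ)) (hcov : ∀ p ∈ K, ∃ i, q (d i) p ∈ B i)
    {y : ℝ} (hy0 : 0 ≤ y) (hy1 : y ≤ 1) :
    ENNReal.ofReal (1 - Fintype.card κ * y ^ 3) ≤
      ENNReal.ofReal (3 * (1 - y)) * ∑ i, volume (B i) / volume (q (d i) '' K) := by
  classical
  set B' : κ → Set (ℝ × ℝ) := fun k =>
    toMeasurable volume (⋃ i ∈ Finset.univ.filter (fun i => d i = k), B i) with hB'
  have hB'm : ∀ k, MeasurableSet (B' k) := fun k => measurableSet_toMeasurable _ _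
  have hcov' : ∀ p ∈ K, ∃ k, q k p ∈ B' k := by
    intro p hp
    obtain ⟨i, hi⟩ := hcov p hp
    exact ⟨d i, subset_toMeasurable _ _
      (mem_iUnion₂.mpr ⟨i, Finset.mem_filter.mpr ⟨Finset.mem_univ i, rfl⟩, hi⟩)⟩
  have h := many_linear hK hKc hKi q hq B' hB'm hcov'
  set β : κ → ℝ := fun k => (volume (B' k ∩ q k '' K)).toReal / (volume (q k '' K)).toReal
    with hβ
  have hβ0 : ∀ k, 0 ≤ β k := fun k => div_nonneg ENNReal.toReal_nonneg ENNReal.toReal_nonneg
  have hsum : 1 ≤ Fintype.card κ * y ^ 3 + 3 * (1 - y) * ∑ k, β k := by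
    calc (1 : ℝ) ≤ ∑ k, phi (β k) := h
      _ ≤ ∑ k, (y ^ 3 + 3 * (1 - y) * β k) :=
          Finset.sum_le_sum fun k _ => phi_le_tangent (hβ0 k) hy0
      _ = Fintype.card κ * y ^ 3 + 3 * (1 - y) * ∑ k, β k := by
          rw [Finset.sum_add_distrib, Finset.sum_const, Finset.card_univ, nsmul_eq_mul,
            Finset.mul_sum]
  have hβle : ENNReal.ofReal (∑ k, β k) ≤ ∑ i, volume (B i) / volume (q (d i) '' K) := by
    rw [ENNReal.ofReal_sum_of_nonneg (fun k _ => hβ0 k),
      ← Finset.sum_fiberwise Finset.univ d (fun i => volume (B i) / volume (q (d i) '' K))]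
    refine Finset.sum_le_sum fun k _ => ?_
    have hfin := proj_fin hKc (q k)
    have hpos := proj_pos hKi (q k) (hq k)
    have hBfin : volume (B' k ∩ q k '' K) ≠ ⊤ :=
      ((measure_mono inter_subset_right).trans_lt hfin.lt_top).ne
    have e1 : ENNReal.ofReal (β k) = volume (B' k ∩ q k '' K) / volume (q k '' K) := by
      rw [hβ]
      simp only
      rw [ENNReal.ofReal_div_of_pos (ENNReal.toReal_pos hpos.ne' hfin),
        ENNReal.ofReal_toReal hBfin, ENNReal.ofReal_toReal hfin]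
    rw [e1]
    calc volume (B' k ∩ q k '' K) / volume (q k '' K)
        ≤ volume (B' k) / volume (q k '' K) :=
          ENNReal.div_le_div_right (measure_mono inter_subset_left) _
      _ = volume (⋃ i ∈ Finset.univ.filter (fun i => d i = k), B i) / volume (q k '' K) := by
          rw [hB']
          simp only
          rw [measure_toMeasurable]
      _ ≤ (∑ i ∈ Finset.univ.filter (fun i => d i = k), volume (B i)) / volume (q k '' K) :=
          ENNReal.div_le_div_right (measure_biUnion_finset_le _ _) _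
      _ = ∑ i ∈ Finset.univ.filter (fun i => d i = k), volume (B i) / volume (q (d i) '' K) := by
          simp only [div_eq_mul_inv, Finset.sum_mul]
          refine Finset.sum_congr rfl fun i hi => ?_
          rw [(Finset.mem_filter.mp hi).2]
  calc ENNReal.ofReal (1 - Fintype.card κ * y ^ 3)
      ≤ ENNReal.ofReal (3 * (1 - y) * ∑ k, β k) := ENNReal.ofReal_le_ofReal (by linarith)
    _ = ENNReal.ofReal (3 * (1 - y)) * ENNReal.ofReal (∑ k, β k) :=
        ENNReal.ofReal_mul (by linarith)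
    _ ≤ ENNReal.ofReal (3 * (1 - y)) * ∑ i, volume (B i) / volume (q (d i) '' K) := by
        gcongr

end Vale.Agent.Lib.P243
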