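import Vale.Agent.Lib.P243.Hall

/-!
# P243, step 3: the planar covering lemma in a general rectangle
-/

namespace Vale.Agent.Lib.P243

open MeasureTheory Set

theorem volume_preimage_affine {p : ℝ} (hp : 0 < p) (a : ℝ) (E : Set ℝ) :
    volume ((fun x : ℝ => a + p * x) ⁻¹' E) = volume E / ENNReal.ofReal p := by
  have h1 : (fun x : ℝ => a + p * x) ⁻¹' E = (fun x : ℝ => p * x) ⁻¹' ((fun x : ℝ => a + x) ⁻¹' E) :=
    rfl
  rw [h1, Real.volume_preimage_mul_left hp.ne', measure_preimage_add, abs_of_pos (inv_pos.mpr hp),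
    ENNReal.ofReal_inv_of_pos hp, ENNReal.div_eq_inv_mul]

/-- The planar covering lemma: a convex set `S` touching the four sides of the rectangle
`[a₁,a₂] × [b₁,b₂]` and covered by `X × ℝ` and `ℝ × Y` satisfies
`|X ∩ [a₁,a₂]| / (a₂ - a₁) + |Y ∩ [b₁,b₂]| / (b₂ - b₁) ≥ 1`. -/
theorem planar_rect {S : Set (ℝ × ℝ)} (hS : Convex ℝ S) {a₁ a₂ b₁ b₂ : ℝ} (ha : a₁ < a₂)
    (hb : b₁ < b₂) {yA yB xC xD : ℝ} (hyA : yA ∈ Icc b₁ b₂) (hyB : yB ∈ Icc b₁ b₂)
    (hxC : xC ∈ Icc a₁ a₂) (hxD : xD ∈ Icc a₁ a₂)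
    (hA : (a₁, yA) ∈ S) (hB : (a₂, yB) ∈ S) (hC : (xC, b₁) ∈ S) (hD : (xD, b₂) ∈ S)
    {X Y : Set ℝ} (hX : MeasurableSet X) (hY : MeasurableSet Y)
    (hcov : ∀ x y, (x, y) ∈ S → x ∈ X ∨ y ∈ Y) :
    1 ≤ volume (X ∩ Icc a₁ a₂) / ENNReal.ofReal (a₂ - a₁) +
      volume (Y ∩ Icc b₁ b₂) / ENNReal.ofReal (b₂ - b₁) := by
  have hp : 0 < a₂ - a₁ := sub_pos.mpr ha
  have hq : 0 < b₂ - b₁ := sub_pos.mpr hb
  set p := a₂ - a₁ with hpdef
  set q := b₂ - b₁ with hqdef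
  set S' : Set (ℝ × ℝ) := {u | (a₁ + p * u.1, b₁ + q * u.2) ∈ S} with hS'
  have hS'conv : Convex ℝ S' := by
    intro u hu v hv a b ha' hb' hab
    have h := hS hu hv ha' hb' hab
    have e : a • (a₁ + p * u.1, b₁ + q * u.2) + b • (a₁ + p * v.1, b₁ + q * v.2) =
        (a₁ + p * (a • u + b • v).1, b₁ + q * (a • u + b • v).2) := by
      ext
      · simp only [Prod.smul_mk, Prod.mk_add_mk, smul_eq_mul, Prod.fst_add, Prod.smul_fst]
        linear_combination a₁ * hab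
      · simp only [Prod.smul_mk, Prod.mk_add_mk, smul_eq_mul, Prod.snd_add, Prod.smul_snd]
        linear_combination b₁ * hab
    rw [e] at h
    exact h
  have hA' : ((0:ℝ), (yA - b₁) / q) ∈ S' := by
    show (a₁ + p * 0, b₁ + q * ((yA - b₁) / q)) ∈ S
    have e1 : a₁ + p * 0 = a₁ := by ring
    have e2 : b₁ + q * ((yA - b₁) / q) = yA := by field_simp; ring
    rw [e1, e2]; exact hA
  have hB' : ((1:ℝ), (yB - b₁) / q) ∈ S' := by
    show (a₁ + p * 1, b₁ + q * ((yB - b₁) / q)) ∈ S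
    have e1 : a₁ + p * 1 = a₂ := by rw [hpdef]; ring
    have e2 : b₁ + q * ((yB - b₁) / q) = yB := by field_simp; ring
    rw [e1, e2]; exact hB
  have hC' : ((xC - a₁) / p, (0:ℝ)) ∈ S' := by
    show (a₁ + p * ((xC - a₁) / p), b₁ + q * 0) ∈ S
    have e1 : a₁ + p * ((xC - a₁) / p) = xC := by field_simp; ring
    have e2 : b₁ + q * 0 = b₁ := by ring
    rw [e1, e2]; exact hC
  have hD' : ((xD - a₁) / p, (1:ℝ)) ∈ S' := by
    show (a₁ + p * ((xD - a₁) / p), b₁ + q * 1) ∈ S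
    have e1 : a₁ + p * ((xD - a₁) / p) = xD := by field_simp; ring
    have e2 : b₁ + q * 1 = b₂ := by rw [hqdef]; ring
    rw [e1, e2]; exact hD
  have frac0 : ∀ {w lo hi : ℝ}, lo < hi → w ∈ Icc lo hi → 0 ≤ (w - lo) / (hi - lo) :=
    fun h hw => div_nonneg (sub_nonneg.mpr hw.1) (sub_pos.mpr h).le
  have frac1 : ∀ {w lo hi : ℝ}, lo < hi → w ∈ Icc lo hi → (w - lo) / (hi - lo) ≤ 1 :=
    fun h hw => by rw [div_le_one (sub_pos.mpr h)]; linarith [hw.2]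
  set X' : Set ℝ := (fun x : ℝ => a₁ + p * x) ⁻¹' X with hX'
  set Y' : Set ℝ := (fun y : ℝ => b₁ + q * y) ⁻¹' Y with hY'
  have hX'm : MeasurableSet X' := by
    apply MeasurableSet.preimage hX
    fun_prop
  have hY'm : MeasurableSet Y' := by
    apply MeasurableSet.preimage hY
    fun_prop
  have hcov' : ∀ x y, (x, y) ∈ S' → x ∈ X' ∨ y ∈ Y' := fun x y h => hcov _ _ h
  have key := planar_unit hS'conv (frac0 hb hyA) (frac1 hb hyA) (frac0 hb hyB) (frac1 hb hyB)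
    (frac0 ha hxC) (frac1 ha hxC) (frac0 ha hxD) (frac1 ha hxD) hA' hB' hC' hD' hX'm hY'm hcov'
  have eX : X' ∩ Icc 0 1 = (fun x : ℝ => a₁ + p * x) ⁻¹' (X ∩ Icc a₁ a₂) := by
    ext x
    simp only [hX', mem_inter_iff, mem_preimage, mem_Icc, and_congr_right_iff]
    intro _
    constructor
    · rintro ⟨h0, h1⟩
      exact ⟨by nlinarith, by nlinarith⟩
    · rintro ⟨h0, h1⟩
      exact ⟨by nlinarith, by nlinarith⟩
  have eY : Y' ∩ Icc 0 1 = (fun y : ℝ => b₁ + q * y) ⁻¹' (Y ∩ Icc b₁ b₂) := by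
    ext y
    simp only [hY', mem_inter_iff, mem_preimage, mem_Icc, and_congr_right_iff]
    intro _
    constructor
    · rintro ⟨h0, h1⟩
      exact ⟨by nlinarith, by nlinarith⟩
    · rintro ⟨h0, h1⟩
      exact ⟨by nlinarith, by nlinarith⟩
  rw [eX, eY, volume_preimage_affine hp, volume_preimage_affine hq] at key
  exact key

end Vale.Agent.Lib.P243
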