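import Vale.Agent.Lib.P243.BM2

/-!
# P243: the extremal property of the cone profile

If `√m` is concave (in the sense needed) and nonincreasing, then the truncated integral
`∫ min b m` is at most `(3β - 2β^{3/2}) ∫ m`, `β = b / M`.
-/

namespace Vale.Agent.Lib.P243

open MeasureTheory Set Filter Topology

/-- The fraction of the volume of a cone over a planar base lying above the homothetic copy of
the base of relative area `β` centred at the apex projection: `3β - 2β^{3/2}`. -/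
noncomputable def phi (β : ℝ) : ℝ := 3 * β - 2 * β * √β

theorem lintegral_quad {M c τ lo hi : ℝ} (hM : 0 ≤ M) (hc : c ≠ 0) (hτ : τ ≠ 0) (h : lo ≤ hi) :
    ∫⁻ t in Ioc lo hi, ENNReal.ofReal (M * (1 - c * t / τ) ^ 2) =
      ENNReal.ofReal (M * τ / (3 * c) * ((1 - c * lo / τ) ^ 3 - (1 - c * hi / τ) ^ 3)) := by
  have hcont : Continuous fun t : ℝ => M * (1 - c * t / τ) ^ 2 := by fun_prop
  have hint : IntegrableOn (fun t : ℝ => M * (1 - c * t / τ) ^ 2) (Ioc lo hi) :=
    (hcont.integrableOn_Icc).mono_set Ioc_subset_Icc_self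
  have hnn : 0 ≤ᵐ[volume.restrict (Ioc lo hi)] fun t : ℝ => M * (1 - c * t / τ) ^ 2 :=
    Filter.Eventually.of_forall fun t => by
      show 0 ≤ M * (1 - c * t / τ) ^ 2
      positivity
  rw [← ofReal_integral_eq_lintegral_ofReal hint hnn, ← intervalIntegral.integral_of_le h]
  congr 1
  have hderiv : ∀ t ∈ uIcc lo hi,
      HasDerivAt (fun t : ℝ => -(M * τ / (3 * c)) * (1 - c * t / τ) ^ 3)
        (M * (1 - c * t / τ) ^ 2) t := by
    intro t _
    have h1 : HasDerivAt (fun t : ℝ => 1 - c * t / τ) (-(c / τ)) t := by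
      have := (((hasDerivAt_id t).const_mul c).div_const τ).const_sub 1
      simpa using this
    have h2 := (h1.pow 3).const_mul (-(M * τ / (3 * c)))
    refine h2.congr_deriv ?_
    push_cast
    field_simp
  rw [intervalIntegral.integral_eq_sub_of_hasDerivAt hderiv (hcont.intervalIntegrable _ _)]
  ring

theorem profile_ineq {m : ℝ → ℝ} {M b : ℝ} (hM : 0 < M) (hb0 : 0 ≤ b) (hbM : b ≤ M)
    (hm0 : ∀ t, 0 < t → 0 ≤ m t)
    (hanti : ∀ s t, 0 < s → s ≤ t → m t ≤ m s)
    (hclaim : ∀ t, 0 < t → 0 < m t → ∀ lam, 0 < lam → lam ≤ 1 →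
      (1 - lam) * √M + lam * √(m t) ≤ √(m (lam * t)))
    (hfin : ∫⁻ t in Ioi 0, ENNReal.ofReal (m t) ≠ ⊤) :
    ∫⁻ t in Ioi 0, ENNReal.ofReal (min b (m t)) ≤
      ENNReal.ofReal (phi (b / M)) * ∫⁻ t in Ioi 0, ENNReal.ofReal (m t) := by
  rcases hb0.eq_or_lt with hb | hbpos
  · have h0 : ∀ t ∈ Ioi (0 : ℝ), ENNReal.ofReal (min b (m t)) = 0 := fun t ht =>
      ENNReal.ofReal_eq_zero.mpr (by rw [← hb]; exact min_le_left _ _)
    rw [setLIntegral_congr_fun measurableSet_Ioi h0]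
    simp
  rcases hbM.eq_or_lt with hbeq | hblt
  · have hphi : phi (b / M) = 1 := by
      rw [hbeq, div_self hM.ne']
      unfold phi
      norm_num
    rw [hphi, ENNReal.ofReal_one, one_mul]
    exact setLIntegral_mono' measurableSet_Ioi fun t ht =>
      ENNReal.ofReal_le_ofReal (min_le_right _ _)
  set s := √(b / M) with hs
  have hs2 : s ^ 2 = b / M := Real.sq_sqrt (div_nonneg hb0 hM.le)
  have hs0 : 0 < s := Real.sqrt_pos.mpr (div_pos hbpos hM)
  have hs1 : s < 1 := by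
    rw [hs, Real.sqrt_lt' one_pos, one_pow, div_lt_one hM]
    exact hblt
  have hsqM : 0 < √M := Real.sqrt_pos.mpr hM
  have hsM : √b = s * √M := by
    rw [hs, Real.sqrt_div hb0, div_mul_cancel₀ _ hsqM.ne']
  set c := 1 - s with hc
  have hc0 : 0 < c := by linarith
  have hbs : b = s ^ 2 * M := by
    rw [hs2]
    field_simp
  set T : Set ℝ := {t | 0 < t ∧ b ≤ m t} with hT
  by_cases hTe : T = ∅
  · have hlt : ∀ t, 0 < t → m t < b := by
      intro t ht
      by_contra h
      push Not at h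
      have hmem : t ∈ T := ⟨ht, h⟩
      rw [hTe] at hmem
      exact hmem
    have hzero : ∀ t, 0 < t → m t = 0 := by
      intro t ht
      by_contra hne
      have hpos : 0 < m t := lt_of_le_of_ne (hm0 t ht) (Ne.symm hne)
      have hlam0 : 0 < c / 2 := by positivity
      have hlam1 : c / 2 ≤ 1 := by linarith
      have h1 := hclaim t ht hpos (c / 2) hlam0 hlam1
      have hct : 0 < c / 2 * t := by positivity
      have h2 : √(m (c / 2 * t)) < √b := Real.sqrt_lt_sqrt (hm0 _ hct) (hlt _ hct)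
      have h3 : 0 ≤ c / 2 * √(m t) := by positivity
      rw [hsM] at h2
      have h4 : (1 - c / 2) * √M < s * √M := by linarith
      have h5 : 1 - c / 2 < s := lt_of_mul_lt_mul_right h4 hsqM.le
      linarith
    have h0 : ∀ t ∈ Ioi (0 : ℝ), ENNReal.ofReal (min b (m t)) = 0 := fun t ht => by
      rw [hzero t ht]
      exact ENNReal.ofReal_eq_zero.mpr (min_le_right _ _)
    rw [setLIntegral_congr_fun measurableSet_Ioi h0]
    simp
  have hTne : T.Nonempty := nonempty_iff_ne_empty.mpr hTe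
  have hTbdd : BddAbove T := by
    by_contra hnb
    apply hfin
    have hall : ∀ t ∈ Ioi (0 : ℝ), ENNReal.ofReal b ≤ ENNReal.ofReal (m t) := by
      intro t ht
      rw [not_bddAbove_iff] at hnb
      obtain ⟨t', ht'T, htt'⟩ := hnb t
      exact ENNReal.ofReal_le_ofReal (ht'T.2.trans (hanti t t' ht htt'.le))
    have h1 : ∫⁻ t in Ioi (0 : ℝ), ENNReal.ofReal b ≤ ∫⁻ t in Ioi 0, ENNReal.ofReal (m t) :=
      setLIntegral_mono' measurableSet_Ioi hall
    rw [setLIntegral_const, Real.volume_Ioi, ENNReal.mul_top (by simpa using hbpos)] at h1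
    exact top_le_iff.mp h1
  set τ := sSup T with hτ
  have hτ0 : 0 < τ := by
    obtain ⟨t, ht⟩ := hTne
    exact ht.1.trans_le (le_csSup hTbdd ht)
  have F1 : ∀ t, 0 < t → t < τ → b ≤ m t := by
    intro t ht htτ
    obtain ⟨t', ht'T, htt'⟩ := exists_lt_of_lt_csSup hTne htτ
    exact ht'T.2.trans (hanti t t' ht htt'.le)
  have F2 : ∀ t, τ < t → m t < b := by
    intro t ht
    by_contra h
    push Not at h
    have hmem : t ∈ T := ⟨hτ0.trans ht, h⟩
    exact absurd (le_csSup hTbdd hmem) (not_le.mpr ht)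
  have hcontg : ∀ t : ℝ, ContinuousAt (fun t' : ℝ => √M * (1 - c * t / t')) τ := by
    intro t
    have h1 : ContinuousAt (fun t' : ℝ => c * t / t') τ :=
      continuousAt_const.div continuousAt_id hτ0.ne'
    exact continuousAt_const.mul (continuousAt_const.sub h1)
  have Li : ∀ t, 0 < t → t < τ → √M * (1 - c * t / τ) ≤ √(m t) := by
    intro t ht htτ
    have htend : Tendsto (fun t' : ℝ => √M * (1 - c * t / t')) (𝓝[<] τ)
        (𝓝 (√M * (1 - c * t / τ))) := (hcontg t).tendsto.mono_left nhdsWithin_le_nhds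
    refine le_of_tendsto htend ?_
    filter_upwards [Ioo_mem_nhdsLT htτ] with t' ht'
    have ht'0 : 0 < t' := ht.trans ht'.1
    have hb' : b ≤ m t' := F1 t' ht'0 ht'.2
    have hpos : 0 < m t' := hbpos.trans_le hb'
    have hlam0 : 0 < t / t' := div_pos ht ht'0
    have hlam1 : t / t' ≤ 1 := (div_le_one ht'0).mpr ht'.1.le
    have h1 := hclaim t' ht'0 hpos (t / t') hlam0 hlam1
    rw [div_mul_cancel₀ _ ht'0.ne'] at h1
    have h2 : s * √M ≤ √(m t') := by
      rw [← hsM]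
      exact Real.sqrt_le_sqrt hb'
    have h3 : t / t' * (s * √M) ≤ t / t' * √(m t') := mul_le_mul_of_nonneg_left h2 hlam0.le
    have e : √M * (1 - c * t / t') = (1 - t / t') * √M + t / t' * (s * √M) := by
      rw [hc]
      ring
    rw [e]
    linarith
  have Lii : ∀ t, τ < t → 0 < m t → √(m t) ≤ √M * (1 - c * t / τ) := by
    intro t ht hpos
    have ht0 : 0 < t := hτ0.trans ht
    have htend : Tendsto (fun t' : ℝ => √M * (1 - c * t / t')) (𝓝[>] τ)
        (𝓝 (√M * (1 - c * t / τ))) := (hcontg t).tendsto.mono_left nhdsWithin_le_nhds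
    refine ge_of_tendsto htend ?_
    filter_upwards [Ioo_mem_nhdsGT ht] with t' ht'
    have ht'0 : 0 < t' := hτ0.trans ht'.1
    have hlam0 : 0 < t' / t := div_pos ht'0 ht0
    have hlam1 : t' / t ≤ 1 := (div_le_one ht0).mpr ht'.2.le
    have h1 := hclaim t ht0 hpos (t' / t) hlam0 hlam1
    rw [div_mul_cancel₀ _ ht0.ne'] at h1
    have h2 : √(m t') ≤ s * √M := by
      rw [← hsM]
      exact Real.sqrt_le_sqrt (F2 t' ht'.1).le
    have h3 : t' / t * √(m t) ≤ s * √M - (1 - t' / t) * √M := by linarith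
    have h4 : √(m t) ≤ t / t' * (s * √M - (1 - t' / t) * √M) := by
      calc √(m t) = t / t' * (t' / t * √(m t)) := by
            field_simp
        _ ≤ t / t' * (s * √M - (1 - t' / t) * √M) :=
            mul_le_mul_of_nonneg_left h3 (div_pos ht0 ht'0).le
    have e : t / t' * (s * √M - (1 - t' / t) * √M) = √M * (1 - c * t / t') := by
      rw [hc]
      field_simp
      ring
    rw [e] at h4
    exact h4
  have Pi : ∀ t ∈ Ioo (0 : ℝ) τ,
      ENNReal.ofReal (M * (1 - c * t / τ) ^ 2) ≤ ENNReal.ofReal (m t) := by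
    intro t ht
    apply ENNReal.ofReal_le_ofReal
    have h1 := Li t ht.1 ht.2
    have hpos : 0 ≤ 1 - c * t / τ := by
      have h2 : c * t / τ ≤ c := by
        rw [mul_div_assoc]
        exact mul_le_of_le_one_right hc0.le ((div_le_one hτ0).mpr ht.2.le)
      linarith
    have h2 : (√M * (1 - c * t / τ)) ^ 2 ≤ (√(m t)) ^ 2 :=
      pow_le_pow_left₀ (mul_nonneg hsqM.le hpos) h1 2
    rw [mul_pow, Real.sq_sqrt hM.le, Real.sq_sqrt (hm0 t ht.1)] at h2
    exact h2
  have Pii : ∀ t ∈ Ioc τ (τ / c),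
      ENNReal.ofReal (m t) ≤ ENNReal.ofReal (M * (1 - c * t / τ) ^ 2) := by
    intro t ht
    apply ENNReal.ofReal_le_ofReal
    rcases (hm0 t (hτ0.trans ht.1)).eq_or_lt with h0 | hpos
    · rw [← h0]
      positivity
    · have h1 := Lii t ht.1 hpos
      have h2 : (√(m t)) ^ 2 ≤ (√M * (1 - c * t / τ)) ^ 2 :=
        pow_le_pow_left₀ (Real.sqrt_nonneg _) h1 2
      rw [mul_pow, Real.sq_sqrt hM.le, Real.sq_sqrt hpos.le] at h2
      exact h2
  have hτc : τ ≤ τ / c := by
    rw [le_div_iff₀ hc0]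
    nlinarith
  have Piii : ∀ t ∈ Ioi (τ / c), ENNReal.ofReal (m t) = 0 := by
    intro t ht
    have ht' : τ / c < t := ht
    have hτt : τ < t := lt_of_le_of_lt hτc ht'
    rw [ENNReal.ofReal_eq_zero]
    by_contra hne
    push Not at hne
    have h1 := Lii t hτt hne
    have h2 : 1 - c * t / τ < 0 := by
      have h3 : τ < c * t := by rwa [div_lt_iff₀ hc0, mul_comm] at ht'
      have h4 : 1 < c * t / τ := (one_lt_div hτ0).mpr h3
      linarith
    have h3 : √M * (1 - c * t / τ) < 0 := mul_neg_of_pos_of_neg hsqM h2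
    linarith [Real.sqrt_nonneg (m t)]
  have split : ∀ f : ℝ → ENNReal,
      ∫⁻ t in Ioi 0, f t = (∫⁻ t in Ioc 0 τ, f t) + ∫⁻ t in Ioi τ, f t := by
    intro f
    rw [← Ioc_union_Ioi_eq_Ioi hτ0.le,
      lintegral_union measurableSet_Ioi (Ioc_disjoint_Ioi le_rfl)]
  have e1 : 1 - c * τ / τ = s := by
    rw [mul_div_assoc, div_self hτ0.ne', mul_one, hc]
    ring
  have hX : ∫⁻ t in Ioi τ, ENNReal.ofReal (m t) ≤ ENNReal.ofReal (M * τ * s ^ 3 / (3 * c)) := by
    rw [← Ioc_union_Ioi_eq_Ioi hτc, lintegral_union measurableSet_Ioi (Ioc_disjoint_Ioi le_rfl),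
      setLIntegral_congr_fun measurableSet_Ioi Piii]
    simp only [lintegral_zero, add_zero]
    calc ∫⁻ t in Ioc τ (τ / c), ENNReal.ofReal (m t)
        ≤ ∫⁻ t in Ioc τ (τ / c), ENNReal.ofReal (M * (1 - c * t / τ) ^ 2) :=
          setLIntegral_mono' measurableSet_Ioc Pii
      _ = ENNReal.ofReal (M * τ * s ^ 3 / (3 * c)) := by
          rw [lintegral_quad hM.le hc0.ne' hτ0.ne' hτc]
          congr 1
          have e2 : 1 - c * (τ / c) / τ = 0 := by
            field_simp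
            ring
          rw [e1, e2]
          ring
  have hY : ENNReal.ofReal (M * τ * (1 + s + s ^ 2) / 3) ≤
      ∫⁻ t in Ioc 0 τ, ENNReal.ofReal (m t) := by
    have e := lintegral_quad (M := M) (c := c) (τ := τ) hM.le hc0.ne' hτ0.ne' hτ0.le
    have e0 : M * τ / (3 * c) * ((1 - c * 0 / τ) ^ 3 - (1 - c * τ / τ) ^ 3) =
        M * τ * (1 + s + s ^ 2) / 3 := by
      rw [e1, mul_zero, zero_div, sub_zero, hc]
      have hne : 1 - s ≠ 0 := by linarith
      field_simp
      ring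
    rw [e0] at e
    rw [← e]
    calc ∫⁻ t in Ioc 0 τ, ENNReal.ofReal (M * (1 - c * t / τ) ^ 2)
        = ∫⁻ t in Ioo 0 τ, ENNReal.ofReal (M * (1 - c * t / τ) ^ 2) :=
          setLIntegral_congr Ioo_ae_eq_Ioc.symm
      _ ≤ ∫⁻ t in Ioo 0 τ, ENNReal.ofReal (m t) := setLIntegral_mono' measurableSet_Ioo Pi
      _ = ∫⁻ t in Ioc 0 τ, ENNReal.ofReal (m t) := setLIntegral_congr Ioo_ae_eq_Ioc
  have hN : ∫⁻ t in Ioi 0, ENNReal.ofReal (min b (m t)) ≤
      ENNReal.ofReal (b * τ) + ∫⁻ t in Ioi τ, ENNReal.ofReal (m t) := by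
    rw [split]
    refine add_le_add ?_ (setLIntegral_mono' measurableSet_Ioi fun t _ =>
      ENNReal.ofReal_le_ofReal (min_le_right _ _))
    calc ∫⁻ t in Ioc 0 τ, ENNReal.ofReal (min b (m t))
        ≤ ∫⁻ t in Ioc 0 τ, ENNReal.ofReal b :=
          setLIntegral_mono' measurableSet_Ioc fun t _ =>
            ENNReal.ofReal_le_ofReal (min_le_left _ _)
      _ = ENNReal.ofReal (b * τ) := by
          rw [setLIntegral_const, Real.volume_Ioc, sub_zero, ← ENNReal.ofReal_mul hb0]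
  set X := ∫⁻ t in Ioi τ, ENNReal.ofReal (m t) with hXdef
  set Y := ∫⁻ t in Ioc 0 τ, ENNReal.ofReal (m t) with hYdef
  have htot : ∫⁻ t in Ioi 0, ENNReal.ofReal (m t) = Y + X := split _
  rw [htot] at hfin ⊢
  have hXfin : X ≠ ⊤ := fun h => hfin (by rw [h]; simp)
  have hYfin : Y ≠ ⊤ := fun h => hfin (by rw [h]; simp)
  have hXr : X.toReal ≤ M * τ * s ^ 3 / (3 * c) := by
    have h1 := ENNReal.toReal_mono ENNReal.ofReal_ne_top hX
    rwa [ENNReal.toReal_ofReal (by positivity)] at h1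
  have hYr : M * τ * (1 + s + s ^ 2) / 3 ≤ Y.toReal := by
    have h1 := ENNReal.toReal_mono hYfin hY
    rwa [ENNReal.toReal_ofReal (by positivity)] at h1
  have hphi : phi (b / M) = 3 * s ^ 2 - 2 * s ^ 3 := by
    unfold phi
    rw [← hs, ← hs2]
    ring
  have hφ1 : 0 ≤ 1 - (3 * s ^ 2 - 2 * s ^ 3) := by
    have : 1 - (3 * s ^ 2 - 2 * s ^ 3) = (1 - s) ^ 2 * (1 + 2 * s) := by ring
    rw [this]
    positivity
  have hφ0 : 0 ≤ 3 * s ^ 2 - 2 * s ^ 3 := by
    have : 3 * s ^ 2 - 2 * s ^ 3 = s ^ 2 * (3 - 2 * s) := by ring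
    rw [this]
    have : 0 ≤ 3 - 2 * s := by linarith
    positivity
  have hid : b * τ + (1 - (3 * s ^ 2 - 2 * s ^ 3)) * (M * τ * s ^ 3 / (3 * c)) =
      (3 * s ^ 2 - 2 * s ^ 3) * (M * τ * (1 + s + s ^ 2) / 3) := by
    rw [hbs, hc]
    have hne : 1 - s ≠ 0 := by linarith
    field_simp
    ring
  have eX : ENNReal.ofReal X.toReal = X := ENNReal.ofReal_toReal hXfin
  have eY : ENNReal.ofReal Y.toReal = Y := ENNReal.ofReal_toReal hYfin
  have hreal : b * τ + X.toReal ≤ (3 * s ^ 2 - 2 * s ^ 3) * (Y.toReal + X.toReal) := by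
    have h1 := mul_le_mul_of_nonneg_left hXr hφ1
    have h2 := mul_le_mul_of_nonneg_left hYr hφ0
    nlinarith
  calc ∫⁻ t in Ioi 0, ENNReal.ofReal (min b (m t))
      ≤ ENNReal.ofReal (b * τ) + X := hN
    _ = ENNReal.ofReal (b * τ + X.toReal) := by
        rw [ENNReal.ofReal_add (by positivity) ENNReal.toReal_nonneg, eX]
    _ ≤ ENNReal.ofReal ((3 * s ^ 2 - 2 * s ^ 3) * (Y.toReal + X.toReal)) :=
        ENNReal.ofReal_le_ofReal hreal
    _ = ENNReal.ofReal (phi (b / M)) * (Y + X) := by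
        rw [ENNReal.ofReal_mul hφ0, ENNReal.ofReal_add ENNReal.toReal_nonneg ENNReal.toReal_nonneg,
          eX, eY, hphi]

end Vale.Agent.Lib.P243
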