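import Mathlib

/-!
# P243, step 1: the chord set of a quadrilateral inscribed in the unit square

Elementary inequalities behind the planar covering lemma.
-/

namespace Vale.Agent.Lib.P243

open MeasureTheory Set

/-- The set of abscissas `x ∈ [0,1]` allowed by four chord conditions with window `[c,d]`. -/
def chordSet (α β γ δ c d : ℝ) : Set ℝ :=
  {x | 0 ≤ x ∧ x ≤ 1 ∧ (x ≤ γ → α * x ≤ γ * (α - c)) ∧
    (γ ≤ x → β * (1 - x) ≤ (1 - γ) * (β - c)) ∧
    (x ≤ δ → (1 - α) * x ≤ δ * (d - α)) ∧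
    (δ ≤ x → (1 - β) * (1 - x) ≤ (1 - δ) * (d - β))}

theorem aux_bd {a g c x : ℝ} (ha0 : 0 ≤ a) (ha1 : a ≤ 1) (hg : 0 ≤ g) (hc : 0 ≤ c)
    (hxg : x ≤ g) (h : a * x ≤ g * (a - c)) : x ≤ g * (1 - c) := by
  have hgc : 0 ≤ g * c := mul_nonneg hg hc
  rcases ha0.eq_or_lt with ha | ha
  · subst ha
    have h1 : g * c ≤ 0 := by nlinarith
    nlinarith
  · have h1 : g * (a - c) ≤ a * (g * (1 - c)) := by
      nlinarith [mul_nonneg hgc (sub_nonneg.mpr ha1)]
    exact le_of_mul_le_mul_left (h.trans h1) ha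

theorem aux_w {a g h c d x : ℝ} (ha0 : 0 ≤ a) (ha1 : a ≤ 1) (hg : 0 ≤ g) (hh : 0 ≤ h)
    (hc : 0 ≤ c) (hcd : c ≤ d) (hd : d ≤ 1) (hx : 0 ≤ x) (hxg : x ≤ g) (hxh : x ≤ h)
    (h1 : a * x ≤ g * (a - c)) (h2 : (1 - a) * x ≤ h * (d - a)) :
    (c + 1 - d) * x ≤ (d - c) * (c * g + (1 - d) * h) := by
  have hrhs : 0 ≤ (d - c) * (c * g + (1 - d) * h) :=
    mul_nonneg (sub_nonneg.mpr hcd)
      (add_nonneg (mul_nonneg hc hg) (mul_nonneg (sub_nonneg.mpr hd) hh))
  rcases hx.eq_or_lt with hx0 | hxpos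
  · rw [← hx0]; simpa using hrhs
  rcases le_or_gt a c with hac | hac
  · -- a ≤ c : then a = 0
    have hgac : g * (a - c) ≤ 0 := mul_nonpos_of_nonneg_of_nonpos hg (sub_nonpos.mpr hac)
    have hax : a * x = 0 := le_antisymm (h1.trans hgac) (mul_nonneg ha0 hx)
    have ha : a = 0 := by
      rcases mul_eq_zero.mp hax with h | h
      · exact h
      · exact absurd h hxpos.ne'
    subst ha
    have hgc : g * c = 0 := by nlinarith [mul_nonneg hg hc]
    rcases hc.eq_or_lt with hc0 | hcpos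
    · subst hc0
      have h2' : x ≤ h * d := by nlinarith
      nlinarith [mul_le_mul_of_nonneg_left h2' (sub_nonneg.mpr hd)]
    · have hg0 : g = 0 := by
        rcases mul_eq_zero.mp hgc with h | h
        · exact h
        · exact absurd h hcpos.ne'
      nlinarith
  · rcases le_or_gt d a with hda | hda
    · -- d ≤ a : then a = 1
      have hhda : h * (d - a) ≤ 0 := mul_nonpos_of_nonneg_of_nonpos hh (sub_nonpos.mpr hda)
      have hax : (1 - a) * x = 0 :=
        le_antisymm (h2.trans hhda) (mul_nonneg (sub_nonneg.mpr ha1) hx)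
      have ha : a = 1 := by
        rcases mul_eq_zero.mp hax with h | h
        · linarith
        · exact absurd h hxpos.ne'
      subst ha
      have hhd : h * (1 - d) = 0 := by nlinarith [mul_nonneg hh (sub_nonneg.mpr hd)]
      rcases hd.eq_or_lt with hd1 | hdlt
      · subst hd1
        have h1' : x ≤ g * (1 - c) := by nlinarith
        nlinarith [mul_le_mul_of_nonneg_left h1' hc]
      · have hh0 : h = 0 := by
          rcases mul_eq_zero.mp hhd with h' | h'
          · exact h'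
          · exact absurd h' (by linarith)
        nlinarith
    · -- c < a < d
      have hu : 0 < a - c := sub_pos.mpr hac
      have hv : 0 < d - a := sub_pos.mpr hda
      have huv : 0 < (a - c) * (d - a) := mul_pos hu hv
      have key1 : (c + 1 - d) * ((a - c) * (d - a)) ≤
          (d - c) * (c * a * (d - a) + (1 - d) * (1 - a) * (a - c)) := by
        nlinarith [sq_nonneg (c * (d - a) - (1 - d) * (a - c))]
      have key2 : (c + 1 - d) * ((a - c) * (d - a)) * x ≤
          (d - c) * (c * a * (d - a) + (1 - d) * (1 - a) * (a - c)) * x :=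
        mul_le_mul_of_nonneg_right key1 hx
      have key3 : c * (d - a) * (a * x) ≤ c * (d - a) * (g * (a - c)) :=
        mul_le_mul_of_nonneg_left h1 (mul_nonneg hc hv.le)
      have key4 : (1 - d) * (a - c) * ((1 - a) * x) ≤ (1 - d) * (a - c) * (h * (d - a)) :=
        mul_le_mul_of_nonneg_left h2 (mul_nonneg (sub_nonneg.mpr hd) hu.le)
      have key5 : ((c + 1 - d) * x) * ((a - c) * (d - a)) ≤
          ((d - c) * (c * g + (1 - d) * h)) * ((a - c) * (d - a)) := by
        have hdc : 0 ≤ d - c := sub_nonneg.mpr hcd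
        nlinarith [mul_le_mul_of_nonneg_left key3 hdc, mul_le_mul_of_nonneg_left key4 hdc]
      exact le_of_mul_le_mul_right key5 huv

theorem chordSet_le_of_le {α β γ δ c d : ℝ} (hα0 : 0 ≤ α) (hα1 : α ≤ 1) (hβ0 : 0 ≤ β)
    (hβ1 : β ≤ 1) (hγ0 : 0 ≤ γ) (hγ1 : γ ≤ 1) (hδ0 : 0 ≤ δ) (hδ1 : δ ≤ 1) (hc : 0 ≤ c)
    (hcd : c ≤ d) (hd : d ≤ 1) (hγδ : γ ≤ δ) :
    volume (chordSet α β γ δ c d) ≤ ENNReal.ofReal (d - c) := by
  have h1d : 0 ≤ 1 - d := sub_nonneg.mpr hd
  -- pointwise bounds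
  have hL1 : ∀ x ∈ chordSet α β γ δ c d, x ≤ γ → x ≤ γ * (1 - c) := by
    intro x hx hxγ
    exact aux_bd hα0 hα1 hγ0 hc hxγ (hx.2.2.1 hxγ)
  have hM1 : ∀ x ∈ chordSet α β γ δ c d, γ ≤ x → γ + c - γ * c ≤ x := by
    intro x hx hxγ
    have := aux_bd (x := 1 - x) hβ0 hβ1 (sub_nonneg.mpr hγ1) hc (by linarith) (hx.2.2.2.1 hxγ)
    nlinarith
  have hM2 : ∀ x ∈ chordSet α β γ δ c d, x ≤ δ → x ≤ δ * d := by
    intro x hx hxδ
    have h := hx.2.2.2.2.1 hxδ
    have := aux_bd (a := 1 - α) (g := δ) (c := 1 - d) (x := x) (sub_nonneg.mpr hα1) (by linarith)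
      hδ0 h1d hxδ (by nlinarith)
    nlinarith
  have hR1 : ∀ x ∈ chordSet α β γ δ c d, δ ≤ x → 1 - (1 - δ) * d ≤ x := by
    intro x hx hxδ
    have h := hx.2.2.2.2.2 hxδ
    have := aux_bd (a := 1 - β) (g := 1 - δ) (c := 1 - d) (x := 1 - x) (sub_nonneg.mpr hβ1)
      (by linarith) (sub_nonneg.mpr hδ1) h1d (by linarith) (by nlinarith)
    nlinarith
  rcases lt_or_ge (γ + c - γ * c) (δ * d) with hm | hm
  · -- the middle interval is nondegenerate
    have hsub : chordSet α β γ δ c d ⊆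
        Icc 0 (γ * (1 - c)) ∪ Icc (γ + c - γ * c) (δ * d) ∪ Icc (1 - (1 - δ) * d) 1 := by
      intro x hx
      rcases le_or_gt x γ with h1 | h1
      · exact Or.inl (Or.inl ⟨hx.1, hL1 x hx h1⟩)
      · rcases le_or_gt x δ with h2 | h2
        · exact Or.inl (Or.inr ⟨hM1 x hx h1.le, hM2 x hx h2⟩)
        · exact Or.inr ⟨hR1 x hx h2.le, hx.2.1⟩
    calc volume (chordSet α β γ δ c d)
        ≤ volume (Icc 0 (γ * (1 - c)) ∪ Icc (γ + c - γ * c) (δ * d) ∪ Icc (1 - (1 - δ) * d) 1) :=
          measure_mono hsub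
      _ ≤ volume (Icc 0 (γ * (1 - c))) + volume (Icc (γ + c - γ * c) (δ * d)) +
            volume (Icc (1 - (1 - δ) * d) 1) :=
          (measure_union_le _ _).trans (add_le_add (measure_union_le _ _) le_rfl)
      _ = ENNReal.ofReal (γ * (1 - c) - 0) + ENNReal.ofReal (δ * d - (γ + c - γ * c)) +
            ENNReal.ofReal (1 - (1 - (1 - δ) * d)) := by
          simp only [Real.volume_Icc]
      _ = ENNReal.ofReal (d - c) := by
          have e1 : 0 ≤ γ * (1 - c) - 0 := by
            have : 0 ≤ 1 - c := by linarith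
            nlinarith [mul_nonneg hγ0 this]
          have e2 : 0 ≤ δ * d - (γ + c - γ * c) := by linarith
          have e3 : 0 ≤ 1 - (1 - (1 - δ) * d) := by
            have : 0 ≤ (1 - δ) * d := mul_nonneg (sub_nonneg.mpr hδ1) (hc.trans hcd)
            linarith
          rw [← ENNReal.ofReal_add e1 e2, ← ENNReal.ofReal_add (add_nonneg e1 e2) e3]
          congr 1
          ring
  · -- the middle interval is degenerate
    rcases (add_nonneg hc h1d).eq_or_lt with hs | hs
    · -- c = 0 and d = 1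
      have hc0 : c = 0 := by linarith
      have hd1 : d = 1 := by linarith
      have hsub : chordSet α β γ δ c d ⊆ Icc 0 1 := fun x hx => ⟨hx.1, hx.2.1⟩
      calc volume (chordSet α β γ δ c d) ≤ volume (Icc (0:ℝ) 1) := measure_mono hsub
        _ = ENNReal.ofReal (d - c) := by rw [Real.volume_Icc, hc0, hd1]
    · set s := c + (1 - d) with hsdef
      set e1 := (d - c) * (c * γ + (1 - d) * δ) / s with he1
      set e3 := (d - c) * (c * (1 - γ) + (1 - d) * (1 - δ)) / s with he3
      have hdc : 0 ≤ d - c := sub_nonneg.mpr hcd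
      have e1nn : 0 ≤ e1 :=
        div_nonneg (mul_nonneg hdc (add_nonneg (mul_nonneg hc hγ0) (mul_nonneg h1d hδ0))) hs.le
      have e3nn : 0 ≤ e3 :=
        div_nonneg (mul_nonneg hdc (add_nonneg (mul_nonneg hc (sub_nonneg.mpr hγ1))
          (mul_nonneg h1d (sub_nonneg.mpr hδ1)))) hs.le
      have hsub : chordSet α β γ δ c d ⊆
          Icc 0 e1 ∪ Icc (γ + c - γ * c) (δ * d) ∪ Icc (1 - e3) 1 := by
        intro x hx
        rcases le_or_gt x γ with h1 | h1
        · refine Or.inl (Or.inl ⟨hx.1, ?_⟩)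
          rw [he1, le_div_iff₀ hs]
          have := aux_w hα0 hα1 hγ0 hδ0 hc hcd hd hx.1 h1 (h1.trans hγδ) (hx.2.2.1 h1)
            (hx.2.2.2.2.1 (h1.trans hγδ))
          linarith
        · rcases le_or_gt x δ with h2 | h2
          · exact Or.inl (Or.inr ⟨hM1 x hx h1.le, hM2 x hx h2⟩)
          · refine Or.inr ⟨?_, hx.2.1⟩
            have hx1 : 1 - x ≤ e3 := by
              rw [he3, le_div_iff₀ hs]
              have := aux_w (x := 1 - x) hβ0 hβ1 (sub_nonneg.mpr hγ1) (sub_nonneg.mpr hδ1) hc hcd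
                hd (by linarith [hx.2.1]) (by linarith) (by linarith)
                (hx.2.2.2.1 (hγδ.trans h2.le)) (hx.2.2.2.2.2 h2.le)
              linarith
            linarith
      calc volume (chordSet α β γ δ c d)
          ≤ volume (Icc 0 e1 ∪ Icc (γ + c - γ * c) (δ * d) ∪ Icc (1 - e3) 1) := measure_mono hsub
        _ ≤ volume (Icc 0 e1) + volume (Icc (γ + c - γ * c) (δ * d)) + volume (Icc (1 - e3) 1) :=
            (measure_union_le _ _).trans (add_le_add (measure_union_le _ _) le_rfl)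
        _ = ENNReal.ofReal (e1 - 0) + ENNReal.ofReal (δ * d - (γ + c - γ * c)) +
              ENNReal.ofReal (1 - (1 - e3)) := by
            simp only [Real.volume_Icc]
        _ = ENNReal.ofReal (d - c) := by
            have z2 : ENNReal.ofReal (δ * d - (γ + c - γ * c)) = 0 :=
              ENNReal.ofReal_of_nonpos (by linarith)
            rw [z2, add_zero, ← ENNReal.ofReal_add (by linarith) (by linarith)]
            congr 1
            have : e1 + e3 = d - c := by
              rw [he1, he3, ← add_div, div_eq_iff hs.ne', hsdef]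
              ring
            linarith

theorem chordSet_symm (α β γ δ c d : ℝ) :
    chordSet (1 - α) (1 - β) δ γ (1 - d) (1 - c) = chordSet α β γ δ c d := by
  ext x
  simp only [chordSet, Set.mem_ofPred_eq]
  constructor
  · rintro ⟨h0, h1, h3, h4, h5, h6⟩
    refine ⟨h0, h1, fun hx => ?_, fun hx => ?_, fun hx => ?_, fun hx => ?_⟩
    · have := h5 hx; nlinarith
    · have := h6 hx; nlinarith
    · have := h3 hx; nlinarith
    · have := h4 hx; nlinarith
  · rintro ⟨h0, h1, h3, h4, h5, h6⟩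
    refine ⟨h0, h1, fun hx => ?_, fun hx => ?_, fun hx => ?_, fun hx => ?_⟩
    · have := h5 hx; nlinarith
    · have := h6 hx; nlinarith
    · have := h3 hx; nlinarith
    · have := h4 hx; nlinarith

theorem volume_chordSet_le {α β γ δ c d : ℝ} (hα0 : 0 ≤ α) (hα1 : α ≤ 1) (hβ0 : 0 ≤ β)
    (hβ1 : β ≤ 1) (hγ0 : 0 ≤ γ) (hγ1 : γ ≤ 1) (hδ0 : 0 ≤ δ) (hδ1 : δ ≤ 1) (hc : 0 ≤ c)
    (hcd : c ≤ d) (hd : d ≤ 1) :
    volume (chordSet α β γ δ c d) ≤ ENNReal.ofReal (d - c) := by
  rcases le_total γ δ with h | h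
  · exact chordSet_le_of_le hα0 hα1 hβ0 hβ1 hγ0 hγ1 hδ0 hδ1 hc hcd hd h
  · have := chordSet_le_of_le (α := 1 - α) (β := 1 - β) (γ := δ) (δ := γ) (c := 1 - d)
      (d := 1 - c) (by linarith) (by linarith) (by linarith) (by linarith) hδ0 hδ1 hγ0 hγ1
      (by linarith) (by linarith) (by linarith) h
    rw [chordSet_symm] at this
    have e : (1 - c) - (1 - d) = d - c := by ring
    rwa [e] at this

end Vale.Agent.Lib.P243
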