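import Vale.Agent.Lib.P243.Count

/-!
# P243: the refined volume inequality

For a covering of a convex body by finitely many cylinders, let `b k` be the total relative
base area used in the axis direction `k`, capped at `1`.  Then the fractions
`3 b - 2 b^{3/2}` add up to at least `1`; equivalently the directionwise relative area is at
least `1/3 + (2/3) ∑ b^{3/2}`.
-/

namespace Vale.Agent.Lib.P243

open MeasureTheory Set

theorem phi_mono {x y : ℝ} (hx : 0 ≤ x) (hxy : x ≤ y) (hy : y ≤ 1) : phi x ≤ phi y := by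
  unfold phi
  set s := √x with hs
  set t := √y with ht
  have hs0 : 0 ≤ s := Real.sqrt_nonneg x
  have hst : s ≤ t := Real.sqrt_le_sqrt hxy
  have ht1 : t ≤ 1 := Real.sqrt_le_one.mpr hy
  have hs2 : s ^ 2 = x := Real.sq_sqrt hx
  have ht2 : t ^ 2 = y := Real.sq_sqrt (hx.trans hxy)
  rw [← hs2, ← ht2]
  have e : (3 * t ^ 2 - 2 * t ^ 2 * t) - (3 * s ^ 2 - 2 * s ^ 2 * s) =
      (t - s) * (t * (3 - 2 * t - s) + s * (3 - 2 * s - t)) := by ring
  have h1 : 0 ≤ t * (3 - 2 * t - s) := mul_nonneg (hs0.trans hst) (by linarith)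
  have h2 : 0 ≤ s * (3 - 2 * s - t) := mul_nonneg hs0 (by linarith)
  have h3 : 0 ≤ (t - s) * (t * (3 - 2 * t - s) + s * (3 - 2 * s - t)) :=
    mul_nonneg (by linarith) (by linarith)
  linarith

/-- The refined inequality for cylinders `q (d i) ⁻¹' B i` with arbitrary bases. -/
theorem refined_linear {ι κ : Type*} [Fintype ι] [Fintype κ] [DecidableEq κ]
    {K : Set (Fin 3 → ℝ)}
    (hK : Convex ℝ K) (hKc : IsCompact K) (hKi : (interior K).Nonempty)
    (q : κ → (Fin 3 → ℝ) →ₗ[ℝ] ℝ × ℝ) (hq : ∀ k, Function.Surjective (q k))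
    (d : ι → κ) (B : ι → Set (ℝ × ℝ)) (hcov : ∀ p ∈ K, ∃ i, q (d i) p ∈ B i)
    (b : κ → ℝ)
    (hb : ∀ k, b k = (min 1 ((∑ i ∈ Finset.univ.filter (fun i => d i = k), volume (B i)) /
      volume (q k '' K))).toReal) :
    1 ≤ ∑ k, (3 * b k - 2 * b k * √(b k)) ∧
      ENNReal.ofReal (∑ k, b k) ≤ ∑ i, volume (B i) / volume (q (d i) '' K) := by
  set B' : κ → Set (ℝ × ℝ) := fun k =>
    toMeasurable volume (⋃ i ∈ Finset.univ.filter (fun i => d i = k), B i) with hB'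
  have hB'm : ∀ k, MeasurableSet (B' k) := fun k => measurableSet_toMeasurable _ _
  have hcov' : ∀ p ∈ K, ∃ k, q k p ∈ B' k := by
    intro p hp
    obtain ⟨i, hi⟩ := hcov p hp
    exact ⟨d i, subset_toMeasurable _ _
      (mem_iUnion₂.mpr ⟨i, Finset.mem_filter.mpr ⟨Finset.mem_univ i, rfl⟩, hi⟩)⟩
  have h := many_linear hK hKc hKi q hq B' hB'm hcov'
  set S : κ → ENNReal := fun k => ∑ i ∈ Finset.univ.filter (fun i => d i = k), volume (B i)
    with hS
  have hmin1 : ∀ k, min 1 (S k / volume (q k '' K)) ≠ ⊤ := fun k =>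
    ((min_le_left _ _).trans_lt ENNReal.one_lt_top).ne
  have hb0 : ∀ k, 0 ≤ b k := fun k => by rw [hb]; exact ENNReal.toReal_nonneg
  have hb1 : ∀ k, b k ≤ 1 := fun k => by
    rw [hb]
    have := ENNReal.toReal_mono ENNReal.one_ne_top
      (min_le_left (1 : ENNReal) (S k / volume (q k '' K)))
    simpa using this
  have hβb : ∀ k, (volume (B' k ∩ q k '' K)).toReal / (volume (q k '' K)).toReal ≤ b k := by
    intro k
    have hfin := proj_fin hKc (q k)
    have hpos := proj_pos hKi (q k) (hq k)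
    rw [hb, ← ENNReal.toReal_div]
    refine ENNReal.toReal_mono (hmin1 k) (le_min ?_ ?_)
    · exact ENNReal.div_le_of_le_mul (by rw [one_mul]; exact measure_mono inter_subset_right)
    · refine ENNReal.div_le_div_right ?_ _
      calc volume (B' k ∩ q k '' K) ≤ volume (B' k) := measure_mono inter_subset_left
        _ = volume (⋃ i ∈ Finset.univ.filter (fun i => d i = k), B i) :=
            measure_toMeasurable _
        _ ≤ S k := measure_biUnion_finset_le _ _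
  refine ⟨?_, ?_⟩
  · calc (1 : ℝ) ≤ ∑ k, phi ((volume (B' k ∩ q k '' K)).toReal / (volume (q k '' K)).toReal) := h
      _ ≤ ∑ k, phi (b k) := Finset.sum_le_sum fun k _ =>
          phi_mono (div_nonneg ENNReal.toReal_nonneg ENNReal.toReal_nonneg) (hβb k) (hb1 k)
      _ = ∑ k, (3 * b k - 2 * b k * √(b k)) := rfl
  · rw [ENNReal.ofReal_sum_of_nonneg (fun k _ => hb0 k),
      ← Finset.sum_fiberwise Finset.univ d (fun i => volume (B i) / volume (q (d i) '' K))]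
    refine Finset.sum_le_sum fun k _ => ?_
    rw [hb, ENNReal.ofReal_toReal (hmin1 k)]
    calc min 1 (S k / volume (q k '' K)) ≤ S k / volume (q k '' K) := min_le_right _ _
      _ = ∑ i ∈ Finset.univ.filter (fun i => d i = k), volume (B i) / volume (q (d i) '' K) := by
          rw [hS]
          simp only [div_eq_mul_inv, Finset.sum_mul]
          refine Finset.sum_congr rfl fun i hi => ?_
          rw [(Finset.mem_filter.mp hi).2]

/-- The refined inequality for cylinders given by orthonormal pairs. -/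
theorem refined_pi {ι κ : Type*} [Fintype ι] [Fintype κ] [DecidableEq κ] {K : Set (Fin 3 → ℝ)}
    (hK : Convex ℝ K) (hKc : IsCompact K) (hKi : (interior K).Nonempty)
    (e f : κ → Fin 3 → ℝ) (hef : ∀ k, e k ⬝ᵥ e k = 1 ∧ f k ⬝ᵥ f k = 1 ∧ e k ⬝ᵥ f k = 0)
    (d : ι → κ) (B : ι → Set (ℝ × ℝ))
    (hcov : ∀ p ∈ K, ∃ i, (e (d i) ⬝ᵥ p, f (d i) ⬝ᵥ p) ∈ B i)
    (b : κ → ℝ)
    (hb : ∀ k, b k = (min 1 ((∑ i ∈ Finset.univ.filter (fun i => d i = k), volume (B i)) /
      volume ((fun p : Fin 3 → ℝ => (e k ⬝ᵥ p, f k ⬝ᵥ p)) '' K))).toReal) :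
    1 ≤ ∑ k, (3 * b k - 2 * b k * √(b k)) ∧
      ENNReal.ofReal (1 / 3 + 2 / 3 * ∑ k, b k * √(b k)) ≤
        ∑ i, volume (B i) /
          volume ((fun p : Fin 3 → ℝ => (e (d i) ⬝ᵥ p, f (d i) ⬝ᵥ p)) '' K) ∧
      ENNReal.ofReal (1 / 3 + 2 / 3 * ∑ k, b k * √(b k)) *
          (⨅ (a : Fin 3 → ℝ) (c : Fin 3 → ℝ) (_ : a ⬝ᵥ a = 1 ∧ c ⬝ᵥ c = 1 ∧ a ⬝ᵥ c = 0),
            volume ((fun p : Fin 3 → ℝ => (a ⬝ᵥ p, c ⬝ᵥ p)) '' K)) ≤ ∑ i, volume (B i) := by
  obtain ⟨h1, h2⟩ := refined_linear hK hKc hKi (fun k => dotPair (e k) (f k))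
    (fun k => dotPair_surjective (hef k)) d B hcov b hb
  have hle : 1 / 3 + 2 / 3 * ∑ k, b k * √(b k) ≤ ∑ k, b k := by
    have e1 : ∑ k, (3 * b k - 2 * b k * √(b k)) = 3 * ∑ k, b k - 2 * ∑ k, b k * √(b k) := by
      rw [Finset.sum_sub_distrib, Finset.mul_sum, Finset.mul_sum]
      refine congrArg₂ _ rfl (Finset.sum_congr rfl fun k _ => ?_)
      ring
    rw [e1] at h1
    linarith
  have second : ENNReal.ofReal (1 / 3 + 2 / 3 * ∑ k, b k * √(b k)) ≤
      ∑ i, volume (B i) /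
        volume ((fun p : Fin 3 → ℝ => (e (d i) ⬝ᵥ p, f (d i) ⬝ᵥ p)) '' K) :=
    (ENNReal.ofReal_le_ofReal hle).trans h2
  refine ⟨h1, second, ?_⟩
  set A := ⨅ (a : Fin 3 → ℝ) (c : Fin 3 → ℝ) (_ : a ⬝ᵥ a = 1 ∧ c ⬝ᵥ c = 1 ∧ a ⬝ᵥ c = 0),
    volume ((fun p : Fin 3 → ℝ => (a ⬝ᵥ p, c ⬝ᵥ p)) '' K) with hA
  have hAle : ∀ k, A ≤ volume ((fun p : Fin 3 → ℝ => (e k ⬝ᵥ p, f k ⬝ᵥ p)) '' K) := fun k =>
    iInf_le_of_le (e k) (iInf_le_of_le (f k) (iInf_le _ (hef k)))
  have h3 : ∑ i, volume (B i) /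
      volume ((fun p : Fin 3 → ℝ => (e (d i) ⬝ᵥ p, f (d i) ⬝ᵥ p)) '' K) ≤
        (∑ i, volume (B i)) / A := by
    have h4 : (∑ i, volume (B i)) / A = ∑ i, volume (B i) / A := by
      simp only [div_eq_mul_inv, Finset.sum_mul]
    rw [h4]
    exact Finset.sum_le_sum fun i _ => ENNReal.div_le_div_left (hAle (d i)) _
  exact ENNReal.mul_le_of_le_div (second.trans h3)

end Vale.Agent.Lib.P243
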