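import Vale.Agent.Lib.P243.Coplanar

/-!
# P243: cylinders whose axes are parallel to an arbitrary plane
-/

namespace Vale.Agent.Lib.P243

open MeasureTheory Set

theorem inner_eq_dot (x y : EuclideanSpace ℝ (Fin 3)) :
    inner ℝ x y = WithLp.ofLp x ⬝ᵥ WithLp.ofLp y := by
  rw [EuclideanSpace.inner_eq_star_dotProduct, star_trivial, dotProduct_comm]

/-- A unit vector of three-space is the third vector of an orthonormal frame. -/
theorem exists_frame (n : Fin 3 → ℝ) (hn : n ⬝ᵥ n = 1) :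
    ∃ n₁ n₂ : Fin 3 → ℝ, n₁ ⬝ᵥ n₁ = 1 ∧ n₂ ⬝ᵥ n₂ = 1 ∧ n₁ ⬝ᵥ n₂ = 0 ∧ n₁ ⬝ᵥ n = 0 ∧
      n₂ ⬝ᵥ n = 0 ∧ ∀ u v : Fin 3 → ℝ,
        u ⬝ᵥ v = (u ⬝ᵥ n₁) * (n₁ ⬝ᵥ v) + (u ⬝ᵥ n₂) * (n₂ ⬝ᵥ v) + (u ⬝ᵥ n) * (n ⬝ᵥ v) := by
  set N : EuclideanSpace ℝ (Fin 3) := WithLp.toLp 2 n with hN
  have hNN : inner ℝ N N = 1 := by rw [inner_eq_dot]; exact hn
  have hNnorm : ‖N‖ = 1 := by
    have h1 : ‖N‖ ^ 2 = 1 := by rw [← real_inner_self_eq_norm_sq, hNN]
    have h2 := norm_nonneg N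
    nlinarith
  have hcard : Module.finrank ℝ (EuclideanSpace ℝ (Fin 3)) = Fintype.card (Fin 3) := by simp
  have horth : Orthonormal ℝ (({2} : Set (Fin 3)).domRestrict (fun _ : Fin 3 => N)) := by
    rw [orthonormal_subsingleton_iff]
    intro i
    exact hNnorm
  obtain ⟨b, hb⟩ := Orthonormal.exists_orthonormalBasis_extension_of_card_eq hcard horth
  have hb2 : b 2 = N := hb 2 (mem_singleton _)
  have hon := orthonormal_iff_ite.mp b.orthonormal
  have hn2 : WithLp.ofLp (b 2) = n := by rw [hb2]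
  refine ⟨WithLp.ofLp (b 0), WithLp.ofLp (b 1), ?_, ?_, ?_, ?_, ?_, ?_⟩
  · rw [← inner_eq_dot, hon 0 0, if_pos rfl]
  · rw [← inner_eq_dot, hon 1 1, if_pos rfl]
  · rw [← inner_eq_dot, hon 0 1, if_neg (by decide)]
  · rw [← hn2, ← inner_eq_dot, hon 0 2, if_neg (by decide)]
  · rw [← hn2, ← inner_eq_dot, hon 1 2, if_neg (by decide)]
  · intro u v
    have h := b.sum_inner_mul_inner (WithLp.toLp 2 u) (WithLp.toLp 2 v)
    rw [Fin.sum_univ_three] at h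
    simp only [inner_eq_dot] at h
    rw [hn2] at h
    exact h.symm

theorem continuous_dot (u : Fin 3 → ℝ) : Continuous fun p : Fin 3 → ℝ => u ⬝ᵥ p :=
  continuous_const.dotProduct continuous_id

/-- The reflection `(s, t) ↦ (-β s + α t, α s + β t)` preserves planar measure. -/
theorem volume_preimage_reflection {α β : ℝ} (h : α ^ 2 + β ^ 2 = 1) (B : Set (ℝ × ℝ)) :
    volume ((fun q : ℝ × ℝ => (-β * q.1 + α * q.2, α * q.1 + β * q.2)) ⁻¹' B) = volume B := by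
  set L : ℝ × ℝ →ₗ[ℝ] ℝ × ℝ :=
    { toFun := fun q => (-β * q.1 + α * q.2, α * q.1 + β * q.2)
      map_add' := by
        intro x y
        refine Prod.ext ?_ ?_
        · simp only [Prod.fst_add, Prod.snd_add]
          ring
        · simp only [Prod.fst_add, Prod.snd_add]
          ring
      map_smul' := by
        intro c x
        refine Prod.ext ?_ ?_
        · simp only [Prod.smul_fst, Prod.smul_snd, smul_eq_mul, RingHom.id_apply]
          ring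
        · simp only [Prod.smul_fst, Prod.smul_snd, smul_eq_mul, RingHom.id_apply]
          ring } with hL
  have hLL : L.comp L = LinearMap.id := by
    apply LinearMap.ext
    intro q
    refine Prod.ext ?_ ?_
    · show -β * (-β * q.1 + α * q.2) + α * (α * q.1 + β * q.2) = q.1
      have : -β * (-β * q.1 + α * q.2) + α * (α * q.1 + β * q.2) = (α ^ 2 + β ^ 2) * q.1 := by
        ring
      rw [this, h, one_mul]
    · show α * (-β * q.1 + α * q.2) + β * (α * q.1 + β * q.2) = q.2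
      have : α * (-β * q.1 + α * q.2) + β * (α * q.1 + β * q.2) = (α ^ 2 + β ^ 2) * q.2 := by
        ring
      rw [this, h, one_mul]
  have hdet : LinearMap.det L * LinearMap.det L = 1 := by
    rw [← LinearMap.det_comp, hLL, LinearMap.det_id]
  have hdet0 : LinearMap.det L ≠ 0 := by
    intro h0
    rw [h0, mul_zero] at hdet
    exact zero_ne_one hdet
  have habs : |(LinearMap.det L)⁻¹| = 1 := by
    have h1 : |LinearMap.det L| * |LinearMap.det L| = 1 := by rw [← abs_mul, hdet, abs_one]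
    have h2 : |LinearMap.det L| = 1 := by
      have := abs_nonneg (LinearMap.det L)
      nlinarith
    rw [abs_inv, h2, inv_one]
  have key := Measure.addHaar_preimage_linearMap (volume : Measure (ℝ × ℝ)) hdet0 B
  rw [habs, ENNReal.ofReal_one, one_mul] at key
  exact key

/-- **Cylinders whose axes are parallel to one plane.**  `K` is a compact convex set in
three-space `Fin 3 → ℝ`; the `i`-th cylinder is given by an orthonormal pair `e i`, `f i`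
spanning the plane orthogonal to its axis, and a base `B i` in those coordinates; the unit
vector `n` lies in each of these planes, that is, every axis is orthogonal to `n`.  If the
cylinders cover `K`, the areas of the bases add up to at least half the least area of an
orthogonal projection of `K` onto a plane. -/
theorem coplanar_general {ι : Type*} [Fintype ι] {K : Set (Fin 3 → ℝ)} (hK : Convex ℝ K)
    (hKc : IsCompact K) (e f : ι → Fin 3 → ℝ)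
    (hef : ∀ i, e i ⬝ᵥ e i = 1 ∧ f i ⬝ᵥ f i = 1 ∧ e i ⬝ᵥ f i = 0)
    (B : ι → Set (ℝ × ℝ)) (hcov : ∀ p ∈ K, ∃ i, (e i ⬝ᵥ p, f i ⬝ᵥ p) ∈ B i)
    (n : Fin 3 → ℝ) (hn : n ⬝ᵥ n = 1)
    (hpl : ∀ i, (e i ⬝ᵥ n) ^ 2 + (f i ⬝ᵥ n) ^ 2 = 1) :
    (1 : ENNReal) / 2 * (⨅ (a : Fin 3 → ℝ) (b : Fin 3 → ℝ)
        (_ : a ⬝ᵥ a = 1 ∧ b ⬝ᵥ b = 1 ∧ a ⬝ᵥ b = 0),
        volume ((fun p : Fin 3 → ℝ => (a ⬝ᵥ p, b ⬝ᵥ p)) '' K)) ≤ ∑ i, volume (B i) := by
  obtain ⟨n₁, n₂, h11, h22, h12, h1n, h2n, hcomp⟩ := exists_frame n hn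
  set Ψ : (Fin 3 → ℝ) → ℝ × ℝ × ℝ := fun p => (n₁ ⬝ᵥ p, n₂ ⬝ᵥ p, n ⬝ᵥ p) with hΨ
  have hK'conv : Convex ℝ (Ψ '' K) := by
    rintro _ ⟨p, hp, rfl⟩ _ ⟨q, hq, rfl⟩ s r hs hr hsr
    refine ⟨s • p + r • q, hK hp hq hs hr hsr, ?_⟩
    refine Prod.ext ?_ (Prod.ext ?_ ?_)
    · simp [hΨ, dotProduct_add, dotProduct_smul]
    · simp [hΨ, dotProduct_add, dotProduct_smul]
    · simp [hΨ, dotProduct_add, dotProduct_smul]
  have hΨc : Continuous Ψ :=
    (continuous_dot n₁).prodMk ((continuous_dot n₂).prodMk (continuous_dot n))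
  have hK'c : IsCompact (Ψ '' K) := hKc.image hΨc
  set α : ι → ℝ := fun i => e i ⬝ᵥ n with hα
  set β : ι → ℝ := fun i => f i ⬝ᵥ n with hβ
  have hαβ : ∀ i, α i ^ 2 + β i ^ 2 = 1 := hpl
  have hnexp : ∀ i, n = α i • e i + β i • f i := by
    intro i
    obtain ⟨hee, hff, hef'⟩ := hef i
    have hne : n ⬝ᵥ e i = α i := dotProduct_comm _ _
    have hnf : n ⬝ᵥ f i = β i := dotProduct_comm _ _
    have hfe : f i ⬝ᵥ e i = 0 := by rw [dotProduct_comm]; exact hef'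
    have hr : (n - (α i • e i + β i • f i)) ⬝ᵥ (n - (α i • e i + β i • f i)) = 0 := by
      simp only [sub_dotProduct, dotProduct_sub, add_dotProduct, dotProduct_add, smul_dotProduct,
        dotProduct_smul, smul_eq_mul, hn, hee, hff, hef', hfe, hne, hnf]
      have hα' : e i ⬝ᵥ n = α i := rfl
      have hβ' : f i ⬝ᵥ n = β i := rfl
      rw [hα', hβ']
      nlinarith [hαβ i]
    exact sub_eq_zero.mp (dotProduct_self_eq_zero.mp hr)
  set θ : ι → Fin 3 → ℝ := fun i => (-β i) • e i + α i • f i with hθ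
  have hθdot : ∀ i p, θ i ⬝ᵥ p = -β i * (e i ⬝ᵥ p) + α i * (f i ⬝ᵥ p) := by
    intro i p
    simp only [hθ, add_dotProduct, smul_dotProduct, smul_eq_mul]
  have hndot : ∀ i p, n ⬝ᵥ p = α i * (e i ⬝ᵥ p) + β i * (f i ⬝ᵥ p) := by
    intro i p
    conv_lhs => rw [hnexp i]
    simp only [add_dotProduct, smul_dotProduct, smul_eq_mul]
  have hθn : ∀ i, θ i ⬝ᵥ n = 0 := by
    intro i
    rw [hθdot]
    show -β i * α i + α i * β i = 0
    ring
  have hθθ : ∀ i, θ i ⬝ᵥ θ i = 1 := by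
    intro i
    obtain ⟨hee, hff, hef'⟩ := hef i
    have hfe : f i ⬝ᵥ e i = 0 := by rw [dotProduct_comm]; exact hef'
    rw [hθdot]
    simp only [hθ, dotProduct_add, dotProduct_smul, smul_eq_mul, hee, hff, hef', hfe]
    nlinarith [hαβ i]
  set a : ι → ℝ := fun i => θ i ⬝ᵥ n₁ with ha
  set b : ι → ℝ := fun i => θ i ⬝ᵥ n₂ with hb
  have hab : ∀ i, a i ^ 2 + b i ^ 2 = 1 := by
    intro i
    have h := hcomp (θ i) (θ i)
    rw [hθθ i, hθn i, zero_mul, add_zero, dotProduct_comm n₁ (θ i), dotProduct_comm n₂ (θ i)] at h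
    show (θ i ⬝ᵥ n₁) ^ 2 + (θ i ⬝ᵥ n₂) ^ 2 = 1
    nlinarith
  have hθexp : ∀ i p, θ i ⬝ᵥ p = a i * (n₁ ⬝ᵥ p) + b i * (n₂ ⬝ᵥ p) := by
    intro i p
    have h := hcomp (θ i) p
    rw [hθn i, zero_mul, add_zero] at h
    exact h
  set B' : ι → Set (ℝ × ℝ) := fun i =>
    (fun q : ℝ × ℝ => (-β i * q.1 + α i * q.2, α i * q.1 + β i * q.2)) ⁻¹' B i with hB'
  have hvolB : ∀ i, volume (B' i) = volume (B i) := fun i =>
    volume_preimage_reflection (hαβ i) (B i)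
  have hcov' : ∀ p' ∈ Ψ '' K, ∃ i, (a i * p'.1 + b i * p'.2.1, p'.2.2) ∈ B' i := by
    rintro _ ⟨p, hp, rfl⟩
    obtain ⟨i, hi⟩ := hcov p hp
    refine ⟨i, ?_⟩
    show (-β i * (a i * (n₁ ⬝ᵥ p) + b i * (n₂ ⬝ᵥ p)) + α i * (n ⬝ᵥ p),
      α i * (a i * (n₁ ⬝ᵥ p) + b i * (n₂ ⬝ᵥ p)) + β i * (n ⬝ᵥ p)) ∈ B i
    rw [← hθexp i p, hθdot i p, hndot i p]
    have e1 : -β i * (-β i * (e i ⬝ᵥ p) + α i * (f i ⬝ᵥ p)) +
        α i * (α i * (e i ⬝ᵥ p) + β i * (f i ⬝ᵥ p)) = e i ⬝ᵥ p := by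
      have : -β i * (-β i * (e i ⬝ᵥ p) + α i * (f i ⬝ᵥ p)) +
          α i * (α i * (e i ⬝ᵥ p) + β i * (f i ⬝ᵥ p)) =
          (α i ^ 2 + β i ^ 2) * (e i ⬝ᵥ p) := by ring
      rw [this, hαβ i, one_mul]
    have e2 : α i * (-β i * (e i ⬝ᵥ p) + α i * (f i ⬝ᵥ p)) +
        β i * (α i * (e i ⬝ᵥ p) + β i * (f i ⬝ᵥ p)) = f i ⬝ᵥ p := by
      have : α i * (-β i * (e i ⬝ᵥ p) + α i * (f i ⬝ᵥ p)) +
          β i * (α i * (e i ⬝ᵥ p) + β i * (f i ⬝ᵥ p)) =
          (α i ^ 2 + β i ^ 2) * (f i ⬝ᵥ p) := by ring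
      rw [this, hαβ i, one_mul]
    rw [e1, e2]
    exact hi
  have main := coplanar_axes hK'conv hK'c a b hab B' hcov'
  rw [Finset.sum_congr rfl (fun i _ => hvolB i)] at main
  refine le_trans ?_ main
  gcongr
  refine le_iInf fun c => le_iInf fun d => le_iInf fun hcd => ?_
  refine iInf_le_of_le (c • n₁ + d • n₂) (iInf_le_of_le n (iInf_le_of_le ⟨?_, hn, ?_⟩ ?_))
  · have h21 : n₂ ⬝ᵥ n₁ = 0 := by rw [dotProduct_comm]; exact h12
    simp only [add_dotProduct, dotProduct_add, smul_dotProduct, dotProduct_smul, smul_eq_mul,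
      h11, h22, h12, h21]
    nlinarith
  · simp only [add_dotProduct, smul_dotProduct, smul_eq_mul, h1n, h2n]
    ring
  · apply le_of_eq
    congr 1
    rw [image_image]
    refine image_congr fun p _ => ?_
    simp only [hΨ, add_dotProduct, smul_dotProduct, smul_eq_mul]

/-- The same theorem, with the hypothesis on the axes in the form: a fixed nonzero vector `n`
lies in each of the planes spanned by `e i`, `f i` (so every axis is orthogonal to `n`). -/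
theorem coplanar_span {ι : Type*} [Fintype ι] {K : Set (Fin 3 → ℝ)} (hK : Convex ℝ K)
    (hKc : IsCompact K) (e f : ι → Fin 3 → ℝ)
    (hef : ∀ i, e i ⬝ᵥ e i = 1 ∧ f i ⬝ᵥ f i = 1 ∧ e i ⬝ᵥ f i = 0)
    (B : ι → Set (ℝ × ℝ)) (hcov : ∀ p ∈ K, ∃ i, (e i ⬝ᵥ p, f i ⬝ᵥ p) ∈ B i)
    (n : Fin 3 → ℝ) (hn : n ≠ 0) (hpl : ∀ i, ∃ s t : ℝ, n = s • e i + t • f i) :
    (1 : ENNReal) / 2 * (⨅ (a : Fin 3 → ℝ) (b : Fin 3 → ℝ)
        (_ : a ⬝ᵥ a = 1 ∧ b ⬝ᵥ b = 1 ∧ a ⬝ᵥ b = 0),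
        volume ((fun p : Fin 3 → ℝ => (a ⬝ᵥ p, b ⬝ᵥ p)) '' K)) ≤ ∑ i, volume (B i) := by
  have hnn : 0 < n ⬝ᵥ n := by
    have h0 : 0 ≤ n ⬝ᵥ n := Finset.sum_nonneg fun i _ => mul_self_nonneg (n i)
    rcases eq_or_lt_of_le h0 with h | h
    · exact absurd (dotProduct_self_eq_zero.mp h.symm) hn
    · exact h
  set ρ := Real.sqrt (n ⬝ᵥ n) with hρ
  have hρpos : 0 < ρ := Real.sqrt_pos.mpr hnn
  have hρsq : ρ * ρ = n ⬝ᵥ n := Real.mul_self_sqrt hnn.le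
  refine coplanar_general hK hKc e f hef B hcov (ρ⁻¹ • n) ?_ ?_
  · rw [smul_dotProduct, dotProduct_smul, smul_eq_mul, smul_eq_mul, ← hρsq]
    field_simp
  · intro i
    obtain ⟨s, t, hst⟩ := hpl i
    obtain ⟨hee, hff, hef'⟩ := hef i
    have hfe : f i ⬝ᵥ e i = 0 := by rw [dotProduct_comm]; exact hef'
    have h1 : e i ⬝ᵥ n = s := by
      rw [hst, dotProduct_add, dotProduct_smul, dotProduct_smul, hee, hef']
      simp
    have h2 : f i ⬝ᵥ n = t := by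
      rw [hst, dotProduct_add, dotProduct_smul, dotProduct_smul, hff, hfe]
      simp
    have h3 : n ⬝ᵥ n = s ^ 2 + t ^ 2 := by
      conv_lhs => rw [hst]
      rw [add_dotProduct, smul_dotProduct, smul_dotProduct, ← hst, h1, h2]
      simp only [smul_eq_mul]
      ring
    rw [dotProduct_smul, dotProduct_smul, h1, h2, smul_eq_mul, smul_eq_mul]
    have h4 : (ρ⁻¹ * s) ^ 2 + (ρ⁻¹ * t) ^ 2 = (s ^ 2 + t ^ 2) / (ρ * ρ) := by
      field_simp
    rw [h4, hρsq, h3, div_self]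
    rw [← h3]
    exact hnn.ne'

end Vale.Agent.Lib.P243
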