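import Vale.Agent.Lib.P243.Planar
import Vale.Agent.Lib.P243.Concave

/-!
# P243, step 5: slices of planar compact convex sets
-/

namespace Vale.Agent.Lib.P243

open MeasureTheory Set

/-- Horizontal slice of a planar set at height `t`. -/
def hslice (M : Set (ℝ × ℝ)) (t : ℝ) : Set ℝ := (fun u : ℝ => (u, t)) ⁻¹' M

theorem mem_hslice {M : Set (ℝ × ℝ)} {t u : ℝ} : u ∈ hslice M t ↔ (u, t) ∈ M := Iff.rfl

theorem measurableSet_hslice {M : Set (ℝ × ℝ)} (hM : MeasurableSet M) (t : ℝ) :
    MeasurableSet (hslice M t) :=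
  hM.preimage (by fun_prop)

theorem volume_eq_lintegral_hslice {M : Set (ℝ × ℝ)} (hM : MeasurableSet M) :
    volume M = ∫⁻ t, volume (hslice M t) := by
  rw [Measure.volume_eq_prod, Measure.prod_apply_symm hM]
  rfl

theorem measurable_volume_hslice {M : Set (ℝ × ℝ)} (hM : MeasurableSet M) :
    Measurable fun t => volume (hslice M t) :=
  measurable_measure_prodMk_right hM

section compactConvex

variable {M : Set (ℝ × ℝ)} (hMc : IsCompact M) (hMconv : Convex ℝ M)

include hMc in
theorem hslice_isCompact (t : ℝ) : IsCompact (hslice M t) := by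
  have hcl : IsClosed (hslice M t) := hMc.isClosed.preimage (by fun_prop)
  have hsub : hslice M t ⊆ Prod.fst '' M := fun u hu => ⟨(u, t), hu, rfl⟩
  exact (hMc.image continuous_fst).of_isClosed_subset hcl hsub

include hMconv in
theorem hslice_convex (t : ℝ) : Convex ℝ (hslice M t) := by
  intro u hu v hv a b ha hb hab
  have h := hMconv hu hv ha hb hab
  have e : a • (u, t) + b • (v, t) = (a • u + b • v, t) := by
    ext
    · simp
    · simp only [Prod.smul_mk, Prod.mk_add_mk, smul_eq_mul]
      rw [← add_mul, hab, one_mul]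
  rw [e] at h
  exact h

include hMc hMconv in
theorem hslice_eq_Icc {t : ℝ} (hne : (hslice M t).Nonempty) :
    hslice M t = Icc (sInf (hslice M t)) (sSup (hslice M t)) :=
  eq_Icc_of_connected_compact ⟨hne, (hslice_convex hMconv t).isPreconnected⟩
    (hslice_isCompact hMc t)

include hMc hMconv in
theorem volume_hslice {t : ℝ} (hne : (hslice M t).Nonempty) :
    volume (hslice M t) = ENNReal.ofReal (sSup (hslice M t) - sInf (hslice M t)) := by
  conv_lhs => rw [hslice_eq_Icc hMc hMconv hne]
  rw [Real.volume_Icc]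

theorem hslice_nonempty_iff {t : ℝ} : (hslice M t).Nonempty ↔ t ∈ Prod.snd '' M := by
  constructor
  · rintro ⟨u, hu⟩; exact ⟨(u, t), hu, rfl⟩
  · rintro ⟨⟨u, t'⟩, hp, rfl⟩; exact ⟨u, hp⟩

include hMc hMconv in
theorem concaveOn_len : ConcaveOn ℝ (Prod.snd '' M)
    (fun t => (volume (hslice M t)).toReal) := by
  have hZconv : Convex ℝ (Prod.snd '' M) := by
    have h := hMconv.linear_image (LinearMap.snd ℝ ℝ ℝ)
    rwa [LinearMap.coe_snd] at h
  have hhi : ConcaveOn ℝ (Prod.snd '' M) (fun t => sSup (hslice M t)) := by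
    refine ⟨hZconv, ?_⟩
    intro s hs t ht a b ha hb hab
    have hs' := hslice_nonempty_iff.mpr hs
    have ht' := hslice_nonempty_iff.mpr ht
    have m1 : (sSup (hslice M s), s) ∈ M := (hslice_isCompact hMc s).sSup_mem hs'
    have m2 : (sSup (hslice M t), t) ∈ M := (hslice_isCompact hMc t).sSup_mem ht'
    have h := hMconv m1 m2 ha hb hab
    have hmem : a • sSup (hslice M s) + b • sSup (hslice M t) ∈ hslice M (a • s + b • t) := by
      show (a • sSup (hslice M s) + b • sSup (hslice M t), a • s + b • t) ∈ M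
      have e : a • (sSup (hslice M s), s) + b • (sSup (hslice M t), t) =
          (a • sSup (hslice M s) + b • sSup (hslice M t), a • s + b • t) := by
        ext <;> simp
      rw [e] at h
      exact h
    exact le_csSup (hslice_isCompact hMc _).bddAbove hmem
  have hlo : ConvexOn ℝ (Prod.snd '' M) (fun t => sInf (hslice M t)) := by
    refine ⟨hZconv, ?_⟩
    intro s hs t ht a b ha hb hab
    have hs' := hslice_nonempty_iff.mpr hs
    have ht' := hslice_nonempty_iff.mpr ht
    have m1 : (sInf (hslice M s), s) ∈ M := (hslice_isCompact hMc s).sInf_mem hs'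
    have m2 : (sInf (hslice M t), t) ∈ M := (hslice_isCompact hMc t).sInf_mem ht'
    have h := hMconv m1 m2 ha hb hab
    have hmem : a • sInf (hslice M s) + b • sInf (hslice M t) ∈ hslice M (a • s + b • t) := by
      show (a • sInf (hslice M s) + b • sInf (hslice M t), a • s + b • t) ∈ M
      have e : a • (sInf (hslice M s), s) + b • (sInf (hslice M t), t) =
          (a • sInf (hslice M s) + b • sInf (hslice M t), a • s + b • t) := by
        ext <;> simp
      rw [e] at h
      exact h
    exact csInf_le (hslice_isCompact hMc _).bddBelow hmem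
  refine (hhi.sub hlo).congr ?_
  intro t ht
  have hne := hslice_nonempty_iff.mpr ht
  have hle : sInf (hslice M t) ≤ sSup (hslice M t) := by
    obtain ⟨u, hu⟩ := hne
    exact (csInf_le (hslice_isCompact hMc t).bddBelow hu).trans
      (le_csSup (hslice_isCompact hMc t).bddAbove hu)
  simp only [Pi.sub_apply]
  rw [volume_hslice hMc hMconv hne, ENNReal.toReal_ofReal (sub_nonneg.mpr hle)]

include hMc hMconv in
/-- The slice at an interior height of a compact convex planar set is at least as long as the
slice of the triangle with the same area and height range. -/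
theorem slice_lower_bound {z₀ z₁ : ℝ} (hZ : Prod.snd '' M = Icc z₀ z₁) {t₀ : ℝ}
    (ht : t₀ ∈ Ioo z₀ z₁) :
    volume M * ENNReal.ofReal (2 * min (t₀ - z₀) (z₁ - t₀) / (z₁ - z₀) ^ 2) ≤
      volume (hslice M t₀) := by
  have hMm : MeasurableSet M := hMc.isClosed.measurableSet
  have hmeas := measurable_volume_hslice hMm
  have hfub := volume_eq_lintegral_hslice hMm
  have hMfin : volume M ≠ ⊤ := hMc.measure_lt_top.ne
  set g : ℝ → ℝ := fun t => (volume (hslice M t)).toReal with hg
  have hgint : Integrable g := by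
    refine integrable_toReal_of_lintegral_ne_top hmeas.aemeasurable ?_
    rw [← hfub]; exact hMfin
  have hgI : ∫ t, g t = (volume M).toReal := by
    rw [hfub]
    exact integral_toReal hmeas.aemeasurable
      (Filter.Eventually.of_forall fun t => (hslice_isCompact hMc t).measure_lt_top)
  have hz01 : z₀ ≤ z₁ := (ht.1.trans ht.2).le
  have hg0 : ∀ t, t ∉ Icc z₀ z₁ → g t = 0 := by
    intro t htn
    have : hslice M t = ∅ := by
      rw [← hZ] at htn
      exact Set.not_nonempty_iff_eq_empty.mp (fun h => htn (hslice_nonempty_iff.mp h))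
    simp [hg, this]
  have hgI' : ∫ t in z₀..z₁, g t = (volume M).toReal := by
    rw [intervalIntegral.integral_of_le hz01, ← integral_Icc_eq_integral_Ioc,
      setIntegral_eq_integral_of_forall_compl_eq_zero hg0, hgI]
  have hconc : ConcaveOn ℝ (Icc z₀ z₁) g := by
    rw [← hZ]; exact concaveOn_len hMc hMconv
  have hL := concave_integral_bound hconc (fun t _ => ENNReal.toReal_nonneg)
    hgint.intervalIntegrable ht
  rw [hgI'] at hL
  have hw : 0 < z₁ - z₀ := by linarith [ht.1, ht.2]
  have hw2 : 0 < (z₁ - z₀) ^ 2 := by positivity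
  have hreal : (volume M).toReal * (2 * min (t₀ - z₀) (z₁ - t₀) / (z₁ - z₀) ^ 2) ≤ g t₀ := by
    rw [← mul_div_assoc, div_le_iff₀ hw2]
    exact hL
  have hfin : volume (hslice M t₀) ≠ ⊤ := (hslice_isCompact hMc t₀).measure_lt_top.ne
  calc volume M * ENNReal.ofReal (2 * min (t₀ - z₀) (z₁ - t₀) / (z₁ - z₀) ^ 2)
      = ENNReal.ofReal ((volume M).toReal * (2 * min (t₀ - z₀) (z₁ - t₀) / (z₁ - z₀) ^ 2)) := by
        rw [ENNReal.ofReal_mul ENNReal.toReal_nonneg, ENNReal.ofReal_toReal hMfin]
    _ ≤ ENNReal.ofReal (g t₀) := ENNReal.ofReal_le_ofReal hreal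
    _ = volume (hslice M t₀) := ENNReal.ofReal_toReal hfin

end compactConvex

end Vale.Agent.Lib.P243
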