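import Vale.Agent.Lib.P243.Bang

/-!
# P243: Bang's theorem for coverings by measurable unions of parallel strips
-/

namespace Vale.Agent.Lib.P243

open MeasureTheory Set

/-- Any set of reals of finite outer measure is covered by countably many open intervals
whose lengths add up to at most its outer measure plus `ε`. -/
theorem exists_interval_cover (A : Set ℝ) (hA : volume A ≠ ⊤) {ε : NNReal} (hε : 0 < ε) :
    ∃ a b : ℕ → ℝ, A ⊆ ⋃ n, Ioo (a n) (b n) ∧
      ∑' n, ENNReal.ofReal (b n - a n) ≤ volume A + ε := by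
  set δ : NNReal := ε / 3 with hδ
  have hδpos : 0 < δ := by positivity
  have hδne : (δ : ENNReal) ≠ 0 := by simpa using hδpos.ne'
  have hvol : volume A = StieltjesFunction.id.outer A := by
    rw [Real.volume_val, StieltjesFunction.measure]
    rfl
  have h1 : StieltjesFunction.id.outer A < volume A + δ := by
    rw [← hvol]
    exact ENNReal.lt_add_right hA hδne
  rw [StieltjesFunction.outer, OuterMeasure.ofFunction_apply] at h1
  simp only [iInf_lt_iff] at h1
  obtain ⟨t, ht, hsum⟩ := h1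
  obtain ⟨ε', ε'pos, hε'⟩ := ENNReal.exists_pos_sum_of_countable hδne ℕ
  have hfin : ∀ n, StieltjesFunction.id.length (t n) ≠ ⊤ := fun n =>
    ((ENNReal.le_tsum n).trans_lt (hsum.trans_le le_top)).ne
  have hbot : (botSet : Set ℝ) = ∅ := by
    ext x
    simp only [botSet, mem_empty_iff_false, iff_false]
    exact not_isBot x
  have hex : ∀ n, ∃ a b : ℝ, t n ⊆ Ioc a b ∧
      ENNReal.ofReal (b - a) < StieltjesFunction.id.length (t n) + ε' n := by
    intro n
    have hl := ENNReal.lt_add_right (hfin n)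
      (by simpa using (ε'pos n).ne' : ((ε' n : NNReal) : ENNReal) ≠ 0)
    conv at hl =>
      lhs
      rw [StieltjesFunction.length_eq]
    simp only [iInf_lt_iff, hbot, sdiff_empty] at hl
    obtain ⟨a, b, h₁, h₂⟩ := hl
    exact ⟨a, b, h₁, by simpa using h₂⟩
  choose a b hsub hlen using hex
  refine ⟨a, fun n => b n + ε' n, ?_, ?_⟩
  · intro x hx
    obtain ⟨n, hn⟩ := mem_iUnion.mp (ht hx)
    have := hsub n hn
    refine mem_iUnion.mpr ⟨n, this.1, ?_⟩
    have hpos : (0 : ℝ) < ε' n := by exact_mod_cast ε'pos n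
    linarith [this.2]
  · have hterm : ∀ n, ENNReal.ofReal (b n + ε' n - a n) ≤
        StieltjesFunction.id.length (t n) + ε' n + ε' n := by
      intro n
      have e : b n + (ε' n : ℝ) - a n = (b n - a n) + ε' n := by ring
      rw [e]
      refine (ENNReal.ofReal_add_le).trans ?_
      rw [ENNReal.ofReal_coe_nnreal]
      gcongr
      exact (hlen n).le
    calc ∑' n, ENNReal.ofReal (b n + ε' n - a n)
        ≤ ∑' n, (StieltjesFunction.id.length (t n) + ε' n + ε' n) :=
          ENNReal.tsum_le_tsum hterm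
      _ = ∑' n, StieltjesFunction.id.length (t n) + ∑' n, (ε' n : ENNReal) +
            ∑' n, (ε' n : ENNReal) := by
          rw [ENNReal.tsum_add, ENNReal.tsum_add]
      _ ≤ (volume A + δ) + δ + δ := by
          gcongr
      _ = volume A + ε := by
          have e3 : (δ : ENNReal) + δ + δ = ε := by
            rw [hδ]
            norm_cast
            rw [← NNReal.coe_inj]
            push_cast
            ring
          rw [add_assoc, add_assoc, ← add_assoc (δ : ENNReal), e3]

theorem ofReal_max_zero (r : ℝ) : ENNReal.ofReal (max r 0) = ENNReal.ofReal r := by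
  rcases le_total r 0 with h | h
  · rw [max_eq_right h, ENNReal.ofReal_of_nonpos h, ENNReal.ofReal_zero]
  · rw [max_eq_left h]

variable {E : Type*} [NormedAddCommGroup E] [InnerProductSpace ℝ E]

/-- A compact convex set whose width in every direction is at least `w` has chords of all
lengths up to `w` in all directions. -/
theorem hasChords_of_width [CompleteSpace E] {S : Set E} (hS : Convex ℝ S) (hSc : IsCompact S) (hne : S.Nonempty)
    {w : ℝ} (hwid : ∀ θ : E, ‖θ‖ = 1 → ∃ p ∈ S, ∃ q ∈ S, w ≤ inner ℝ θ (p - q)) :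
    HasChords S w := by
  intro v hv
  by_contra hcon
  push Not at hcon
  set D : Set E := (fun pq : E × E => pq.1 - pq.2) '' (S ×ˢ S) with hD
  have hDc : IsCompact D := (hSc.prod hSc).image (by fun_prop)
  have hDconv : Convex ℝ D := by
    have h := (hS.prod hS).linear_image
      ((LinearMap.fst ℝ E E) - (LinearMap.snd ℝ E E))
    exact h
  have hvD : v ∉ D := by
    rintro ⟨⟨p, q⟩, ⟨hp, hq⟩, hpq⟩
    refine hcon q hq ?_
    have e : q + v = p := by
      rw [← hpq]
      simp
    rw [e]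
    exact hp
  obtain ⟨f, u, hfD, hfv⟩ := geometric_hahn_banach_closed_point hDconv hDc.isClosed hvD
  obtain ⟨p₀, hp₀⟩ := hne
  have h0 : (0 : E) ∈ D := ⟨(p₀, p₀), ⟨hp₀, hp₀⟩, sub_self _⟩
  have hu : 0 < u := by simpa using hfD 0 h0
  have hfv0 : 0 < f v := hu.trans hfv
  set g := (InnerProductSpace.toDual ℝ E).symm f with hg
  have hfg : ∀ x, f x = inner ℝ g x := fun x => by
    rw [hg, InnerProductSpace.toDual_symm_apply]
  have hg0 : g ≠ 0 := by
    intro h
    rw [hfg, h, inner_zero_left] at hfv0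
    exact lt_irrefl _ hfv0
  have hgpos : 0 < ‖g‖ := norm_pos_iff.mpr hg0
  obtain ⟨p, hp, q, hq, hpq⟩ := hwid (‖g‖⁻¹ • g) (by
    rw [norm_smul, norm_inv, norm_norm, inv_mul_cancel₀ hgpos.ne'])
  have hmem : p - q ∈ D := ⟨(p, q), ⟨hp, hq⟩, rfl⟩
  have h1 : f (p - q) < f v := (hfD _ hmem).trans hfv
  rw [hfg, hfg] at h1
  rw [inner_smul_left] at hpq
  simp only [conj_trivial] at hpq
  have h2 : inner ℝ g v ≤ ‖g‖ * ‖v‖ := real_inner_le_norm g v
  have h3 : ‖g‖⁻¹ * inner ℝ g (p - q) < ‖g‖⁻¹ * inner ℝ g v :=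
    mul_lt_mul_of_pos_left h1 (inv_pos.mpr hgpos)
  have h4 : ‖g‖⁻¹ * inner ℝ g v ≤ ‖v‖ := by
    rw [inv_mul_le_iff₀ hgpos]
    exact h2
  linarith

/-- **Bang's theorem for unions of parallel strips.**  If a compact convex set with chords of
all lengths up to `w` is covered by the sets `{y | ⟪θ i, y⟫ ∈ A i}` (`θ i` unit vectors, `A i`
arbitrary sets of reals), then the outer measures of the `A i` add up to at least `w`. -/
theorem bang_multistrips {ι : Type*} [Fintype ι] {K : Set E} (hK : Convex ℝ K)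
    (hKc : IsCompact K) {w : ℝ} (hD : HasChords K w) (θ : ι → E) (hθ : ∀ i, ‖θ i‖ = 1)
    (A : ι → Set ℝ) (hcov : ∀ y ∈ K, ∃ i, inner ℝ (θ i) y ∈ A i) :
    ENNReal.ofReal w ≤ ∑ i, volume (A i) := by
  classical
  by_cases htop : ∃ i, volume (A i) = ⊤
  · obtain ⟨i, hi⟩ := htop
    have : ∑ i, volume (A i) = ⊤ := (ENNReal.sum_eq_top).mpr ⟨i, Finset.mem_univ _, hi⟩
    rw [this]
    exact le_top
  push Not at htop
  refine ENNReal.le_of_forall_pos_le_add fun ε hε _ => ?_
  set δ : NNReal := ε / (Fintype.card ι + 1) with hδ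
  have hδpos : 0 < δ := by positivity
  choose a b hcover hsum using fun i => exists_interval_cover (A i) (htop i) hδpos
  have hopen : ∀ x : ι × ℕ,
      IsOpen {y : E | inner ℝ (θ x.1) y ∈ Ioo (a x.1 x.2) (b x.1 x.2)} := fun x =>
    isOpen_Ioo.preimage (by fun_prop)
  have hcov' : K ⊆ ⋃ x : ι × ℕ, {y : E | inner ℝ (θ x.1) y ∈ Ioo (a x.1 x.2) (b x.1 x.2)} := by
    intro y hy
    obtain ⟨i, hi⟩ := hcov y hy
    obtain ⟨n, hn⟩ := mem_iUnion.mp (hcover i hi)
    exact mem_iUnion.mpr ⟨(i, n), hn⟩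
  obtain ⟨F, hF⟩ := hKc.elim_finite_subcover _ hopen hcov'
  have hlt : w < ∑ x ∈ F, max (b x.1 x.2 - a x.1 x.2) 0 := by
    by_contra hle
    push Not at hle
    obtain ⟨y, hy, hyF⟩ := bang_intervals hK hD (fun x : F => θ x.1.1) (fun x => hθ _)
      (fun x : F => a x.1.1 x.1.2) (fun x : F => b x.1.1 x.1.2) (by
        rw [Finset.sum_coe_sort F (fun x => max (b x.1 x.2 - a x.1 x.2) 0)]
        exact hle)
    have hyU := hF hy
    simp only [mem_iUnion] at hyU
    obtain ⟨x, hxF, hx⟩ := hyU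
    exact hyF ⟨x, hxF⟩ hx
  calc ENNReal.ofReal w
      ≤ ENNReal.ofReal (∑ x ∈ F, max (b x.1 x.2 - a x.1 x.2) 0) :=
        ENNReal.ofReal_le_ofReal hlt.le
    _ = ∑ x ∈ F, ENNReal.ofReal (b x.1 x.2 - a x.1 x.2) := by
        rw [ENNReal.ofReal_sum_of_nonneg (fun x _ => le_max_right _ _)]
        exact Finset.sum_congr rfl fun x _ => ofReal_max_zero _
    _ ≤ ∑' x : ι × ℕ, ENNReal.ofReal (b x.1 x.2 - a x.1 x.2) := ENNReal.sum_le_tsum F
    _ = ∑ i, ∑' n, ENNReal.ofReal (b i n - a i n) := by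
        rw [ENNReal.tsum_prod', tsum_fintype]
    _ ≤ ∑ i, (volume (A i) + δ) := Finset.sum_le_sum fun i _ => hsum i
    _ = ∑ i, volume (A i) + Fintype.card ι * (δ : ENNReal) := by
        rw [Finset.sum_add_distrib, Finset.sum_const, Finset.card_univ, nsmul_eq_mul]
    _ ≤ ∑ i, volume (A i) + ε := by
        gcongr
        have : (Fintype.card ι : NNReal) * δ ≤ ε := by
          rw [hδ, mul_div_assoc']
          rw [div_le_iff₀ (by positivity)]
          have : (Fintype.card ι : NNReal) ≤ Fintype.card ι + 1 := le_self_add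
          calc (Fintype.card ι : NNReal) * ε = ε * Fintype.card ι := mul_comm _ _
            _ ≤ ε * (Fintype.card ι + 1) := by gcongr
        exact_mod_cast this

end Vale.Agent.Lib.P243
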