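import Vale.Agent.Lib.P243.SymModel
import Vale.Agent.Lib.P243.Refined

/-!
# P243: cylinder coverings of centrally symmetric convex bodies

For a convex body `K = -K` in `ℝ³` the measure with density `1/2 + gauge K` on `K` has total
mass `(5/4) |K|`, and a cylinder with base `B` in a direction with shadow `D` carries at most
`3 |K| |B ∩ D| / |D|` of it.  Hence every finite covering of `K` by cylinders has directionwise
relative area at least `5/12`.
-/

namespace Vale.Agent.Lib.P243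

open MeasureTheory Set Pointwise

theorem zero_mem_nhds_of_symm {E : Type*} [NormedAddCommGroup E] [NormedSpace ℝ E] {K : Set E}
    (hK : Convex ℝ K) (hKi : (interior K).Nonempty) (hsym : ∀ p ∈ K, -p ∈ K) :
    K ∈ nhds (0 : E) := by
  obtain ⟨p, hp⟩ := hKi
  have hopen : IsOpen ((fun y : E => -y) ⁻¹' interior K) :=
    isOpen_interior.preimage continuous_neg
  have hsub : (fun y : E => -y) ⁻¹' interior K ⊆ K := by
    intro y hy
    have := hsym _ (interior_subset hy)
    simpa using this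
  have hnp : -p ∈ interior K := interior_maximal hsub hopen (by simpa using hp)
  have h0 := hK.interior hp hnp (by norm_num : (0 : ℝ) ≤ 1 / 2) (by norm_num : (0 : ℝ) ≤ 1 / 2)
    (by norm_num)
  have e : (1 / 2 : ℝ) • p + (1 / 2 : ℝ) • (-p) = 0 := by simp
  rw [e] at h0
  exact mem_interior_iff_mem_nhds.mp h0

theorem gauge_image_equiv {E F : Type*} [AddCommGroup E] [Module ℝ E] [AddCommGroup F]
    [Module ℝ F] (L : E ≃ₗ[ℝ] F) (K : Set E) (p : E) : gauge (L '' K) (L p) = gauge K p := by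
  rw [gauge_def, gauge_def]
  congr 1
  ext r
  simp only [mem_sep_iff]
  refine and_congr_right fun _ => ?_
  rw [← image_smul_set, L.injective.mem_set_image]

theorem exists_scale_lintegral {E F : Type*} [NormedAddCommGroup E] [NormedSpace ℝ E]
    [FiniteDimensional ℝ E] [MeasurableSpace E] [BorelSpace E]
    [NormedAddCommGroup F] [NormedSpace ℝ F] [FiniteDimensional ℝ F] [MeasurableSpace F]
    [BorelSpace F] (μ : Measure E) [μ.IsAddHaarMeasure] (ν : Measure F) [ν.IsAddHaarMeasure]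
    (L : E ≃L[ℝ] F) :
    ∃ c : ENNReal, c ≠ 0 ∧ c ≠ ⊤ ∧ (∀ A : Set E, μ A = c * ν (L '' A)) ∧
      ∀ G : F → ENNReal, ∫⁻ p, G (L p) ∂μ = c * ∫⁻ y, G y ∂ν := by
  have hHaar : (Measure.map L μ).IsAddHaarMeasure := L.isAddHaarMeasure_map μ
  have hsm := Measure.isAddLeftInvariant_eq_smul (Measure.map L μ) ν
  have hpos := Measure.addHaarScalarFactor_pos_of_isAddHaarMeasure (Measure.map L μ) ν
  set c₀ := Measure.addHaarScalarFactor (Measure.map L μ) ν with hc₀
  have e : (L.toHomeomorph.toMeasurableEquiv : E → F) = L := rfl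
  refine ⟨(c₀ : ENNReal), by simp [hpos.ne'], ENNReal.coe_ne_top, fun A => ?_, fun G => ?_⟩
  · have h1 : Measure.map L μ (L '' A) = μ A := by
      have h2 := L.toHomeomorph.toMeasurableEquiv.map_apply (μ := μ) (L '' A)
      rw [e] at h2
      rw [h2, L.injective.preimage_image]
    rw [hsm, Measure.smul_apply] at h1
    rw [← h1, ENNReal.smul_def, smul_eq_mul]
  · have h2 := lintegral_map_equiv (μ := μ) G L.toHomeomorph.toMeasurableEquiv
    rw [e] at h2
    rw [← h2, hsm, lintegral_smul_measure, ENNReal.smul_def, smul_eq_mul]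

/-- A surjective linear map to the plane is the first component of a linear chart. -/
theorem exists_chart (q : (Fin 3 → ℝ) →ₗ[ℝ] ℝ × ℝ) (hq : Function.Surjective q) :
    ∃ L : (Fin 3 → ℝ) ≃L[ℝ] (ℝ × ℝ) × ℝ, ∀ p, (L p).1 = q p := by
  have hE : Module.finrank ℝ (Fin 3 → ℝ) = 3 := by simp
  have hker : Module.finrank ℝ (LinearMap.ker q) = 1 := by
    have h := LinearMap.finrank_range_add_finrank_ker q
    rw [LinearMap.range_eq_top.mpr hq, finrank_top, hE] at h
    have h2 : Module.finrank ℝ (ℝ × ℝ) = 2 := by simp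
    omega
  obtain ⟨v', hv'⟩ := (Module.finrank_pos_iff_exists_ne_zero (R := ℝ)
    (M := LinearMap.ker q)).mp (by omega)
  set v : Fin 3 → ℝ := (v' : Fin 3 → ℝ) with hv
  have hv0 : v ≠ 0 := fun h => hv' (Subtype.ext h)
  have hspan : LinearMap.ker q = Submodule.span ℝ {v} := by
    have hle : Submodule.span ℝ {v} ≤ LinearMap.ker q := by
      rw [Submodule.span_singleton_le_iff_mem]
      exact v'.2
    exact (Submodule.eq_of_le_of_finrank_eq hle
      (by rw [finrank_span_singleton hv0, hker])).symm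
  have hvv : v ⬝ᵥ v ≠ 0 := fun h => hv0 (dotProduct_self_eq_zero.mp h)
  set ζ : (Fin 3 → ℝ) →ₗ[ℝ] ℝ :=
    { toFun := fun p => v ⬝ᵥ p
      map_add' := fun x y => dotProduct_add v x y
      map_smul' := fun c x => by simp [dotProduct_smul] } with hζ
  set Ψ : (Fin 3 → ℝ) →ₗ[ℝ] (ℝ × ℝ) × ℝ := q.prod ζ with hΨ
  have hΨapp : ∀ p, Ψ p = (q p, v ⬝ᵥ p) := fun p => rfl
  have hinj : Function.Injective Ψ := by
    rw [← LinearMap.ker_eq_bot, Submodule.eq_bot_iff]
    intro p hp
    rw [LinearMap.mem_ker, hΨapp, Prod.mk_eq_zero] at hp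
    have hpk : p ∈ LinearMap.ker q := LinearMap.mem_ker.mpr hp.1
    rw [hspan, Submodule.mem_span_singleton] at hpk
    obtain ⟨c, rfl⟩ := hpk
    have h2 : v ⬝ᵥ (c • v) = 0 := hp.2
    rw [dotProduct_smul, smul_eq_mul] at h2
    rcases mul_eq_zero.mp h2 with h | h
    · rw [h, zero_smul]
    · exact absurd h hvv
  have hdim : Module.finrank ℝ (Fin 3 → ℝ) = Module.finrank ℝ ((ℝ × ℝ) × ℝ) := by simp
  exact ⟨(LinearMap.linearEquivOfInjective Ψ hinj hdim).toContinuousLinearEquiv, fun p => rfl⟩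

/-- Total mass of the density `1/2 + gauge K` on `K`. -/
theorem sym_mass {K : Set (Fin 3 → ℝ)} (hK : Convex ℝ K) (hKc : IsCompact K)
    (hK0 : K ∈ nhds (0 : Fin 3 → ℝ)) :
    ∫⁻ p in K, ENNReal.ofReal (1 / 2 + gauge K p) = ENNReal.ofReal (5 / 4) * volume K := by
  have hgm : Measurable (gauge K) := (continuous_gauge hK hK0).measurable
  have hKfin : volume K ≠ ⊤ := hKc.measure_lt_top.ne
  have h0K : (0 : Fin 3 → ℝ) ∈ K := mem_of_mem_nhds hK0
  have hsplit : ∀ p, ENNReal.ofReal (1 / 2 + gauge K p) =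
      ENNReal.ofReal (1 / 2) + ENNReal.ofReal (gauge K p) :=
    fun p => ENNReal.ofReal_add (by norm_num) (gauge_nonneg p)
  simp_rw [hsplit]
  rw [lintegral_add_left measurable_const, setLIntegral_const]
  have lc := lintegral_eq_lintegral_meas_lt (volume.restrict K)
    (Filter.Eventually.of_forall fun p => gauge_nonneg p) hgm.aemeasurable
  have hlev : ∀ t ∈ Ioi (0 : ℝ), (volume.restrict K) {a | t < gauge K a} =
      (Ioc (0 : ℝ) 1).indicator (fun t => ENNReal.ofReal (1 - t ^ 3) * volume K) t := by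
    intro t ht
    have ht0 : 0 < t := ht
    rw [Measure.restrict_apply (measurableSet_lt measurable_const hgm)]
    by_cases ht1 : t ≤ 1
    · rw [indicator_of_mem (show t ∈ Ioc (0 : ℝ) 1 from ⟨ht0, ht1⟩)]
      have hset : {a | t < gauge K a} ∩ K = K \ (t • K) := by
        ext p
        simp only [mem_inter_iff, mem_setOf_eq, mem_diff]
        constructor
        · rintro ⟨h1, h2⟩
          exact ⟨h2, fun h3 => absurd (gauge_le_of_mem ht0.le h3) (not_le.mpr h1)⟩
        · rintro ⟨h1, h2⟩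
          refine ⟨?_, h1⟩
          by_contra h3
          rw [not_lt] at h3
          apply h2
          rw [mem_smul_set_iff_inv_smul_mem₀ ht0.ne']
          have h4 : gauge K (t⁻¹ • p) ≤ 1 := by
            rw [gauge_smul_of_nonneg (inv_nonneg.mpr ht0.le), smul_eq_mul]
            calc t⁻¹ * gauge K p ≤ t⁻¹ * t :=
                  mul_le_mul_of_nonneg_left h3 (inv_nonneg.mpr ht0.le)
              _ = 1 := inv_mul_cancel₀ ht0.ne'
          have h5 := (gauge_le_one_iff_mem_closure hK hK0).mp h4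
          rwa [hKc.isClosed.closure_eq] at h5
      have hsub : t • K ⊆ K := by
        rintro _ ⟨p, hp, rfl⟩
        exact hK.smul_mem_of_zero_mem h0K hp ⟨ht0.le, ht1⟩
      have hvol : volume (t • K) = ENNReal.ofReal (t ^ 3) * volume K := by
        rw [Measure.addHaar_smul_of_nonneg volume ht0.le]
        simp
      rw [hset, measure_diff hsub (hKc.smul t).measurableSet.nullMeasurableSet
        (by rw [hvol]; exact ENNReal.mul_ne_top ENNReal.ofReal_ne_top hKfin), hvol,
        ENNReal.ofReal_sub _ (by positivity), ENNReal.sub_mul (fun _ _ => hKfin),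
        ENNReal.ofReal_one, one_mul]
    · rw [indicator_of_notMem (fun h => ht1 h.2)]
      have hset : {a | t < gauge K a} ∩ K = ∅ := by
        ext p
        simp only [mem_inter_iff, mem_setOf_eq, mem_empty_iff_false, iff_false, not_and]
        intro h1 h2
        have := gauge_le_one_of_mem h2
        linarith
      rw [hset, measure_empty]
  have hint : ∫⁻ t in Ioc (0 : ℝ) 1, ENNReal.ofReal (1 - t ^ 3) = ENNReal.ofReal (3 / 4) := by
    have hcont : Continuous fun t : ℝ => 1 - t ^ 3 := by fun_prop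
    have hnn : 0 ≤ᵐ[volume.restrict (Ioc (0 : ℝ) 1)] fun t : ℝ => 1 - t ^ 3 := by
      refine (ae_restrict_iff' measurableSet_Ioc).mpr (Filter.Eventually.of_forall fun t ht => ?_)
      show 0 ≤ 1 - t ^ 3
      have : t ^ 3 ≤ 1 := pow_le_one₀ ht.1.le ht.2
      linarith
    rw [← ofReal_integral_eq_lintegral_ofReal
      (hcont.integrableOn_Icc.mono_set Ioc_subset_Icc_self) hnn,
      ← intervalIntegral.integral_of_le zero_le_one]
    congr 1
    have hi1 : IntervalIntegrable (fun _ : ℝ => (1 : ℝ)) volume 0 1 :=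
      continuous_const.intervalIntegrable _ _
    have hi2 : IntervalIntegrable (fun t : ℝ => t ^ 3) volume 0 1 :=
      (continuous_pow 3).intervalIntegrable _ _
    rw [intervalIntegral.integral_sub hi1 hi2, intervalIntegral.integral_const, integral_pow]
    norm_num
  rw [lc, setLIntegral_congr_fun measurableSet_Ioi hlev, lintegral_indicator measurableSet_Ioc,
    Measure.restrict_restrict measurableSet_Ioc,
    show Ioc (0 : ℝ) 1 ∩ Ioi 0 = Ioc 0 1 from inter_eq_left.mpr Ioc_subset_Ioi_self,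
    lintegral_mul_const' _ _ hKfin, hint, ← add_mul,
    ← ENNReal.ofReal_add (by norm_num) (by norm_num)]
  norm_num

/-- The part of the weighted measure inside one cylinder. -/
theorem sym_cylinder {K : Set (Fin 3 → ℝ)} (hK : Convex ℝ K) (hKc : IsCompact K)
    (hsym : ∀ p ∈ K, -p ∈ K) (hK0 : K ∈ nhds (0 : Fin 3 → ℝ))
    (q : (Fin 3 → ℝ) →ₗ[ℝ] ℝ × ℝ) (hq : Function.Surjective q) {B : Set (ℝ × ℝ)}
    (hB : MeasurableSet B) :
    (∫⁻ p in K ∩ q ⁻¹' B, ENNReal.ofReal (1 / 2 + gauge K p)) * volume (q '' K) ≤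
      ENNReal.ofReal 3 * volume K * volume (B ∩ q '' K) := by
  obtain ⟨L, hL⟩ := exists_chart q hq
  have hHaar : (volume : Measure ((ℝ × ℝ) × ℝ)).IsAddHaarMeasure := by
    rw [Measure.volume_eq_prod]
    infer_instance
  obtain ⟨c, hc0, hct, hcA, hcG⟩ := exists_scale_lintegral (volume : Measure (Fin 3 → ℝ))
    (volume : Measure ((ℝ × ℝ) × ℝ)) L
  set K' : Set ((ℝ × ℝ) × ℝ) := L '' K with hK'
  have hK'conv : Convex ℝ K' := by
    have h := hK.linear_image (L : (Fin 3 → ℝ) →ₗ[ℝ] (ℝ × ℝ) × ℝ)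
    exact h
  have hK'c : IsCompact K' := hKc.image L.continuous
  have hK'sym : ∀ p ∈ K', -p ∈ K' := by
    rintro _ ⟨p, hp, rfl⟩
    exact ⟨-p, hsym p hp, map_neg L p⟩
  have hK'0 : K' ∈ nhds (0 : (ℝ × ℝ) × ℝ) := by
    have h := L.toHomeomorph.isOpenMap.image_mem_nhds hK0
    have e : L.toHomeomorph (0 : Fin 3 → ℝ) = 0 := map_zero L
    rw [e] at h
    exact h
  have hfst : Prod.fst '' K' = q '' K := by
    rw [hK', image_image]
    exact image_congr fun p _ => hL p
  have main := sym_model hK'conv hK'c hK'sym hK'0 hB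
  rw [hfst] at main
  have e1 : volume K = c * volume K' := hcA K
  have e2 : ∫⁻ p in K ∩ q ⁻¹' B, ENNReal.ofReal (1 / 2 + gauge K p) =
      c * ∫⁻ y in K' ∩ Prod.fst ⁻¹' B, ENNReal.ofReal (1 / 2 + gauge K' y) := by
    have hSm : MeasurableSet (K ∩ q ⁻¹' B) :=
      hKc.measurableSet.inter (hB.preimage q.continuous_of_finiteDimensional.measurable)
    have hS'm : MeasurableSet (K' ∩ Prod.fst ⁻¹' B) :=
      hK'c.measurableSet.inter (hB.preimage measurable_fst)
    rw [← lintegral_indicator hSm, ← lintegral_indicator hS'm, ← hcG]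
    refine lintegral_congr fun p => ?_
    have hmem : L p ∈ K' ∩ Prod.fst ⁻¹' B ↔ p ∈ K ∩ q ⁻¹' B := by
      simp only [mem_inter_iff, mem_preimage, hL]
      rw [hK', L.injective.mem_set_image]
    by_cases hp : p ∈ K ∩ q ⁻¹' B
    · rw [indicator_of_mem hp, indicator_of_mem (hmem.mpr hp)]
      have hg : gauge K' (L p) = gauge K p := gauge_image_equiv L.toLinearEquiv K p
      rw [hg]
    · rw [indicator_of_notMem hp, indicator_of_notMem (fun h => hp (hmem.mp h))]
  rw [e1, e2]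
  calc c * (∫⁻ y in K' ∩ Prod.fst ⁻¹' B, ENNReal.ofReal (1 / 2 + gauge K' y)) *
        volume (q '' K)
      = c * ((∫⁻ y in K' ∩ Prod.fst ⁻¹' B, ENNReal.ofReal (1 / 2 + gauge K' y)) *
          volume (q '' K)) := mul_assoc _ _ _
    _ ≤ c * (ENNReal.ofReal 3 * volume K' * volume (B ∩ q '' K)) := by gcongr
    _ = ENNReal.ofReal 3 * (c * volume K') * volume (B ∩ q '' K) := by ring

/-- Every finite covering of a centrally symmetric convex body by cylinders has directionwise
relative area at least `5/12`. -/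
theorem sym_linear {ι : Type*} [Fintype ι] {K : Set (Fin 3 → ℝ)} (hK : Convex ℝ K)
    (hKc : IsCompact K) (hKi : (interior K).Nonempty) (hsym : ∀ p ∈ K, -p ∈ K)
    (q : ι → (Fin 3 → ℝ) →ₗ[ℝ] ℝ × ℝ) (hq : ∀ i, Function.Surjective (q i))
    (B : ι → Set (ℝ × ℝ)) (hcov : ∀ p ∈ K, ∃ i, q i p ∈ B i) :
    ENNReal.ofReal (5 / 12) ≤ ∑ i, volume (B i) / volume (q i '' K) := by
  have hK0 := zero_mem_nhds_of_symm hK hKi hsym
  have hKpos : 0 < volume K :=
    (isOpen_interior.measure_pos volume hKi).trans_le (measure_mono interior_subset)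
  have hKfin : volume K ≠ ⊤ := hKc.measure_lt_top.ne
  set B' : ι → Set (ℝ × ℝ) := fun i => toMeasurable volume (B i) with hB'
  have hB'm : ∀ i, MeasurableSet (B' i) := fun i => measurableSet_toMeasurable _ _
  have hsub : K ⊆ ⋃ i, K ∩ q i ⁻¹' B' i := by
    intro p hp
    obtain ⟨i, hi⟩ := hcov p hp
    exact mem_iUnion.mpr ⟨i, hp, subset_toMeasurable _ _ hi⟩
  set f : (Fin 3 → ℝ) → ENNReal := fun p => ENNReal.ofReal (1 / 2 + gauge K p) with hf
  have hterm : ∀ i, ∫⁻ p in K ∩ q i ⁻¹' B' i, f p ≤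
      ENNReal.ofReal 3 * volume K * (volume (B i) / volume (q i '' K)) := by
    intro i
    have h := sym_cylinder hK hKc hsym hK0 (q i) (hq i) (hB'm i)
    have hpos := proj_pos hKi (q i) (hq i)
    have hfin := proj_fin hKc (q i)
    have h2 : volume (B' i ∩ q i '' K) ≤ volume (B i) := by
      calc volume (B' i ∩ q i '' K) ≤ volume (B' i) := measure_mono inter_subset_left
        _ = volume (B i) := measure_toMeasurable _
    rw [← mul_div_assoc, ENNReal.le_div_iff_mul_le (Or.inl hpos.ne') (Or.inl hfin)]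
    exact h.trans (by gcongr)
  have h1 : ENNReal.ofReal (5 / 4) * volume K ≤
      ENNReal.ofReal 3 * volume K * ∑ i, volume (B i) / volume (q i '' K) := by
    calc ENNReal.ofReal (5 / 4) * volume K = ∫⁻ p in K, f p := (sym_mass hK hKc hK0).symm
      _ ≤ ∫⁻ p in ⋃ i, K ∩ q i ⁻¹' B' i, f p := lintegral_mono_set hsub
      _ ≤ ∑' i, ∫⁻ p in K ∩ q i ⁻¹' B' i, f p := lintegral_iUnion_le _ _
      _ = ∑ i, ∫⁻ p in K ∩ q i ⁻¹' B' i, f p := tsum_fintype _
      _ ≤ ∑ i, ENNReal.ofReal 3 * volume K * (volume (B i) / volume (q i '' K)) :=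
          Finset.sum_le_sum fun i _ => hterm i
      _ = _ := by rw [Finset.mul_sum]
  have h2 : volume K * ENNReal.ofReal (5 / 4) ≤
      volume K * (ENNReal.ofReal 3 * ∑ i, volume (B i) / volume (q i '' K)) := by
    rw [mul_comm (volume K), ← mul_assoc, mul_comm (volume K)]
    exact h1
  have h3 := (ENNReal.mul_le_mul_iff_right hKpos.ne' hKfin).mp h2
  have h4 : ENNReal.ofReal (5 / 4) = ENNReal.ofReal 3 * ENNReal.ofReal (5 / 12) := by
    rw [← ENNReal.ofReal_mul (by norm_num)]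
    norm_num
  rw [h4] at h3
  exact (ENNReal.mul_le_mul_iff_right (by simp) ENNReal.ofReal_ne_top).mp h3

/-- The same for a body symmetric about an arbitrary point `o`. -/
theorem sym_linear_centre {ι : Type*} [Fintype ι] {K : Set (Fin 3 → ℝ)} (hK : Convex ℝ K)
    (hKc : IsCompact K) (hKi : (interior K).Nonempty) (o : Fin 3 → ℝ)
    (hsym : ∀ p ∈ K, (2 : ℝ) • o - p ∈ K)
    (q : ι → (Fin 3 → ℝ) →ₗ[ℝ] ℝ × ℝ) (hq : ∀ i, Function.Surjective (q i))
    (B : ι → Set (ℝ × ℝ)) (hcov : ∀ p ∈ K, ∃ i, q i p ∈ B i) :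
    ENNReal.ofReal (5 / 12) ≤ ∑ i, volume (B i) / volume (q i '' K) := by
  set K₀ : Set (Fin 3 → ℝ) := (fun p => p + o) ⁻¹' K with hK₀
  have hK₀conv : Convex ℝ K₀ := hK.translate_preimage_left o
  have hK₀c : IsCompact K₀ := (Homeomorph.addRight o).isCompact_preimage.mpr hKc
  have hK₀i : (interior K₀).Nonempty := by
    obtain ⟨p, hp⟩ := hKi
    have e := (Homeomorph.addRight o).preimage_interior K
    refine ⟨p - o, ?_⟩
    have hmem : p - o ∈ (Homeomorph.addRight o) ⁻¹' interior K := by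
      show p - o + o ∈ interior K
      rwa [sub_add_cancel]
    rw [e] at hmem
    exact hmem
  have hK₀sym : ∀ p ∈ K₀, -p ∈ K₀ := by
    intro p hp
    have h := hsym _ hp
    show -p + o ∈ K
    have e : (2 : ℝ) • o - (p + o) = -p + o := by
      rw [two_smul]
      abel
    rwa [e] at h
  have hvolR : (volume : Measure (ℝ × ℝ)).IsAddRightInvariant := by
    rw [Measure.volume_eq_prod]
    infer_instance
  set B₀ : ι → Set (ℝ × ℝ) := fun i => (fun y => y + q i o) ⁻¹' B i with hB₀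
  have hcov₀ : ∀ p ∈ K₀, ∃ i, q i p ∈ B₀ i := by
    intro p hp
    obtain ⟨i, hi⟩ := hcov _ hp
    refine ⟨i, ?_⟩
    show q i p + q i o ∈ B i
    rwa [← map_add]
  have main := sym_linear hK₀conv hK₀c hK₀i hK₀sym q hq B₀ hcov₀
  have hB : ∀ i, volume (B₀ i) = volume (B i) := fun i =>
    measure_preimage_add_right volume (q i o) (B i)
  have hD : ∀ i, volume (q i '' K₀) = volume (q i '' K) := by
    intro i
    have e : q i '' K₀ = (fun y => y + q i o) ⁻¹' (q i '' K) := by
      ext y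
      constructor
      · rintro ⟨p, hp, rfl⟩
        exact ⟨p + o, hp, map_add _ _ _⟩
      · rintro ⟨p, hp, hpy⟩
        refine ⟨p - o, ?_, ?_⟩
        · show p - o + o ∈ K
          rwa [sub_add_cancel]
        · rw [map_sub, hpy, add_sub_cancel_right]
    rw [e]
    exact measure_preimage_add_right volume (q i o) _
  simp only [hB, hD] at main
  exact main

/-- The covering theorem for centrally symmetric bodies, with cylinders given by orthonormal
pairs. -/
theorem sym_pi {ι : Type*} [Fintype ι] {K : Set (Fin 3 → ℝ)} (hK : Convex ℝ K)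
    (hKc : IsCompact K) (hKi : (interior K).Nonempty) (o : Fin 3 → ℝ)
    (hsym : ∀ p ∈ K, (2 : ℝ) • o - p ∈ K)
    (e f : ι → Fin 3 → ℝ) (hef : ∀ i, e i ⬝ᵥ e i = 1 ∧ f i ⬝ᵥ f i = 1 ∧ e i ⬝ᵥ f i = 0)
    (B : ι → Set (ℝ × ℝ)) (hcov : ∀ p ∈ K, ∃ i, (e i ⬝ᵥ p, f i ⬝ᵥ p) ∈ B i) :
    ENNReal.ofReal (5 / 12) ≤ ∑ i, volume (B i) /
        volume ((fun p : Fin 3 → ℝ => (e i ⬝ᵥ p, f i ⬝ᵥ p)) '' K) ∧
      ENNReal.ofReal (5 / 12) *
          (⨅ (a : Fin 3 → ℝ) (c : Fin 3 → ℝ) (_ : a ⬝ᵥ a = 1 ∧ c ⬝ᵥ c = 1 ∧ a ⬝ᵥ c = 0),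
            volume ((fun p : Fin 3 → ℝ => (a ⬝ᵥ p, c ⬝ᵥ p)) '' K)) ≤ ∑ i, volume (B i) := by
  have first : ENNReal.ofReal (5 / 12) ≤ ∑ i, volume (B i) /
      volume ((fun p : Fin 3 → ℝ => (e i ⬝ᵥ p, f i ⬝ᵥ p)) '' K) :=
    sym_linear_centre hK hKc hKi o hsym (fun i => dotPair (e i) (f i))
      (fun i => dotPair_surjective (hef i)) B hcov
  refine ⟨first, ?_⟩
  set A := ⨅ (a : Fin 3 → ℝ) (c : Fin 3 → ℝ) (_ : a ⬝ᵥ a = 1 ∧ c ⬝ᵥ c = 1 ∧ a ⬝ᵥ c = 0),
    volume ((fun p : Fin 3 → ℝ => (a ⬝ᵥ p, c ⬝ᵥ p)) '' K) with hA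
  have hAle : ∀ i, A ≤ volume ((fun p : Fin 3 → ℝ => (e i ⬝ᵥ p, f i ⬝ᵥ p)) '' K) := fun i =>
    iInf_le_of_le (e i) (iInf_le_of_le (f i) (iInf_le _ (hef i)))
  have h3 : ∑ i, volume (B i) /
      volume ((fun p : Fin 3 → ℝ => (e i ⬝ᵥ p, f i ⬝ᵥ p)) '' K) ≤ (∑ i, volume (B i)) / A := by
    have h4 : (∑ i, volume (B i)) / A = ∑ i, volume (B i) / A := by
      simp only [div_eq_mul_inv, Finset.sum_mul]
    rw [h4]
    exact Finset.sum_le_sum fun i _ => ENNReal.div_le_div_left (hAle i) _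
  exact ENNReal.mul_le_of_le_div (first.trans h3)

end Vale.Agent.Lib.P243
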