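import Vale.Agent.Lib.P243.SymPlanar

/-!
# P243: centrally symmetric bodies, the model situation

`K` is a compact convex set in `(ℝ × ℝ) × ℝ`, symmetric about the origin, with the origin in
its interior.  We integrate the density `1/2 + gauge K` over the part of `K` inside a vertical
cylinder `Prod.fst ⁻¹' B` and bound the result by `3 |K| |B ∩ D| / |D|`, `D` the projection.
-/

namespace Vale.Agent.Lib.P243

open MeasureTheory Set Pointwise

/-- Integral of an affine function. -/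
theorem integral_affine (a b c m : ℝ) :
    ∫ t in a..b, (c + m * (t - a)) = (b - a) * c + m * (b - a) ^ 2 / 2 := by
  have hderiv : ∀ t ∈ uIcc a b,
      HasDerivAt (fun t : ℝ => c * (t - a) + m * (t - a) ^ 2 / 2) (c + m * (t - a)) t := by
    intro t _
    have h1 : HasDerivAt (fun t : ℝ => t - a) 1 t := (hasDerivAt_id t).sub_const a
    have h2 := (h1.const_mul c).add (((h1.pow 2).const_mul m).div_const 2)
    refine h2.congr_deriv ?_
    push_cast
    ring
  rw [intervalIntegral.integral_eq_sub_of_hasDerivAt hderiv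
    (Continuous.intervalIntegrable (by fun_prop) _ _)]
  ring

/-- Upper Hermite-Hadamard inequality. -/
theorem integral_le_of_convex {g : ℝ → ℝ} (hg : ConvexOn ℝ univ g) (hgc : Continuous g)
    {a b : ℝ} (hab : a ≤ b) : ∫ t in a..b, g t ≤ (b - a) * (g a + g b) / 2 := by
  rcases hab.eq_or_lt with h | h
  · rw [h]
    simp
  have hba : 0 < b - a := by linarith
  have hle : ∀ t ∈ Icc a b, g t ≤ g a + (g b - g a) / (b - a) * (t - a) := by
    intro t ht
    have h1 := hg.2 (mem_univ a) (mem_univ b) (div_nonneg (sub_nonneg.mpr ht.2) hba.le)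
      (div_nonneg (sub_nonneg.mpr ht.1) hba.le) (by field_simp; ring)
    have e : ((b - t) / (b - a)) • a + ((t - a) / (b - a)) • b = t := by
      simp only [smul_eq_mul]
      field_simp
      ring
    rw [e] at h1
    simp only [smul_eq_mul] at h1
    have e2 : (b - t) / (b - a) * g a + (t - a) / (b - a) * g b =
        g a + (g b - g a) / (b - a) * (t - a) := by
      field_simp
      ring
    linarith
  calc ∫ t in a..b, g t ≤ ∫ t in a..b, (g a + (g b - g a) / (b - a) * (t - a)) :=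
        intervalIntegral.integral_mono_on hab (hgc.intervalIntegrable _ _)
          (Continuous.intervalIntegrable (by fun_prop) _ _) hle
    _ = (b - a) * (g a + g b) / 2 := by
        rw [integral_affine]
        field_simp
        ring

/-- A convex function on a segment, at most `1` at the ends and equal to `ρ` somewhere. -/
theorem integral_chord_le {g : ℝ → ℝ} (hg : ConvexOn ℝ univ g) (hgc : Continuous g)
    {α β z ρ : ℝ} (hαz : α ≤ z) (hzβ : z ≤ β) (hα1 : g α ≤ 1) (hβ1 : g β ≤ 1) (hρ : g z = ρ) :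
    ∫ t in α..β, (1 / 2 + g t) ≤ (β - α) * (1 + ρ / 2) := by
  have h1 := integral_le_of_convex hg hgc hαz
  have h2 := integral_le_of_convex hg hgc hzβ
  have hsplit : ∫ t in α..β, g t = (∫ t in α..z, g t) + ∫ t in z..β, g t :=
    (intervalIntegral.integral_add_adjacent_intervals (hgc.intervalIntegrable _ _)
      (hgc.intervalIntegrable _ _)).symm
  rw [intervalIntegral.integral_add (by simp) (hgc.intervalIntegrable _ _),
    intervalIntegral.integral_const, hsplit]
  rw [hρ] at h1 h2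
  simp only [smul_eq_mul]
  have h3 : (z - α) * g α ≤ (z - α) * 1 := mul_le_mul_of_nonneg_left hα1 (sub_nonneg.mpr hαz)
  have h4 : (β - z) * g β ≤ (β - z) * 1 := mul_le_mul_of_nonneg_left hβ1 (sub_nonneg.mpr hzβ)
  nlinarith

section model

variable {K : Set ((ℝ × ℝ) × ℝ)}

/-- The roof inequality: a symmetric convex body with a chord of length `h` over a point `x`
of its shadow `D` has volume at least `h |D| (1/3 + ρ/6)`, where `ρ` measures how far `x` is
from the centre of `D`. -/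
theorem roof_volume (hK : Convex ℝ K) (hKc : IsCompact K) (hsym : ∀ p ∈ K, -p ∈ K)
    {x : ℝ × ℝ} {ρ : ℝ} (hρ : 0 ≤ ρ) (hx : ∀ c : ℝ, c • x ∈ Prod.fst '' K → c * ρ ≤ 1) :
    ENNReal.ofReal ((volume (Prod.mk x ⁻¹' K)).toReal * (1 / 3 + ρ / 6)) *
      volume (Prod.fst '' K) ≤ volume K := by
  set D : Set (ℝ × ℝ) := Prod.fst '' K with hD
  have hDc : IsCompact D := hKc.image continuous_fst
  have hDfin : volume D ≠ ⊤ := hDc.measure_lt_top.ne
  have hKm : MeasurableSet K := hKc.measurableSet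
  have hKb : Bornology.IsBounded K := hKc.isBounded
  have fb : ∀ p : ℝ × ℝ, Bornology.IsBounded (Prod.mk p ⁻¹' K) := fun p =>
    (LipschitzWith.prod_snd.isBounded_image hKb).subset fun z hz => ⟨(p, z), hz, rfl⟩
  have ffin : ∀ p : ℝ × ℝ, volume (Prod.mk p ⁻¹' K) ≠ ⊤ := fun p => (fb p).measure_lt_top.ne
  set ℓ : ℝ × ℝ → ℝ := fun p => (volume (Prod.mk p ⁻¹' K)).toReal with hℓ
  have hℓm : Measurable ℓ := (measurable_measure_prodMk_left hKm).ennreal_toReal
  have hℓ0 : ∀ p, 0 ≤ ℓ p := fun p => ENNReal.toReal_nonneg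
  have hℓof : ∀ p, ENNReal.ofReal (ℓ p) = volume (Prod.mk p ⁻¹' K) := fun p =>
    ENNReal.ofReal_toReal (ffin p)
  have fne : ∀ p, 0 < ℓ p → (Prod.mk p ⁻¹' K).Nonempty := by
    intro p h
    by_contra hne
    rw [not_nonempty_iff_eq_empty] at hne
    rw [hℓ] at h
    simp only [hne, measure_empty, ENNReal.toReal_zero, lt_self_iff_false] at h
  have volK : volume K = ∫⁻ p, ENNReal.ofReal (ℓ p) := by
    rw [Measure.volume_eq_prod, Measure.prod_apply hKm]
    exact lintegral_congr fun p => (hℓof p).symm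
  have lcK : ∫⁻ p, ENNReal.ofReal (ℓ p) = ∫⁻ t in Ioi 0, volume {p | t ≤ ℓ p} :=
    lintegral_eq_lintegral_meas_le volume (Filter.Eventually.of_forall hℓ0) hℓm.aemeasurable
  have conc : ∀ {w w' : ℝ}, 0 ≤ w → 0 ≤ w' → w + w' = 1 → ∀ p q : ℝ × ℝ,
      (Prod.mk p ⁻¹' K).Nonempty → (Prod.mk q ⁻¹' K).Nonempty →
      w * ℓ p + w' * ℓ q ≤ ℓ (w • p + w' • q) := by
    intro w w' hw hw' hww' p q hp hq
    have h := fibre_combo hK hK (fb p) (fb q) hp hq hw hw' hww'
      (fun x hx y hy => hK hx hy hw hw' hww')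
    have h' := ENNReal.toReal_mono (ffin _) h
    rw [ENNReal.toReal_add (ENNReal.mul_ne_top ENNReal.ofReal_ne_top (ffin p))
      (ENNReal.mul_ne_top ENNReal.ofReal_ne_top (ffin q)), ENNReal.toReal_mul,
      ENNReal.toReal_mul, ENNReal.toReal_ofReal hw, ENNReal.toReal_ofReal hw'] at h'
    exact h'
  have hDconv : Convex ℝ D := by
    have := hK.linear_image (LinearMap.fst ℝ (ℝ × ℝ) ℝ)
    exact this
  have hDsym : ∀ p ∈ D, -p ∈ D := by
    rintro _ ⟨q, hq, rfl⟩
    exact ⟨-q, hsym q hq, rfl⟩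
  set h := ℓ x with hh
  change ENNReal.ofReal (h * (1 / 3 + ρ / 6)) * volume D ≤ volume K
  rcases (hℓ0 x).eq_or_lt with h0 | hpos
  · have hz : h = 0 := h0.symm
    rw [hz]
    simp
  have hpos' : 0 < h := hpos
  have hh0 : h ≠ 0 := hpos.ne'
  have hneg : ℓ (-x) = h := by
    have e : Prod.mk (-x) ⁻¹' K = -(Prod.mk x ⁻¹' K) := by
      ext z
      simp only [mem_preimage, Set.mem_neg]
      constructor
      · intro hz
        have := hsym _ hz
        simpa using this
      · intro hz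
        have := hsym _ hz
        simpa using this
    show (volume (Prod.mk (-x) ⁻¹' K)).toReal = _
    rw [e, Measure.measure_neg]
  have hseg : ∀ c : ℝ, |c| ≤ 1 → h ≤ ℓ (c • x) := by
    intro c hc
    obtain ⟨hc1, hc2⟩ := abs_le.mp hc
    have h1 := conc (w := (1 + c) / 2) (w' := (1 - c) / 2) (by linarith) (by linarith) (by ring)
      x (-x) (fne x hpos) (fne (-x) (by rw [hneg]; exact hpos))
    rw [hneg] at h1
    have e : ((1 + c) / 2) • x + ((1 - c) / 2) • (-x) = c • x := by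
      rw [smul_neg, ← sub_eq_add_neg, ← sub_smul]
      congr 1
      ring
    rw [e] at h1
    have : (1 + c) / 2 * h + (1 - c) / 2 * h = h := by ring
    linarith
  have hlevel : ∀ t ∈ Ioc 0 h,
      ENNReal.ofReal ((1 - t / h) ^ 2 + (1 - t / h) * (t / h) * ρ) * volume D ≤
        volume {p | t ≤ ℓ p} := by
    intro t ht
    have hth : 0 < t / h := div_pos ht.1 hpos
    have hth1 : t / h ≤ 1 := (div_le_one hpos).mpr ht.2
    have hs0 : 0 ≤ 1 - t / h := by linarith
    have hs1 : 1 - t / h ≤ 1 := by linarith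
    have key := planar_roof hDconv hDc hDsym (x := x) (ρ := ρ) (s := 1 - t / h)
      (E := {p | t ≤ ℓ p}) hρ hs0 hs1 hx ?_
    · have e : 1 - (1 - t / h) = t / h := by ring
      rw [e] at key
      exact key
    intro y hy c hc
    have hc' : |c| ≤ t / h := by linarith
    set c' := c / (t / h) with hc'def
    have hc'1 : |c'| ≤ 1 := by
      rw [hc'def, abs_div, abs_of_pos hth]
      exact (div_le_one hth).mpr hc'
    obtain ⟨z, hz⟩ : (Prod.mk y ⁻¹' K).Nonempty := by
      obtain ⟨q, hq, rfl⟩ := hy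
      exact ⟨q.2, hq⟩
    have hl := hseg c' hc'1
    have h1 := conc (w := 1 - t / h) (w' := t / h) hs0 hth.le (by ring) y (c' • x) ⟨z, hz⟩
      (fne _ (hpos.trans_le hl))
    have ht0 : t ≠ 0 := ht.1.ne'
    have e : (t / h) • c' • x = c • x := by
      rw [smul_smul]
      congr 1
      rw [hc'def]
      field_simp
    rw [e] at h1
    show t ≤ ℓ ((1 - t / h) • y + c • x)
    have h2 : 0 ≤ (1 - t / h) * ℓ y := mul_nonneg hs0 (hℓ0 y)
    have h3 : t / h * h ≤ t / h * ℓ (c' • x) := mul_le_mul_of_nonneg_left hl hth.le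
    have h4 : t / h * h = t := by field_simp
    linarith
  have hq : ∫⁻ t in Ioc 0 h, ENNReal.ofReal ((1 - t / h) ^ 2 + (1 - t / h) * (t / h) * ρ) =
      ENNReal.ofReal (h * (1 / 3 + ρ / 6)) := by
    have hcont : Continuous fun t : ℝ => (1 - t / h) ^ 2 + (1 - t / h) * (t / h) * ρ := by
      fun_prop
    have hint : IntegrableOn (fun t : ℝ => (1 - t / h) ^ 2 + (1 - t / h) * (t / h) * ρ)
        (Ioc 0 h) := (hcont.integrableOn_Icc).mono_set Ioc_subset_Icc_self
    have hnn : 0 ≤ᵐ[volume.restrict (Ioc 0 h)]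
        fun t : ℝ => (1 - t / h) ^ 2 + (1 - t / h) * (t / h) * ρ := by
      refine (ae_restrict_iff' measurableSet_Ioc).mpr (Filter.Eventually.of_forall fun t ht => ?_)
      have hth : 0 < t / h := div_pos ht.1 hpos
      have hth1 : t / h ≤ 1 := (div_le_one hpos).mpr ht.2
      have : 0 ≤ (1 - t / h) * (t / h) * ρ :=
        mul_nonneg (mul_nonneg (by linarith) hth.le) hρ
      show 0 ≤ (1 - t / h) ^ 2 + (1 - t / h) * (t / h) * ρ
      positivity
    rw [← ofReal_integral_eq_lintegral_ofReal hint hnn, ← intervalIntegral.integral_of_le hpos.le]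
    congr 1
    have hderiv : ∀ t ∈ uIcc 0 h,
        HasDerivAt (fun t : ℝ => -(h / 3) * (1 - t / h) ^ 3 +
            ρ * (t ^ 2 / (2 * h) - t ^ 3 / (3 * h ^ 2)))
          ((1 - t / h) ^ 2 + (1 - t / h) * (t / h) * ρ) t := by
      intro t _
      have h1 : HasDerivAt (fun t : ℝ => 1 - t / h) (-(1 / h)) t := by
        have := ((hasDerivAt_id t).div_const h).const_sub 1
        simpa using this
      have hp2 : HasDerivAt (fun t : ℝ => t ^ 2) (2 * t) t := by
        have := hasDerivAt_pow 2 t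
        simpa using this
      have hp3 : HasDerivAt (fun t : ℝ => t ^ 3) (3 * t ^ 2) t := by
        have := hasDerivAt_pow 3 t
        simpa using this
      have h2 := ((h1.pow 3).const_mul (-(h / 3))).add
        (((hp2.div_const (2 * h)).sub (hp3.div_const (3 * h ^ 2))).const_mul ρ)
      refine h2.congr_deriv ?_
      push_cast
      field_simp
    rw [intervalIntegral.integral_eq_sub_of_hasDerivAt hderiv (hcont.intervalIntegrable _ _)]
    field_simp
    ring
  rw [volK, lcK]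
  calc ENNReal.ofReal (h * (1 / 3 + ρ / 6)) * volume D
      = ∫⁻ t in Ioc 0 h,
          ENNReal.ofReal ((1 - t / h) ^ 2 + (1 - t / h) * (t / h) * ρ) * volume D := by
        rw [lintegral_mul_const' _ _ hDfin, hq]
    _ ≤ ∫⁻ t in Ioc 0 h, volume {p | t ≤ ℓ p} := setLIntegral_mono' measurableSet_Ioc hlevel
    _ ≤ ∫⁻ t in Ioi 0, volume {p | t ≤ ℓ p} := lintegral_mono_set Ioc_subset_Ioi_self

/-- The gauge of a convex neighbourhood of zero is convex along vertical lines. -/
theorem gauge_line_convex (hK : Convex ℝ K) (hK0 : K ∈ nhds (0 : (ℝ × ℝ) × ℝ)) (x : ℝ × ℝ) :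
    ConvexOn ℝ univ fun z : ℝ => gauge K (x, z) := by
  refine ⟨convex_univ, fun z _ w _ a b ha hb hab => ?_⟩
  have e : (x, a • z + b • w) = a • (x, z) + b • (x, w) := by
    refine Prod.ext ?_ ?_
    · simp only [Prod.smul_mk, Prod.mk_add_mk]
      rw [← add_smul, hab, one_smul]
    · simp
  show gauge K (x, a • z + b • w) ≤ a • gauge K (x, z) + b • gauge K (x, w)
  rw [e]
  refine (gauge_add_le hK (absorbent_nhds_zero hK0) _ _).trans ?_
  rw [gauge_smul_of_nonneg ha, gauge_smul_of_nonneg hb]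

/-- Along every vertical chord of `K` the integral of `1/2 + gauge K` is at most
`3 |K| / |D|`. -/
theorem line_le (hK : Convex ℝ K) (hKc : IsCompact K) (hsym : ∀ p ∈ K, -p ∈ K)
    (hK0 : K ∈ nhds (0 : (ℝ × ℝ) × ℝ)) (x : ℝ × ℝ) (hx : x ∈ Prod.fst '' K) :
    (∫⁻ z in Prod.mk x ⁻¹' K, ENNReal.ofReal (1 / 2 + gauge K (x, z))) *
      volume (Prod.fst '' K) ≤ ENNReal.ofReal 3 * volume K := by
  have hne : (Prod.mk x ⁻¹' K).Nonempty := by
    obtain ⟨q, hq, rfl⟩ := hx
    exact ⟨q.2, hq⟩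
  have hIcc := fibre_eq_Icc hK hKc x hne
  set α := sInf (Prod.mk x ⁻¹' K) with hα
  set β := sSup (Prod.mk x ⁻¹' K) with hβ
  have hαβ : α ≤ β := by
    obtain ⟨z, hz⟩ := hne
    rw [hIcc] at hz
    exact hz.1.trans hz.2
  set g : ℝ → ℝ := fun z => gauge K (x, z) with hg
  have hgc : Continuous g := (continuous_gauge hK hK0).comp (by fun_prop)
  have hgconv : ConvexOn ℝ univ g := gauge_line_convex hK hK0 x
  have hg1 : ∀ z ∈ Icc α β, g z ≤ 1 := by
    intro z hz
    rw [← hIcc] at hz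
    exact gauge_le_one_of_mem hz
  obtain ⟨zs, hzs, hmin⟩ := isCompact_Icc.exists_isMinOn (nonempty_Icc.mpr hαβ) hgc.continuousOn
  set ρ := g zs with hρ
  have hρ0 : 0 ≤ ρ := gauge_nonneg _
  have hρ1 : ρ ≤ 1 := hg1 zs hzs
  have h0K : (0 : (ℝ × ℝ) × ℝ) ∈ K := mem_of_mem_nhds hK0
  have hxρ : ∀ c : ℝ, c • x ∈ Prod.fst '' K → c * ρ ≤ 1 := by
    rintro c ⟨q, hq, hqx⟩
    rcases le_or_gt c 1 with hc | hc
    · calc c * ρ ≤ 1 * ρ := mul_le_mul_of_nonneg_right hc hρ0
        _ ≤ 1 := by linarith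
    · have hcpos : 0 < c := by linarith
      have hmem : (c⁻¹ : ℝ) • q ∈ K :=
        hK.smul_mem_of_zero_mem h0K hq ⟨by positivity, inv_le_one_of_one_le₀ hc.le⟩
      have hq' : (c⁻¹ : ℝ) • q = (x, c⁻¹ * q.2) := by
        refine Prod.ext ?_ ?_
        · show c⁻¹ • q.1 = x
          rw [hqx, smul_smul, inv_mul_cancel₀ hcpos.ne', one_smul]
        · rfl
      have hz : c⁻¹ * q.2 ∈ Icc α β := by
        rw [← hIcc]
        show (x, c⁻¹ * q.2) ∈ K
        rw [← hq']
        exact hmem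
      have h1 : ρ ≤ g (c⁻¹ * q.2) := hmin hz
      have h2 : g (c⁻¹ * q.2) ≤ c⁻¹ := by
        show gauge K (x, c⁻¹ * q.2) ≤ c⁻¹
        rw [← hq']
        exact gauge_le_of_mem (by positivity) (smul_mem_smul_set hq)
      have h3 : c * ρ ≤ c * c⁻¹ := mul_le_mul_of_nonneg_left (h1.trans h2) hcpos.le
      rwa [mul_inv_cancel₀ hcpos.ne'] at h3
  have roof := roof_volume hK hKc hsym hρ0 hxρ
  have hvol : (volume (Prod.mk x ⁻¹' K)).toReal = β - α := by
    rw [hIcc, Real.volume_Icc, ENNReal.toReal_ofReal (by linarith)]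
  rw [hvol] at roof
  have hint : ∫⁻ z in Prod.mk x ⁻¹' K, ENNReal.ofReal (1 / 2 + gauge K (x, z)) ≤
      ENNReal.ofReal ((β - α) * (1 + ρ / 2)) := by
    rw [hIcc]
    have hcont : Continuous fun z : ℝ => 1 / 2 + g z := by fun_prop
    have hnn : 0 ≤ᵐ[volume.restrict (Ioc α β)] fun z : ℝ => 1 / 2 + g z :=
      Filter.Eventually.of_forall fun z => by
        show 0 ≤ 1 / 2 + g z
        have : 0 ≤ g z := gauge_nonneg _
        linarith
    rw [← setLIntegral_congr Ioc_ae_eq_Icc]
    show ∫⁻ z in Ioc α β, ENNReal.ofReal (1 / 2 + g z) ≤ _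
    rw [← ofReal_integral_eq_lintegral_ofReal
      (hcont.integrableOn_Icc.mono_set Ioc_subset_Icc_self) hnn,
      ← intervalIntegral.integral_of_le hαβ]
    exact ENNReal.ofReal_le_ofReal (integral_chord_le hgconv hgc hzs.1 hzs.2
      (hg1 α ⟨le_rfl, hαβ⟩) (hg1 β ⟨hαβ, le_rfl⟩) rfl)
  calc (∫⁻ z in Prod.mk x ⁻¹' K, ENNReal.ofReal (1 / 2 + gauge K (x, z))) *
        volume (Prod.fst '' K)
      ≤ ENNReal.ofReal ((β - α) * (1 + ρ / 2)) * volume (Prod.fst '' K) := by gcongr
    _ = ENNReal.ofReal 3 *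
          (ENNReal.ofReal ((β - α) * (1 / 3 + ρ / 6)) * volume (Prod.fst '' K)) := by
        rw [← mul_assoc, ← ENNReal.ofReal_mul (by norm_num)]
        congr 2
        ring
    _ ≤ ENNReal.ofReal 3 * volume K := by gcongr

/-- The model inequality: the part of `K` inside the vertical cylinder over `B`, weighted by
`1/2 + gauge K`, is at most `3 |K| |B ∩ D| / |D|`. -/
theorem sym_model (hK : Convex ℝ K) (hKc : IsCompact K) (hsym : ∀ p ∈ K, -p ∈ K)
    (hK0 : K ∈ nhds (0 : (ℝ × ℝ) × ℝ)) {B : Set (ℝ × ℝ)} (hB : MeasurableSet B) :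
    (∫⁻ p in K ∩ Prod.fst ⁻¹' B, ENNReal.ofReal (1 / 2 + gauge K p)) *
      volume (Prod.fst '' K) ≤ ENNReal.ofReal 3 * volume K * volume (B ∩ Prod.fst '' K) := by
  set D : Set (ℝ × ℝ) := Prod.fst '' K with hD
  have hDc : IsCompact D := hKc.image continuous_fst
  have hDfin : volume D ≠ ⊤ := hDc.measure_lt_top.ne
  set f : (ℝ × ℝ) × ℝ → ENNReal := fun p => ENNReal.ofReal (1 / 2 + gauge K p) with hf
  have hfm : Measurable f :=
    (measurable_const.add (continuous_gauge hK hK0).measurable).ennreal_ofReal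
  have hSm : MeasurableSet (K ∩ Prod.fst ⁻¹' B) :=
    hKc.measurableSet.inter (hB.preimage measurable_fst)
  have hprod : (volume : Measure ((ℝ × ℝ) × ℝ)) =
      (volume : Measure (ℝ × ℝ)).prod (volume : Measure ℝ) := Measure.volume_eq_prod _ _
  have key : ∫⁻ p in K ∩ Prod.fst ⁻¹' B, f p =
      ∫⁻ x, ∫⁻ z, (K ∩ Prod.fst ⁻¹' B).indicator f (x, z) := by
    rw [← lintegral_indicator hSm, hprod]
    exact lintegral_prod _ (hfm.indicator hSm).aemeasurable
  have hinner : ∀ x : ℝ × ℝ, (∫⁻ z, (K ∩ Prod.fst ⁻¹' B).indicator f (x, z)) * volume D ≤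
      (B ∩ D).indicator (fun _ => ENNReal.ofReal 3 * volume K) x := by
    intro x
    by_cases hx : x ∈ B ∩ D
    · rw [indicator_of_mem hx]
      have e : ∀ z, (K ∩ Prod.fst ⁻¹' B).indicator f (x, z) =
          (Prod.mk x ⁻¹' K).indicator (fun z => f (x, z)) z := by
        intro z
        by_cases hz : (x, z) ∈ K
        · rw [indicator_of_mem (show (x, z) ∈ K ∩ Prod.fst ⁻¹' B from ⟨hz, hx.1⟩),
            indicator_of_mem (show z ∈ Prod.mk x ⁻¹' K from hz)]
        · rw [indicator_of_notMem (fun h => hz h.1),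
            indicator_of_notMem (show z ∉ Prod.mk x ⁻¹' K from hz)]
      rw [lintegral_congr e, lintegral_indicator (hKc.measurableSet.preimage (by fun_prop))]
      exact line_le hK hKc hsym hK0 x hx.2
    · rw [indicator_of_notMem hx]
      have e : ∀ z, (K ∩ Prod.fst ⁻¹' B).indicator f (x, z) = 0 := by
        intro z
        exact indicator_of_notMem (fun h => hx ⟨h.2, ⟨(x, z), h.1, rfl⟩⟩) _
      rw [lintegral_congr e]
      simp
  show (∫⁻ p in K ∩ Prod.fst ⁻¹' B, f p) * volume D ≤ _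
  rw [key]
  calc (∫⁻ x, ∫⁻ z, (K ∩ Prod.fst ⁻¹' B).indicator f (x, z)) * volume D
      = ∫⁻ x, (∫⁻ z, (K ∩ Prod.fst ⁻¹' B).indicator f (x, z)) * volume D :=
        (lintegral_mul_const' _ _ hDfin).symm
    _ ≤ ∫⁻ x, (B ∩ D).indicator (fun _ => ENNReal.ofReal 3 * volume K) x :=
        lintegral_mono hinner
    _ = ENNReal.ofReal 3 * volume K * volume (B ∩ D) := by
        rw [lintegral_indicator (hB.inter hDc.measurableSet), setLIntegral_const]

end model

end Vale.Agent.Lib.P243
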