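import Vale.Agent.Lib.P243.Many

/-!
# P243: planar lemmas for centrally symmetric bodies

Thickening a planar convex set along a direction in which all its chords are short, and the
resulting lower bound for the area of `s D + [-(1-s) x, (1-s) x]` for a symmetric planar
convex set `D`.
-/

namespace Vale.Agent.Lib.P243

open MeasureTheory Set Pointwise

/-- Nonempty fibres of compact convex sets are compact intervals. -/
theorem fibre_eq_Icc {F : Type*} [NormedAddCommGroup F] [NormedSpace ℝ F] {S : Set (F × ℝ)}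
    (hS : Convex ℝ S) (hSc : IsCompact S) (x : F) (hne : (Prod.mk x ⁻¹' S).Nonempty) :
    Prod.mk x ⁻¹' S = Icc (sInf (Prod.mk x ⁻¹' S)) (sSup (Prod.mk x ⁻¹' S)) := by
  have hcl : IsClosed (Prod.mk x ⁻¹' S) := hSc.isClosed.preimage (by fun_prop)
  have hsub : Prod.mk x ⁻¹' S ⊆ Prod.snd '' S := fun z hz => ⟨(x, z), hz, rfl⟩
  have hc : IsCompact (Prod.mk x ⁻¹' S) := (hSc.image continuous_snd).of_isClosed_subset hcl hsub
  exact eq_Icc_of_connected_compact ⟨hne, (fibre_convex hS x).isPreconnected⟩ hc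

/-- If all vertical chords of a planar compact convex set `D` have length at most `2m`, then
the set obtained by moving `D` vertically by at most `τ` has area at least `(1 + τ/m)|D|`. -/
theorem planar_thicken {D E : Set (ℝ × ℝ)} (hD : Convex ℝ D) (hDc : IsCompact D) {m τ : ℝ}
    (hm : 0 < m) (hτ : 0 ≤ τ)
    (hfib : ∀ a, volume (Prod.mk a ⁻¹' D) ≤ ENNReal.ofReal (2 * m))
    (hE : ∀ a z c, (a, z) ∈ D → |c| ≤ τ → (a, z + c) ∈ E) :
    ENNReal.ofReal (1 + τ / m) * volume D ≤ volume E := by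
  set G : Set (ℝ × ℝ) :=
    (fun q : (ℝ × ℝ) × ℝ => (q.1.1, q.1.2 + q.2)) '' (D ×ˢ Icc (-τ) τ) with hG
  have hGc : IsCompact G := (hDc.prod isCompact_Icc).image (by fun_prop)
  have hGE : G ⊆ E := by
    rintro _ ⟨⟨⟨a, z⟩, c⟩, ⟨h1, h2⟩, rfl⟩
    exact hE a z c h1 (abs_le.mpr h2)
  refine le_trans ?_ (measure_mono hGE)
  rw [Measure.volume_eq_prod, Measure.prod_apply hGc.measurableSet,
    Measure.prod_apply hDc.measurableSet, ← lintegral_const_mul' _ _ ENNReal.ofReal_ne_top]
  refine lintegral_mono fun a => ?_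
  by_cases hne : (Prod.mk a ⁻¹' D).Nonempty
  · have hIcc := fibre_eq_Icc hD hDc a hne
    set α := sInf (Prod.mk a ⁻¹' D) with hα
    set β := sSup (Prod.mk a ⁻¹' D) with hβ
    have hαβ : α ≤ β := by
      obtain ⟨z, hz⟩ := hne
      rw [hIcc] at hz
      exact hz.1.trans hz.2
    have hlen : β - α ≤ 2 * m := by
      have h := hfib a
      rw [hIcc, Real.volume_Icc] at h
      exact (ENNReal.ofReal_le_ofReal_iff (by positivity)).mp h
    have hsub : Icc (α - τ) (β + τ) ⊆ Prod.mk a ⁻¹' G := by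
      intro z' hz'
      have hz : max α (min β z') ∈ Prod.mk a ⁻¹' D := by
        rw [hIcc]
        exact ⟨le_max_left _ _, max_le hαβ (min_le_left _ _)⟩
      refine ⟨((a, max α (min β z')), z' - max α (min β z')), ⟨hz, ?_⟩, ?_⟩
      · constructor
        · rcases le_total α (min β z') with h | h
          · rw [max_eq_right h]
            linarith [min_le_right β z']
          · rw [max_eq_left h]
            linarith [hz'.1]
        · rcases le_total β z' with h | h
          · rw [min_eq_left h, max_eq_right hαβ]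
            linarith [hz'.2]
          · rw [min_eq_right h]
            linarith [le_max_right α z']
      · show (a, max α (min β z') + (z' - max α (min β z'))) = (a, z')
        rw [add_sub_cancel]
    calc ENNReal.ofReal (1 + τ / m) * volume (Prod.mk a ⁻¹' D)
        = ENNReal.ofReal ((1 + τ / m) * (β - α)) := by
          rw [hIcc, Real.volume_Icc, ← ENNReal.ofReal_mul (by positivity)]
      _ ≤ ENNReal.ofReal (β + τ - (α - τ)) := by
          refine ENNReal.ofReal_le_ofReal ?_
          have h1 : τ / m * (β - α) ≤ τ / m * (2 * m) :=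
            mul_le_mul_of_nonneg_left hlen (by positivity)
          have h2 : τ / m * (2 * m) = 2 * τ := by field_simp
          linarith
      _ = volume (Icc (α - τ) (β + τ)) := Real.volume_Icc.symm
      _ ≤ volume (Prod.mk a ⁻¹' G) := measure_mono hsub
  · rw [not_nonempty_iff_eq_empty.mp hne]
    simp

/-- Roof inequality in the plane: for a symmetric compact convex `D` and a point `x` with
`c x ∈ D → c ρ ≤ 1`, the set `s D + [-(1-s) x, (1-s) x]` has area at least
`(s² + s (1-s) ρ) |D|`. -/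
theorem planar_roof {D E : Set (ℝ × ℝ)} (hD : Convex ℝ D) (hDc : IsCompact D)
    (hsym : ∀ p ∈ D, -p ∈ D) {x : ℝ × ℝ} {ρ s : ℝ} (hρ : 0 ≤ ρ) (hs0 : 0 ≤ s) (hs1 : s ≤ 1)
    (hx : ∀ c : ℝ, c • x ∈ D → c * ρ ≤ 1)
    (hE : ∀ y ∈ D, ∀ c : ℝ, |c| ≤ 1 - s → s • y + c • x ∈ E) :
    ENNReal.ofReal (s ^ 2 + s * (1 - s) * ρ) * volume D ≤ volume E := by
  rcases D.eq_empty_or_nonempty with hemp | hne
  · rw [hemp, measure_empty, mul_zero]
    exact bot_le
  have h0D : (0 : ℝ × ℝ) ∈ D := by
    obtain ⟨y, hy⟩ := hne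
    have h := hD hy (hsym y hy) (by norm_num : (0 : ℝ) ≤ 1 / 2) (by norm_num : (0 : ℝ) ≤ 1 / 2)
      (by norm_num)
    simpa using h
  have hsD : volume (s • D) = ENNReal.ofReal (s ^ 2) * volume D := by
    rw [Measure.addHaar_smul_of_nonneg volume hs0]
    simp
  have hsDE : s • D ⊆ E := by
    rintro _ ⟨y, hy, rfl⟩
    have h := hE y hy 0 (by rw [abs_zero]; linarith)
    simpa using h
  rcases hρ.eq_or_lt with hρ0 | hρpos
  · rw [← hρ0, mul_zero, add_zero, ← hsD]
    exact measure_mono hsDE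
  rcases hs0.eq_or_lt with hs | hspos
  · rw [← hs]
    simp
  have hx0 : x ≠ 0 := by
    intro h
    have h2 := hx (2 / ρ) (by rw [h, smul_zero]; exact h0D)
    rw [div_mul_cancel₀ _ hρpos.ne'] at h2
    norm_num at h2
  obtain ⟨T, hT⟩ := SeparatingDual.exists_continuousLinearEquiv_apply_eq (R := ℝ) hx0
    (show ((0 : ℝ), (1 : ℝ)) ≠ 0 by simp)
  obtain ⟨c₀, hc0, hct, hc⟩ := exists_scale_equiv (volume : Measure (ℝ × ℝ))
    (volume : Measure (ℝ × ℝ)) T
  have hsDconv : Convex ℝ (s • D) := hD.smul s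
  have hsDc : IsCompact (s • D) := hDc.smul s
  have hD'conv : Convex ℝ (T '' (s • D)) := by
    have h := hsDconv.linear_image (T : (ℝ × ℝ) →ₗ[ℝ] ℝ × ℝ)
    exact h
  have hD'c : IsCompact (T '' (s • D)) := hsDc.image T.continuous
  have hfib : ∀ a, volume (Prod.mk a ⁻¹' (T '' (s • D))) ≤ ENNReal.ofReal (2 * (s / ρ)) := by
    intro a
    by_cases hne' : (Prod.mk a ⁻¹' (T '' (s • D))).Nonempty
    · have hIcc := fibre_eq_Icc hD'conv hD'c a hne'
      set α := sInf (Prod.mk a ⁻¹' (T '' (s • D))) with hα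
      set β := sSup (Prod.mk a ⁻¹' (T '' (s • D))) with hβ
      have hαβ : α ≤ β := by
        obtain ⟨z, hz⟩ := hne'
        rw [hIcc] at hz
        exact hz.1.trans hz.2
      have hαm : α ∈ Prod.mk a ⁻¹' (T '' (s • D)) := by
        rw [hIcc]
        exact ⟨le_rfl, hαβ⟩
      have hβm : β ∈ Prod.mk a ⁻¹' (T '' (s • D)) := by
        rw [hIcc]
        exact ⟨hαβ, le_rfl⟩
      obtain ⟨_, ⟨y₁, hy₁, rfl⟩, h1⟩ := hαm
      obtain ⟨_, ⟨y₂, hy₂, rfl⟩, h2⟩ := hβm
      have hmid : (1 / 2 : ℝ) • y₂ + (1 / 2 : ℝ) • (-y₁) ∈ D :=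
        hD hy₂ (hsym y₁ hy₁) (by norm_num) (by norm_num) (by norm_num)
      have e : (1 / 2 : ℝ) • y₂ + (1 / 2 : ℝ) • (-y₁) = ((β - α) / (2 * s)) • x := by
        apply T.injective
        have e1 : T ((1 / 2 : ℝ) • y₂ + (1 / 2 : ℝ) • (-y₁)) =
            (1 / (2 * s)) • (T (s • y₂) - T (s • y₁)) := by
          have hs2 : 1 / (2 * s) * s = 1 / 2 := by field_simp
          rw [map_add, map_smul, map_smul, map_neg, map_smul, map_smul, smul_sub, smul_smul,
            smul_smul, hs2, smul_neg, sub_eq_add_neg]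
        rw [e1, h1, h2, map_smul, hT]
        ext
        · simp
        · simp only [Prod.smul_mk, Prod.mk_sub_mk, smul_eq_mul, mul_one]
          ring
      rw [e] at hmid
      have h3 := hx _ hmid
      rw [hIcc, Real.volume_Icc]
      refine ENNReal.ofReal_le_ofReal ?_
      have h4 : (β - α) * ρ ≤ 2 * s := by
        have : (β - α) / (2 * s) * ρ = (β - α) * ρ / (2 * s) := by ring
        rw [this, div_le_one (by positivity)] at h3
        exact h3
      rw [show 2 * (s / ρ) = 2 * s / ρ by ring, le_div_iff₀ hρpos]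
      exact h4
    · rw [not_nonempty_iff_eq_empty.mp hne']
      simp
  have hE' : ∀ a z c, (a, z) ∈ T '' (s • D) → |c| ≤ 1 - s → (a, z + c) ∈ T '' E := by
    rintro a z c ⟨_, ⟨y, hy, rfl⟩, h1⟩ hc'
    refine ⟨s • y + c • x, hE y hy c hc', ?_⟩
    rw [map_add, map_smul _ c, hT, h1]
    ext <;> simp
  have main := planar_thicken hD'conv hD'c (div_pos hspos hρpos) (by linarith : 0 ≤ 1 - s)
    hfib hE'
  rw [hc, hc, hsD, ← mul_assoc, ← mul_assoc, mul_comm _ c₀, mul_assoc, mul_assoc] at main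
  have main' := (ENNReal.mul_le_mul_iff_right hc0 hct).mp main
  refine le_trans (le_of_eq ?_) main'
  rw [← mul_assoc, ← ENNReal.ofReal_mul (by
    have : 0 ≤ (1 - s) / (s / ρ) := div_nonneg (by linarith) (div_pos hspos hρpos).le
    linarith)]
  congr 2
  field_simp

end Vale.Agent.Lib.P243
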