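import Vale.Agent.Lib.P243.Many

/-!
# P243: the standard tetrahedron and its central octahedron in chart coordinates

In the coordinates `((y₁, y₂), t)` the standard tetrahedron is `y₁, y₂, t ≥ 0`,
`y₁ + y₂ + t ≤ 1`; its four barycentric coordinates are `t`, `1 - y₁ - y₂ - t`, `y₁`, `y₂`,
and the central octahedron is the part where all four are at most `1/2`.  The lines
`y = const` are parallel to the edge joining the first two vertices.
-/

namespace Vale.Agent.Lib.P243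

open MeasureTheory Set

open scoped Pointwise

def tetStd : Set ((ℝ × ℝ) × ℝ) :=
  {z | 0 ≤ z.1.1 ∧ 0 ≤ z.1.2 ∧ 0 ≤ z.2 ∧ z.1.1 + z.1.2 + z.2 ≤ 1}

def octStd : Set ((ℝ × ℝ) × ℝ) :=
  {z | (0 ≤ z.1.1 ∧ z.1.1 ≤ 1 / 2) ∧ (0 ≤ z.1.2 ∧ z.1.2 ≤ 1 / 2) ∧ (0 ≤ z.2 ∧ z.2 ≤ 1 / 2) ∧
    1 / 2 ≤ z.1.1 + z.1.2 + z.2 ∧ z.1.1 + z.1.2 + z.2 ≤ 1}

def triStd : Set (ℝ × ℝ) := {y | 0 ≤ y.1 ∧ 0 ≤ y.2 ∧ y.1 + y.2 ≤ 1}

theorem isClosed_tetStd : IsClosed tetStd := by
  simp only [tetStd, ofPred_and]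
  exact (isClosed_le (by fun_prop) (by fun_prop)).inter
    ((isClosed_le (by fun_prop) (by fun_prop)).inter
      ((isClosed_le (by fun_prop) (by fun_prop)).inter (isClosed_le (by fun_prop) (by fun_prop))))

theorem isClosed_octStd : IsClosed octStd := by
  simp only [octStd, ofPred_and]
  exact ((isClosed_le (by fun_prop) (by fun_prop)).inter
      (isClosed_le (by fun_prop) (by fun_prop))).inter
    (((isClosed_le (by fun_prop) (by fun_prop)).inter
      (isClosed_le (by fun_prop) (by fun_prop))).inter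
      (((isClosed_le (by fun_prop) (by fun_prop)).inter
        (isClosed_le (by fun_prop) (by fun_prop))).inter
        ((isClosed_le (by fun_prop) (by fun_prop)).inter
          (isClosed_le (by fun_prop) (by fun_prop)))))

theorem isClosed_triStd : IsClosed triStd := by
  simp only [triStd, ofPred_and]
  exact (isClosed_le (by fun_prop) (by fun_prop)).inter
    ((isClosed_le (by fun_prop) (by fun_prop)).inter (isClosed_le (by fun_prop) (by fun_prop)))

theorem octStd_subset_tetStd : octStd ⊆ tetStd := by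
  intro z hz
  obtain ⟨⟨h1, _⟩, ⟨h2, _⟩, ⟨h3, _⟩, _, h5⟩ := hz
  exact ⟨h1, h2, h3, h5⟩

theorem volume_eq_lintegral_fibre {A : Set ((ℝ × ℝ) × ℝ)} (hA : MeasurableSet A) :
    volume A = ∫⁻ y, volume (Prod.mk y ⁻¹' A) := by
  rw [Measure.volume_eq_prod]
  exact Measure.prod_apply hA

/-- The part of the standard tetrahedron over a set `S` of the `y`-plane, plus the part of
the octahedron over `S`, has volume at most the area of `S` inside the triangle. -/
theorem std_le {S : Set (ℝ × ℝ)} (hS : MeasurableSet S) :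
    volume (tetStd ∩ Prod.fst ⁻¹' S) + volume (octStd ∩ Prod.fst ⁻¹' S) ≤
      volume (S ∩ triStd) := by
  have hm1 : MeasurableSet (tetStd ∩ Prod.fst ⁻¹' S) :=
    isClosed_tetStd.measurableSet.inter (measurable_fst hS)
  have hm2 : MeasurableSet (octStd ∩ Prod.fst ⁻¹' S) :=
    isClosed_octStd.measurableSet.inter (measurable_fst hS)
  rw [volume_eq_lintegral_fibre hm1, volume_eq_lintegral_fibre hm2,
    ← lintegral_add_left (measurable_measure_prodMk_left hm1),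
    ← lintegral_indicator_one (hS.inter isClosed_triStd.measurableSet)]
  refine lintegral_mono fun y => ?_
  by_cases hy : y ∈ S ∩ triStd
  · rw [indicator_of_mem hy, Pi.one_apply]
    obtain ⟨-, hy1, hy2, hy3⟩ := hy
    have h1 : Prod.mk y ⁻¹' (tetStd ∩ Prod.fst ⁻¹' S) ⊆ Icc 0 (1 - (y.1 + y.2)) := by
      rintro t ⟨⟨-, -, ht3, ht4⟩, -⟩
      simp only at ht3 ht4
      exact ⟨ht3, by linarith⟩
    have h2 : Prod.mk y ⁻¹' (octStd ∩ Prod.fst ⁻¹' S) ⊆ Icc (1 / 2 - (y.1 + y.2)) (1 / 2) := by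
      rintro t ⟨⟨-, -, ⟨-, ht3⟩, ht4, -⟩, -⟩
      simp only at ht3 ht4
      exact ⟨by linarith, ht3⟩
    calc volume (Prod.mk y ⁻¹' (tetStd ∩ Prod.fst ⁻¹' S)) +
          volume (Prod.mk y ⁻¹' (octStd ∩ Prod.fst ⁻¹' S))
        ≤ volume (Icc (0 : ℝ) (1 - (y.1 + y.2))) +
          volume (Icc (1 / 2 - (y.1 + y.2)) (1 / 2 : ℝ)) :=
          add_le_add (measure_mono h1) (measure_mono h2)
      _ = ENNReal.ofReal (1 - (y.1 + y.2)) + ENNReal.ofReal (y.1 + y.2) := by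
          rw [Real.volume_Icc, Real.volume_Icc]
          congr 2 <;> ring
      _ = 1 := by
          rw [← ENNReal.ofReal_add (by linarith) (by linarith)]
          simp
  · rw [indicator_of_notMem hy]
    have h1 : Prod.mk y ⁻¹' (tetStd ∩ Prod.fst ⁻¹' S) = ∅ := by
      ext t
      simp only [mem_preimage, mem_inter_iff, mem_empty_iff_false, iff_false, not_and]
      rintro ⟨ht1, ht2, ht3, ht4⟩ hyS
      simp only at ht1 ht2 ht3 ht4
      exact hy ⟨hyS, ht1, ht2, by linarith⟩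
    have h2 : Prod.mk y ⁻¹' (octStd ∩ Prod.fst ⁻¹' S) = ∅ := by
      ext t
      simp only [mem_preimage, mem_inter_iff, mem_empty_iff_false, iff_false, not_and]
      rintro ⟨⟨ht1, -⟩, ⟨ht2, -⟩, ⟨ht3, -⟩, -, ht4⟩ hyS
      simp only at ht1 ht2 ht3 ht4
      exact hy ⟨hyS, ht1, ht2, by linarith⟩
    rw [h1, h2]
    simp

/-- Over the quarter of the triangle nearest to the origin the inequality `std_le` is an
equality (only `≥` is needed). -/
theorem std_ge {S : Set (ℝ × ℝ)} (hS : MeasurableSet S)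
    (hsub : S ⊆ {y | 0 ≤ y.1 ∧ 0 ≤ y.2 ∧ y.1 + y.2 ≤ 1 / 2}) :
    volume S ≤ volume (tetStd ∩ Prod.fst ⁻¹' S) + volume (octStd ∩ Prod.fst ⁻¹' S) := by
  have hm1 : MeasurableSet (tetStd ∩ Prod.fst ⁻¹' S) :=
    isClosed_tetStd.measurableSet.inter (measurable_fst hS)
  have hm2 : MeasurableSet (octStd ∩ Prod.fst ⁻¹' S) :=
    isClosed_octStd.measurableSet.inter (measurable_fst hS)
  rw [volume_eq_lintegral_fibre hm1, volume_eq_lintegral_fibre hm2,
    ← lintegral_add_left (measurable_measure_prodMk_left hm1),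
    ← lintegral_indicator_one hS]
  refine lintegral_mono fun y => ?_
  by_cases hy : y ∈ S
  · rw [indicator_of_mem hy, Pi.one_apply]
    obtain ⟨hy1, hy2, hy3⟩ := hsub hy
    have h1 : Icc 0 (1 - (y.1 + y.2)) ⊆ Prod.mk y ⁻¹' (tetStd ∩ Prod.fst ⁻¹' S) := by
      rintro t ⟨ht1, ht2⟩
      exact ⟨⟨hy1, hy2, ht1, by show y.1 + y.2 + t ≤ 1; linarith⟩, hy⟩
    have h2 : Icc (1 / 2 - (y.1 + y.2)) (1 / 2) ⊆ Prod.mk y ⁻¹' (octStd ∩ Prod.fst ⁻¹' S) := by
      rintro t ⟨ht1, ht2⟩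
      refine ⟨⟨⟨hy1, ?_⟩, ⟨hy2, ?_⟩, ⟨?_, ht2⟩, ?_, ?_⟩, hy⟩
      · show y.1 ≤ 1 / 2; linarith
      · show y.2 ≤ 1 / 2; linarith
      · show 0 ≤ t; linarith
      · show 1 / 2 ≤ y.1 + y.2 + t; linarith
      · show y.1 + y.2 + t ≤ 1; linarith
    calc (1 : ENNReal) = ENNReal.ofReal (1 - (y.1 + y.2)) + ENNReal.ofReal (y.1 + y.2) := by
          rw [← ENNReal.ofReal_add (by linarith) (by linarith)]
          simp
      _ = volume (Icc (0 : ℝ) (1 - (y.1 + y.2))) +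
          volume (Icc (1 / 2 - (y.1 + y.2)) (1 / 2 : ℝ)) := by
          rw [Real.volume_Icc, Real.volume_Icc]
          congr 2 <;> ring
      _ ≤ _ := add_le_add (measure_mono h1) (measure_mono h2)
  · rw [indicator_of_notMem hy]
    exact bot_le

theorem tetStd_subset_box : tetStd ⊆ (Icc 0 1 ×ˢ Icc 0 1) ×ˢ Icc 0 1 := by
  rintro ⟨⟨a, b⟩, t⟩ ⟨h1, h2, h3, h4⟩
  simp only at h1 h2 h3 h4
  refine ⟨⟨⟨h1, ?_⟩, ⟨h2, ?_⟩⟩, ⟨h3, ?_⟩⟩ <;> simp only <;> linarith

theorem volume_tetStd_ne_top : volume tetStd ≠ ⊤ := by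
  refine ((measure_mono tetStd_subset_box).trans_lt ?_).ne
  rw [Measure.volume_eq_prod, Measure.prod_prod, Measure.volume_eq_prod, Measure.prod_prod,
    Real.volume_Icc]
  simp

theorem volume_tetStd_pos : 0 < volume tetStd := by
  have hsub : (Ioo (0 : ℝ) (1 / 3) ×ˢ Ioo (0 : ℝ) (1 / 3)) ×ˢ Ioo (0 : ℝ) (1 / 3) ⊆ tetStd := by
    rintro ⟨⟨a, b⟩, t⟩ ⟨⟨⟨h1, h1'⟩, ⟨h2, h2'⟩⟩, ⟨h3, h3'⟩⟩
    simp only at h1 h1' h2 h2' h3 h3'
    exact ⟨h1.le, h2.le, h3.le, by show a + b + t ≤ 1; linarith⟩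
  refine lt_of_lt_of_le ?_ (measure_mono hsub)
  rw [Measure.volume_eq_prod, Measure.prod_prod, Measure.volume_eq_prod, Measure.prod_prod,
    Real.volume_Ioo]
  simp

theorem triStd_subset_box : triStd ⊆ Icc 0 1 ×ˢ Icc 0 1 := by
  rintro ⟨a, b⟩ ⟨h1, h2, h3⟩
  simp only at h1 h2 h3
  refine ⟨⟨h1, ?_⟩, ⟨h2, ?_⟩⟩ <;> simp only <;> linarith

theorem volume_triStd_ne_top : volume triStd ≠ ⊤ := by
  refine ((measure_mono triStd_subset_box).trans_lt ?_).ne
  rw [Measure.volume_eq_prod, Measure.prod_prod, Real.volume_Icc]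
  simp

theorem volume_triStd_pos : 0 < volume triStd := by
  have hsub : Ioo (0 : ℝ) (1 / 3) ×ˢ Ioo (0 : ℝ) (1 / 3) ⊆ triStd := by
    rintro ⟨a, b⟩ ⟨⟨h1, h1'⟩, ⟨h2, h2'⟩⟩
    simp only at h1 h1' h2 h2'
    exact ⟨h1.le, h2.le, by show a + b ≤ 1; linarith⟩
  refine lt_of_lt_of_le ?_ (measure_mono hsub)
  rw [Measure.volume_eq_prod, Measure.prod_prod, Real.volume_Ioo]
  simp

/-- The linear part of the affine involution exchanging the two pairs of barycentric
coordinates. -/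
def flipLin : (ℝ × ℝ) × ℝ →ₗ[ℝ] (ℝ × ℝ) × ℝ where
  toFun z := ((z.2, -z.1.1 - z.1.2 - z.2), z.1.1)
  map_add' x y := by
    refine Prod.ext (Prod.ext ?_ ?_) ?_ <;> simp <;> ring
  map_smul' c x := by
    refine Prod.ext (Prod.ext ?_ ?_) ?_ <;> simp <;> ring

theorem flipLin_apply (z : (ℝ × ℝ) × ℝ) :
    flipLin z = ((z.2, -z.1.1 - z.1.2 - z.2), z.1.1) := rfl

theorem flipLin_involutive : Function.Involutive flipLin := by
  intro z
  rw [flipLin_apply, flipLin_apply]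
  refine Prod.ext (Prod.ext ?_ ?_) ?_
  · simp
  · simp only
    ring
  · simp

/-- The affine involution `(t, 1 - y₁ - y₂ - t, y₁, y₂) ↦ (y₁, y₂, t, 1 - y₁ - y₂ - t)` of
the barycentric coordinates, in chart coordinates. -/
def flipAff (z : (ℝ × ℝ) × ℝ) : (ℝ × ℝ) × ℝ := ((z.2, 1 - z.1.1 - z.1.2 - z.2), z.1.1)

theorem flipAff_eq (z : (ℝ × ℝ) × ℝ) : flipAff z = ((0, 1), 0) + flipLin z := by
  rw [flipLin_apply]
  refine Prod.ext (Prod.ext ?_ ?_) ?_ <;> simp [flipAff] <;> ring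

theorem flipAff_involutive : Function.Involutive flipAff := by
  intro z
  refine Prod.ext (Prod.ext ?_ ?_) ?_
  · simp [flipAff]
  · simp only [flipAff]
    ring
  · simp [flipAff]

theorem flipAff_mem_tetStd {z : (ℝ × ℝ) × ℝ} (hz : z ∈ tetStd) : flipAff z ∈ tetStd := by
  obtain ⟨h1, h2, h3, h4⟩ := hz
  refine ⟨h3, ?_, h1, ?_⟩
  · show 0 ≤ 1 - z.1.1 - z.1.2 - z.2
    linarith
  · show z.2 + (1 - z.1.1 - z.1.2 - z.2) + z.1.1 ≤ 1
    linarith

theorem flipAff_mem_octStd {z : (ℝ × ℝ) × ℝ} (hz : z ∈ octStd) : flipAff z ∈ octStd := by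
  obtain ⟨⟨h1, h1'⟩, ⟨h2, h2'⟩, ⟨h3, h3'⟩, h4, h5⟩ := hz
  refine ⟨⟨h3, h3'⟩, ⟨?_, ?_⟩, ⟨h1, h1'⟩, ?_, ?_⟩
  · show 0 ≤ 1 - z.1.1 - z.1.2 - z.2
    linarith
  · show 1 - z.1.1 - z.1.2 - z.2 ≤ 1 / 2
    linarith
  · show 1 / 2 ≤ z.2 + (1 - z.1.1 - z.1.2 - z.2) + z.1.1
    linarith
  · show z.2 + (1 - z.1.1 - z.1.2 - z.2) + z.1.1 ≤ 1
    linarith

theorem flipAff_image_tetStd : flipAff '' tetStd = tetStd := by
  apply Subset.antisymm
  · rintro _ ⟨z, hz, rfl⟩
    exact flipAff_mem_tetStd hz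
  · intro w hw
    exact ⟨flipAff w, flipAff_mem_tetStd hw, flipAff_involutive w⟩

theorem volume_flipAff_image (A : Set ((ℝ × ℝ) × ℝ)) : volume (flipAff '' A) = volume A := by
  haveI : (volume : Measure ((ℝ × ℝ) × ℝ)).IsAddHaarMeasure := by
    rw [Measure.volume_eq_prod]
    infer_instance
  set L : ((ℝ × ℝ) × ℝ) ≃L[ℝ] ((ℝ × ℝ) × ℝ) :=
    (LinearEquiv.ofInvolutive flipLin flipLin_involutive).toContinuousLinearEquiv with hL
  have hLapp : ∀ z, L z = flipLin z := fun z => rfl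
  obtain ⟨c, hc0, hct, hc⟩ := exists_scale_equiv (volume : Measure ((ℝ × ℝ) × ℝ))
    (volume : Measure ((ℝ × ℝ) × ℝ)) L
  have hvol : ∀ A : Set ((ℝ × ℝ) × ℝ), volume (flipAff '' A) = c * volume A := by
    intro A
    have himg : flipAff '' A = (fun x => (((0, 1), 0) : (ℝ × ℝ) × ℝ) + x) '' (L '' A) := by
      rw [image_image]
      exact image_congr fun z _ => by rw [flipAff_eq, hLapp]
    rw [himg, image_add_left, measure_preimage_add, hc]
  have h1 : c = 1 := by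
    have h2 := hvol tetStd
    rw [flipAff_image_tetStd] at h2
    exact (ENNReal.mul_eq_right volume_tetStd_pos.ne' volume_tetStd_ne_top).mp h2.symm
  rw [hvol, h1, one_mul]

theorem volume_line_null : volume {y : ℝ × ℝ | y.1 + y.2 = 1 / 2} = 0 := by
  have hm : MeasurableSet {y : ℝ × ℝ | y.1 + y.2 = 1 / 2} :=
    (isClosed_eq (by fun_prop) (by fun_prop)).measurableSet
  rw [Measure.volume_eq_prod, Measure.measure_prod_null hm]
  refine Filter.Eventually.of_forall fun a => ?_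
  have h : Prod.mk a ⁻¹' {y : ℝ × ℝ | y.1 + y.2 = 1 / 2} = {1 / 2 - a} := by
    ext b
    simp only [mem_preimage, mem_ofPred_eq, mem_singleton_iff]
    constructor <;> intro h <;> linarith
  show volume (Prod.mk a ⁻¹' {y : ℝ × ℝ | y.1 + y.2 = 1 / 2}) = 0
  rw [h]
  exact Real.volume_singleton

def quarterStd : Set (ℝ × ℝ) := {y | 0 ≤ y.1 ∧ 0 ≤ y.2 ∧ y.1 + y.2 < 1 / 2}

theorem measurableSet_quarterStd : MeasurableSet quarterStd := by
  simp only [quarterStd, ofPred_and]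
  exact (isClosed_le (by fun_prop) (by fun_prop)).measurableSet.inter
    ((isClosed_le (by fun_prop) (by fun_prop)).measurableSet.inter
      (isOpen_lt (by fun_prop) (by fun_prop)).measurableSet)

theorem volume_quarterStd : ENNReal.ofReal (1 / 4) * volume triStd ≤ volume quarterStd := by
  haveI : (volume : Measure (ℝ × ℝ)).IsAddHaarMeasure := by
    rw [Measure.volume_eq_prod]
    infer_instance
  have h := Measure.addHaar_smul (volume : Measure (ℝ × ℝ)) (1 / 2 : ℝ) triStd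
  have hfin : Module.finrank ℝ (ℝ × ℝ) = 2 := by simp
  rw [hfin] at h
  have hsub : (1 / 2 : ℝ) • triStd ⊆ quarterStd ∪ {y : ℝ × ℝ | y.1 + y.2 = 1 / 2} := by
    rintro _ ⟨y, ⟨h1, h2, h3⟩, rfl⟩
    by_cases hy : y.1 + y.2 = 1
    · right
      show (1 / 2 : ℝ) * y.1 + (1 / 2 : ℝ) * y.2 = 1 / 2
      linarith
    · left
      have hlt : y.1 + y.2 < 1 := lt_of_le_of_ne h3 hy
      refine ⟨?_, ?_, ?_⟩
      · show 0 ≤ (1 / 2 : ℝ) * y.1
        linarith
      · show 0 ≤ (1 / 2 : ℝ) * y.2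
        linarith
      · show (1 / 2 : ℝ) * y.1 + (1 / 2 : ℝ) * y.2 < 1 / 2
        linarith
  calc ENNReal.ofReal (1 / 4) * volume triStd = volume ((1 / 2 : ℝ) • triStd) := by
        rw [h]
        congr 2
        norm_num [abs_of_pos]
    _ ≤ volume (quarterStd ∪ {y : ℝ × ℝ | y.1 + y.2 = 1 / 2}) := measure_mono hsub
    _ ≤ volume quarterStd + volume {y : ℝ × ℝ | y.1 + y.2 = 1 / 2} := measure_union_le _ _
    _ = volume quarterStd := by rw [volume_line_null, add_zero]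

/-- The volumes of the standard tetrahedron and of its central octahedron add up to at
least half the area of the triangle. -/
theorem std_total : volume triStd / 2 ≤ volume tetStd + volume octStd := by
  set P : Set ((ℝ × ℝ) × ℝ) := Prod.fst ⁻¹' quarterStd with hP
  have hPm : MeasurableSet P := measurable_fst measurableSet_quarterStd
  have key : ∀ X : Set ((ℝ × ℝ) × ℝ), (∀ z ∈ X, flipAff z ∈ X) →
      volume (X ∩ P) + volume (X ∩ P) ≤ volume X := by
    intro X hX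
    have hsub : flipAff '' (X ∩ P) ⊆ X \ P := by
      rintro _ ⟨z, ⟨hz, hzP⟩, rfl⟩
      refine ⟨hX z hz, fun hcon => ?_⟩
      have h3 : z.1.1 + z.1.2 < 1 / 2 := hzP.2.2
      have h4 : z.2 + (1 - z.1.1 - z.1.2 - z.2) < 1 / 2 := hcon.2.2
      linarith
    calc volume (X ∩ P) + volume (X ∩ P)
        = volume (X ∩ P) + volume (flipAff '' (X ∩ P)) := by rw [volume_flipAff_image]
      _ ≤ volume (X ∩ P) + volume (X \ P) := add_le_add le_rfl (measure_mono hsub)
      _ = volume X := measure_inter_add_sdiff X hPm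
  have h1 := key tetStd fun z hz => flipAff_mem_tetStd hz
  have h2 := key octStd fun z hz => flipAff_mem_octStd hz
  have h3 := std_ge measurableSet_quarterStd
    (fun y hy => ⟨hy.1, hy.2.1, hy.2.2.le⟩)
  have h4 := volume_quarterStd
  have e : volume triStd / 2 =
      ENNReal.ofReal (1 / 4) * volume triStd + ENNReal.ofReal (1 / 4) * volume triStd := by
    rw [← add_mul, ← ENNReal.ofReal_add (by norm_num) (by norm_num), ENNReal.div_eq_inv_mul]
    congr 1
    rw [show (1 : ℝ) / 4 + 1 / 4 = 2⁻¹ by norm_num, ENNReal.ofReal_inv_of_pos (by norm_num)]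
    simp
  calc volume triStd / 2
      = ENNReal.ofReal (1 / 4) * volume triStd + ENNReal.ofReal (1 / 4) * volume triStd := e
    _ ≤ volume quarterStd + volume quarterStd := add_le_add h4 h4
    _ ≤ (volume (tetStd ∩ P) + volume (octStd ∩ P)) +
        (volume (tetStd ∩ P) + volume (octStd ∩ P)) := add_le_add h3 h3
    _ = (volume (tetStd ∩ P) + volume (tetStd ∩ P)) +
        (volume (octStd ∩ P) + volume (octStd ∩ P)) := by ring
    _ ≤ volume tetStd + volume octStd := add_le_add h1 h2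

theorem fst_image_tetStd : Prod.fst '' tetStd = triStd := by
  apply Subset.antisymm
  · rintro _ ⟨z, ⟨h1, h2, h3, h4⟩, rfl⟩
    exact ⟨h1, h2, by linarith⟩
  · rintro y ⟨h1, h2, h3⟩
    exact ⟨(y, 0), ⟨h1, h2, le_rfl, by show y.1 + y.2 + 0 ≤ 1; linarith⟩, rfl⟩

end Vale.Agent.Lib.P243
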