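import Vale.Agent.Lib.P243.Tetra

/-!
# P243: a tetrahedron covered by cylinders whose axes are parallel to its edges

For a tetrahedron `T` with central octahedron `O` (the points all of whose barycentric
coordinates are at most `1/2`), a line parallel to an edge meets `T` and `O` in segments whose
lengths add up to at most the length of that edge.  Hence a cylinder whose axis is parallel
to an edge and whose base has relative area `β` satisfies
`vol (T ∩ C) + vol (O ∩ C) ≤ 2 β (vol T + vol O)`.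
-/

namespace Vale.Agent.Lib.P243

open MeasureTheory Set

/-- The closed tetrahedron with vertices `u 0, …, u 3`, by barycentric coordinates. -/
def tetSet (u : Fin 4 → Fin 3 → ℝ) : Set (Fin 3 → ℝ) :=
  {x | ∃ w : Fin 4 → ℝ, (∀ i, 0 ≤ w i) ∧ ∑ i, w i = 1 ∧ x = ∑ i, w i • u i}

/-- The central octahedron: all barycentric coordinates are at most `1/2`. -/
def octSet (u : Fin 4 → Fin 3 → ℝ) : Set (Fin 3 → ℝ) :=
  {x | ∃ w : Fin 4 → ℝ, (∀ i, 0 ≤ w i ∧ w i ≤ 1 / 2) ∧ ∑ i, w i = 1 ∧ x = ∑ i, w i • u i}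

theorem octSet_subset_tetSet (u : Fin 4 → Fin 3 → ℝ) : octSet u ⊆ tetSet u :=
  fun _ ⟨w, hw, hs, hx⟩ => ⟨w, fun i => (hw i).1, hs, hx⟩

theorem tetSet_perm (u : Fin 4 → Fin 3 → ℝ) (σ : Equiv.Perm (Fin 4)) :
    tetSet (u ∘ σ) = tetSet u := by
  ext x
  constructor
  · rintro ⟨w, hw, hs, rfl⟩
    refine ⟨w ∘ σ.symm, fun i => hw _, ?_, ?_⟩
    · rw [← hs]
      exact Equiv.sum_comp σ.symm w
    · rw [← Equiv.sum_comp σ (fun i => (w ∘ σ.symm) i • u i)]
      simp
  · rintro ⟨w, hw, hs, rfl⟩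
    refine ⟨w ∘ σ, fun i => hw _, ?_, ?_⟩
    · rw [← hs]
      exact Equiv.sum_comp σ w
    · rw [← Equiv.sum_comp σ (fun i => w i • u i)]
      rfl

theorem octSet_perm (u : Fin 4 → Fin 3 → ℝ) (σ : Equiv.Perm (Fin 4)) :
    octSet (u ∘ σ) = octSet u := by
  ext x
  constructor
  · rintro ⟨w, hw, hs, rfl⟩
    refine ⟨w ∘ σ.symm, fun i => hw _, ?_, ?_⟩
    · rw [← hs]
      exact Equiv.sum_comp σ.symm w
    · rw [← Equiv.sum_comp σ (fun i => (w ∘ σ.symm) i • u i)]
      simp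
  · rintro ⟨w, hw, hs, rfl⟩
    refine ⟨w ∘ σ, fun i => hw _, ?_, ?_⟩
    · rw [← hs]
      exact Equiv.sum_comp σ w
    · rw [← Equiv.sum_comp σ (fun i => w i • u i)]
      rfl

theorem tetSet_eq_convexHull (u : Fin 4 → Fin 3 → ℝ) : tetSet u = convexHull ℝ (range u) := by
  apply Subset.antisymm
  · rintro x ⟨w, hw, hs, rfl⟩
    exact (convex_convexHull ℝ _).sum_mem (fun i _ => hw i) hs
      (fun i _ => subset_convexHull ℝ _ (mem_range_self i))
  · refine convexHull_min ?_ ?_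
    · rintro _ ⟨i, rfl⟩
      refine ⟨Pi.single i 1, fun j => ?_, ?_, ?_⟩
      · by_cases h : j = i
        · subst h; simp
        · simp [Pi.single_apply, h]
      · simp
      · simp [Pi.single_apply]
    · rintro x ⟨w, hw, hs, rfl⟩ y ⟨w', hw', hs', rfl⟩ a b ha hb hab
      refine ⟨fun i => a * w i + b * w' i,
        fun i => add_nonneg (mul_nonneg ha (hw i)) (mul_nonneg hb (hw' i)), ?_, ?_⟩
      · rw [Finset.sum_add_distrib, ← Finset.mul_sum, ← Finset.mul_sum, hs, hs']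
        simpa using hab
      · simp only [add_smul, mul_smul, Finset.sum_add_distrib, Finset.smul_sum]

/-- The linear part of the chart adapted to the edge `u 0`, `u 1`. -/
def chartLin (u : Fin 4 → Fin 3 → ℝ) : (ℝ × ℝ) × ℝ →ₗ[ℝ] (Fin 3 → ℝ) where
  toFun z := z.1.1 • (u 2 - u 1) + z.1.2 • (u 3 - u 1) + z.2 • (u 0 - u 1)
  map_add' x y := by
    simp only [Prod.fst_add, Prod.snd_add, add_smul]
    abel
  map_smul' c x := by
    simp only [Prod.smul_fst, Prod.smul_snd, smul_eq_mul, mul_smul, RingHom.id_apply, smul_add]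

theorem chartLin_apply (u : Fin 4 → Fin 3 → ℝ) (z : (ℝ × ℝ) × ℝ) :
    chartLin u z = z.1.1 • (u 2 - u 1) + z.1.2 • (u 3 - u 1) + z.2 • (u 0 - u 1) := rfl

/-- The chart adapted to the edge `u 0`, `u 1`: the barycentric coordinates of `chart u z`
are `z.2`, `1 - z.1.1 - z.1.2 - z.2`, `z.1.1`, `z.1.2`. -/
def chart (u : Fin 4 → Fin 3 → ℝ) (z : (ℝ × ℝ) × ℝ) : Fin 3 → ℝ := u 1 + chartLin u z

theorem chart_eq_sum (u : Fin 4 → Fin 3 → ℝ) (z : (ℝ × ℝ) × ℝ) :
    chart u z =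
      z.2 • u 0 + (1 - z.1.1 - z.1.2 - z.2) • u 1 + z.1.1 • u 2 + z.1.2 • u 3 := by
  rw [chart, chartLin_apply]
  module

theorem chart_image_tetStd (u : Fin 4 → Fin 3 → ℝ) : chart u '' tetStd = tetSet u := by
  apply Subset.antisymm
  · rintro _ ⟨z, ⟨h1, h2, h3, h4⟩, rfl⟩
    refine ⟨![z.2, 1 - z.1.1 - z.1.2 - z.2, z.1.1, z.1.2], ?_, ?_, ?_⟩
    · intro i
      fin_cases i
      · exact h3
      · show 0 ≤ 1 - z.1.1 - z.1.2 - z.2
        linarith
      · exact h1
      · exact h2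
    · rw [Fin.sum_univ_four]
      show z.2 + (1 - z.1.1 - z.1.2 - z.2) + z.1.1 + z.1.2 = 1
      ring
    · rw [chart_eq_sum, Fin.sum_univ_four]
      rfl
  · rintro _ ⟨w, hw, hs, rfl⟩
    rw [Fin.sum_univ_four] at hs
    refine ⟨((w 2, w 3), w 0), ⟨hw 2, hw 3, hw 0, ?_⟩, ?_⟩
    · show w 2 + w 3 + w 0 ≤ 1
      linarith [hw 1]
    · rw [chart_eq_sum, Fin.sum_univ_four]
      have e : 1 - w 2 - w 3 - w 0 = w 1 := by linarith
      simp only
      rw [e]

theorem chart_image_octStd (u : Fin 4 → Fin 3 → ℝ) : chart u '' octStd = octSet u := by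
  apply Subset.antisymm
  · rintro _ ⟨z, ⟨⟨h1, h1'⟩, ⟨h2, h2'⟩, ⟨h3, h3'⟩, h4, h5⟩, rfl⟩
    refine ⟨![z.2, 1 - z.1.1 - z.1.2 - z.2, z.1.1, z.1.2], ?_, ?_, ?_⟩
    · intro i
      fin_cases i
      · exact ⟨h3, h3'⟩
      · show 0 ≤ 1 - z.1.1 - z.1.2 - z.2 ∧ 1 - z.1.1 - z.1.2 - z.2 ≤ 1 / 2
        constructor <;> linarith
      · exact ⟨h1, h1'⟩
      · exact ⟨h2, h2'⟩
    · rw [Fin.sum_univ_four]
      show z.2 + (1 - z.1.1 - z.1.2 - z.2) + z.1.1 + z.1.2 = 1
      ring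
    · rw [chart_eq_sum, Fin.sum_univ_four]
      rfl
  · rintro _ ⟨w, hw, hs, rfl⟩
    rw [Fin.sum_univ_four] at hs
    refine ⟨((w 2, w 3), w 0), ⟨hw 2, hw 3, hw 0, ?_, ?_⟩, ?_⟩
    · show 1 / 2 ≤ w 2 + w 3 + w 0
      linarith [(hw 1).2]
    · show w 2 + w 3 + w 0 ≤ 1
      linarith [(hw 1).1]
    · rw [chart_eq_sum, Fin.sum_univ_four]
      have e : 1 - w 2 - w 3 - w 0 = w 1 := by linarith
      simp only
      rw [e]

theorem chartLin_injective {u : Fin 4 → Fin 3 → ℝ} (hu : AffineIndependent ℝ u) :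
    Function.Injective (chartLin u) := by
  rw [← LinearMap.ker_eq_bot, Submodule.eq_bot_iff]
  intro z hz
  rw [LinearMap.mem_ker, chartLin_apply] at hz
  have hw := hu.eq_zero_of_sum_eq_zero (s := Finset.univ)
    (w := ![z.2, -z.1.1 - z.1.2 - z.2, z.1.1, z.1.2])
    (by
      rw [Fin.sum_univ_four]
      show z.2 + (-z.1.1 - z.1.2 - z.2) + z.1.1 + z.1.2 = 0
      ring)
    (by
      rw [Fin.sum_univ_four]
      show z.2 • u 0 + (-z.1.1 - z.1.2 - z.2) • u 1 + z.1.1 • u 2 + z.1.2 • u 3 = 0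
      rw [← hz]
      module)
  have h0 : z.2 = 0 := hw 0 (Finset.mem_univ _)
  have h2 : z.1.1 = 0 := hw 2 (Finset.mem_univ _)
  have h3 : z.1.2 = 0 := hw 3 (Finset.mem_univ _)
  exact Prod.ext (Prod.ext h2 h3) h0

/-- Images under the chart scale volumes by a constant. -/
theorem chart_scale {u : Fin 4 → Fin 3 → ℝ} (hu : AffineIndependent ℝ u) :
    ∃ c : ENNReal, c ≠ 0 ∧ c ≠ ⊤ ∧ ∀ A : Set ((ℝ × ℝ) × ℝ), volume (chart u '' A) = c * volume A := by
  haveI : (volume : Measure ((ℝ × ℝ) × ℝ)).IsAddHaarMeasure := by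
    rw [Measure.volume_eq_prod]
    infer_instance
  have hdim : Module.finrank ℝ ((ℝ × ℝ) × ℝ) = Module.finrank ℝ (Fin 3 → ℝ) := by simp
  set L : ((ℝ × ℝ) × ℝ) ≃L[ℝ] (Fin 3 → ℝ) :=
    (LinearMap.linearEquivOfInjective (chartLin u) (chartLin_injective hu)
      hdim).toContinuousLinearEquiv with hL
  have hLapp : ∀ z, L z = chartLin u z := fun z => rfl
  obtain ⟨c, hc0, hct, hc⟩ := exists_scale_equiv (volume : Measure ((ℝ × ℝ) × ℝ))
    (volume : Measure (Fin 3 → ℝ)) L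
  refine ⟨c, hc0, hct, fun A => ?_⟩
  have himg : chart u '' A = (fun x => u 1 + x) '' (L '' A) := by
    rw [image_image]
    exact image_congr fun z _ => by rw [chart, hLapp]
  rw [himg, image_add_left, measure_preimage_add, hc]

theorem chartLin_surjective {u : Fin 4 → Fin 3 → ℝ} (hu : AffineIndependent ℝ u) :
    Function.Surjective (chartLin u) := by
  have hdim : Module.finrank ℝ ((ℝ × ℝ) × ℝ) = Module.finrank ℝ (Fin 3 → ℝ) := by simp
  exact (LinearMap.linearEquivOfInjective (chartLin u) (chartLin_injective hu) hdim).surjective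

/-- A cylinder `q ⁻¹' B` whose axis is parallel to the edge `u 0`, `u 1` of the tetrahedron
`T = tetSet u`: with `O` the central octahedron and `β` the relative area of the base,
`vol (T ∩ C) + vol (O ∩ C) ≤ 2 β (vol T + vol O)`. -/
theorem tet_cylinder {u : Fin 4 → Fin 3 → ℝ} (hu : AffineIndependent ℝ u)
    (q : (Fin 3 → ℝ) →ₗ[ℝ] ℝ × ℝ) (hq : Function.Surjective q) (h01 : q (u 0 - u 1) = 0)
    {B : Set (ℝ × ℝ)} (hB : MeasurableSet B) :
    volume (tetSet u ∩ q ⁻¹' B) + volume (octSet u ∩ q ⁻¹' B) ≤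
      2 * (volume (tetSet u) + volume (octSet u)) *
        (volume (B ∩ q '' tetSet u) / volume (q '' tetSet u)) := by
  obtain ⟨c, hc0, hct, hc⟩ := chart_scale hu
  set a₁ : ℝ × ℝ := q (u 2 - u 1) with ha₁
  set a₂ : ℝ × ℝ := q (u 3 - u 1) with ha₂
  set Λ : ℝ × ℝ →ₗ[ℝ] ℝ × ℝ :=
    (LinearMap.toSpanSingleton ℝ (ℝ × ℝ) a₁).coprod (LinearMap.toSpanSingleton ℝ (ℝ × ℝ) a₂)
    with hΛ
  have hΛapp : ∀ y : ℝ × ℝ, Λ y = y.1 • a₁ + y.2 • a₂ := fun y => by
    rw [hΛ, LinearMap.coprod_apply, LinearMap.toSpanSingleton_apply,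
      LinearMap.toSpanSingleton_apply]
  have hqL : ∀ z, q (chartLin u z) = Λ z.1 := by
    intro z
    rw [chartLin_apply, map_add, map_add, map_smul, map_smul, map_smul, h01, smul_zero, add_zero,
      hΛapp]
  have hΛsurj : Function.Surjective Λ := by
    intro b
    obtain ⟨x, rfl⟩ := hq b
    obtain ⟨z, rfl⟩ := chartLin_surjective hu x
    exact ⟨z.1, (hqL z).symm⟩
  have hΛinj : Function.Injective Λ := LinearMap.injective_iff_surjective.mpr hΛsurj
  set M : (ℝ × ℝ) ≃L[ℝ] (ℝ × ℝ) :=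
    (LinearEquiv.ofBijective Λ ⟨hΛinj, hΛsurj⟩).toContinuousLinearEquiv with hM
  have hMapp : ∀ y, M y = Λ y := fun y => rfl
  haveI : (volume : Measure (ℝ × ℝ)).IsAddHaarMeasure := by
    rw [Measure.volume_eq_prod]
    infer_instance
  obtain ⟨c₂, hc₂0, hc₂t, hc₂⟩ := exists_scale_equiv (volume : Measure (ℝ × ℝ))
    (volume : Measure (ℝ × ℝ)) M
  set g : ℝ × ℝ → ℝ × ℝ := fun y => q (u 1) + M y with hg
  have hgvol : ∀ A : Set (ℝ × ℝ), volume (g '' A) = c₂ * volume A := by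
    intro A
    have himg : g '' A = (fun x => q (u 1) + x) '' (M '' A) := by
      rw [image_image]
    rw [himg, image_add_left, measure_preimage_add, hc₂]
  have hqchart : ∀ z, q (chart u z) = g z.1 := by
    intro z
    rw [chart, map_add, hqL]
    rfl
  have hgmeas : Measurable g := (continuous_const.add M.continuous).measurable
  set S : Set (ℝ × ℝ) := g ⁻¹' B with hS
  have hSm : MeasurableSet S := hgmeas hB
  have hpre : chart u ⁻¹' (q ⁻¹' B) = Prod.fst ⁻¹' S := by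
    ext z
    simp only [mem_preimage, hS]
    rw [hqchart]
  have e1 : tetSet u ∩ q ⁻¹' B = chart u '' (tetStd ∩ Prod.fst ⁻¹' S) := by
    rw [← chart_image_tetStd, ← hpre, image_inter_preimage]
  have e2 : octSet u ∩ q ⁻¹' B = chart u '' (octStd ∩ Prod.fst ⁻¹' S) := by
    rw [← chart_image_octStd, ← hpre, image_inter_preimage]
  have e3 : q '' tetSet u = g '' triStd := by
    rw [← chart_image_tetStd, image_image, ← fst_image_tetStd, image_image]
    exact image_congr fun z _ => hqchart z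
  have e4 : g '' (S ∩ triStd) ⊆ B ∩ q '' tetSet u := by
    rintro _ ⟨y, ⟨hyS, hyT⟩, rfl⟩
    exact ⟨hyS, by rw [e3]; exact mem_image_of_mem g hyT⟩
  have hT : volume (tetSet u) = c * volume tetStd := by rw [← chart_image_tetStd, hc]
  have hO : volume (octSet u) = c * volume octStd := by rw [← chart_image_octStd, hc]
  have hqT : volume (q '' tetSet u) = c₂ * volume triStd := by rw [e3, hgvol]
  have hBT : c₂ * volume (S ∩ triStd) ≤ volume (B ∩ q '' tetSet u) := by
    rw [← hgvol]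
    exact measure_mono e4
  have hle := std_le hSm
  have htot := std_total
  have hV0 : volume triStd ≠ 0 := volume_triStd_pos.ne'
  have hVt : volume triStd ≠ ⊤ := volume_triStd_ne_top
  rw [e1, e2, hc, hc, ← mul_add, hT, hO, ← mul_add, hqT]
  calc c * (volume (tetStd ∩ Prod.fst ⁻¹' S) + volume (octStd ∩ Prod.fst ⁻¹' S))
      ≤ c * volume (S ∩ triStd) := by gcongr
    _ = 2 * (c * (volume triStd / 2)) * (c₂ * volume (S ∩ triStd) / (c₂ * volume triStd)) := by
        rw [ENNReal.mul_div_mul_left _ _ hc₂0 hc₂t, mul_left_comm (2 : ENNReal) c, two_mul,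
          ENNReal.add_halves, mul_assoc, ENNReal.mul_div_cancel hV0 hVt]
    _ ≤ 2 * (c * (volume tetStd + volume octStd)) *
        (volume (B ∩ q '' tetSet u) / (c₂ * volume triStd)) := by gcongr

theorem exists_perm (a b : Fin 4) (hab : a ≠ b) :
    ∃ σ : Equiv.Perm (Fin 4), σ 0 = a ∧ σ 1 = b := by
  revert a b
  decide

/-- A tetrahedron covered by cylinders `q i ⁻¹' B i` whose axes are parallel to edges. -/
theorem tetra_edges {ι : Type*} [Fintype ι] (v : Fin 4 → Fin 3 → ℝ)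
    (hv : AffineIndependent ℝ v)
    (q : ι → (Fin 3 → ℝ) →ₗ[ℝ] ℝ × ℝ) (hq : ∀ i, Function.Surjective (q i))
    (hax : ∀ i, ∃ a b : Fin 4, a ≠ b ∧ q i (v a - v b) = 0)
    (B : ι → Set (ℝ × ℝ)) (hcov : ∀ p ∈ convexHull ℝ (range v), ∃ i, q i p ∈ B i) :
    (1 : ENNReal) / 2 ≤ ∑ i, volume (B i) / volume (q i '' convexHull ℝ (range v)) := by
  rw [← tetSet_eq_convexHull] at hcov ⊢
  set T := tetSet v with hT
  set O := octSet v with hO
  set W := volume T + volume O with hW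
  set B' : ι → Set (ℝ × ℝ) := fun i => toMeasurable volume (B i) with hB'
  have hB'm : ∀ i, MeasurableSet (B' i) := fun i => measurableSet_toMeasurable _ _
  have hsubT : T ⊆ ⋃ i, T ∩ q i ⁻¹' B' i := by
    intro p hp
    obtain ⟨i, hi⟩ := hcov p hp
    exact mem_iUnion.mpr ⟨i, hp, subset_toMeasurable _ _ hi⟩
  have hsubO : O ⊆ ⋃ i, O ∩ q i ⁻¹' B' i := by
    intro p hp
    obtain ⟨i, hi⟩ := hcov p (octSet_subset_tetSet v hp)
    exact mem_iUnion.mpr ⟨i, hp, subset_toMeasurable _ _ hi⟩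
  have hcyl : ∀ i, volume (T ∩ q i ⁻¹' B' i) + volume (O ∩ q i ⁻¹' B' i) ≤
      2 * W * (volume (B i) / volume (q i '' T)) := by
    intro i
    obtain ⟨a, b, hab, h0⟩ := hax i
    obtain ⟨σ, hσ0, hσ1⟩ := exists_perm a b hab
    have hu : AffineIndependent ℝ (v ∘ σ) := hv.comp_embedding σ.toEmbedding
    have h := tet_cylinder hu (q i) (hq i)
      (by simp only [Function.comp_apply, hσ0, hσ1]; exact h0) (hB'm i)
    rw [tetSet_perm, octSet_perm] at h
    have hle : volume (B' i ∩ q i '' tetSet v) ≤ volume (B i) :=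
      calc volume (B' i ∩ q i '' tetSet v) ≤ volume (B' i) := measure_mono inter_subset_left
        _ = volume (B i) := measure_toMeasurable (B i)
    exact h.trans (mul_le_mul_right (ENNReal.div_le_div_right hle _) _)
  have hWle : W ≤ 2 * W * ∑ i, volume (B i) / volume (q i '' T) := by
    calc W ≤ (∑ i, volume (T ∩ q i ⁻¹' B' i)) + ∑ i, volume (O ∩ q i ⁻¹' B' i) :=
          add_le_add ((measure_mono hsubT).trans (measure_iUnion_fintype_le _ _))
            ((measure_mono hsubO).trans (measure_iUnion_fintype_le _ _))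
      _ = ∑ i, (volume (T ∩ q i ⁻¹' B' i) + volume (O ∩ q i ⁻¹' B' i)) :=
          Finset.sum_add_distrib.symm
      _ ≤ ∑ i, 2 * W * (volume (B i) / volume (q i '' T)) :=
          Finset.sum_le_sum fun i _ => hcyl i
      _ = 2 * W * ∑ i, volume (B i) / volume (q i '' T) := (Finset.mul_sum _ _ _).symm
  obtain ⟨c, hc0, -, hc⟩ := chart_scale hv
  have hTpos : 0 < volume T := by
    rw [hT, ← chart_image_tetStd, hc]
    exact pos_iff_ne_zero.mpr (mul_ne_zero hc0 volume_tetStd_pos.ne')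
  have hTfin : volume T < ⊤ := by
    rw [hT, tetSet_eq_convexHull]
    have hcpt : IsCompact (convexHull ℝ (range v)) :=
      (Set.finite_range v).isCompact_convexHull ℝ
    exact hcpt.measure_lt_top
  have hWpos : W ≠ 0 := (lt_of_lt_of_le hTpos le_self_add).ne'
  have hWfin : W ≠ ⊤ :=
    ENNReal.add_ne_top.mpr ⟨hTfin.ne,
      ((measure_mono (octSet_subset_tetSet v)).trans_lt hTfin).ne⟩
  have h1 : W * 1 ≤ W * (2 * ∑ i, volume (B i) / volume (q i '' T)) := by
    rw [mul_one]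
    calc W ≤ 2 * W * ∑ i, volume (B i) / volume (q i '' T) := hWle
      _ = W * (2 * ∑ i, volume (B i) / volume (q i '' T)) := by ring
  have h2 := (ENNReal.mul_le_mul_iff_right hWpos hWfin).mp h1
  exact ENNReal.div_le_of_le_mul' h2

end Vale.Agent.Lib.P243
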